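import Crest.Agent.R166.B2.Defs

/-!
# Row 166, block B2: algebra of the tree Green functions
-/

set_option autoImplicit false

open MeasureTheory ProbabilityTheory Filter Topology
open scoped ENNReal NNReal BigOperators Matrix

noncomputable section

namespace Crest.Agent.R166

/-- `Im Γ = Γᴴ diag(δ) Γ` when `Γ⁻¹ = M` is symmetric with `Im M = -diag δ` -/
theorem b2_im_inv {ι : Type} [Fintype ι] [DecidableEq ι] {Γ M : Matrix ι ι ℂ} (hM : Γ * M = 1)
    (hs : Mᵀ = M) {δ : ι → ℝ} (hδ : ∀ o, 0 < δ o) (hI : imM M = -Matrix.diagonal δ) :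
    (imM Γ).PosDef ∧ (imM Γ).det = ‖Γ.det‖ ^ 2 * ∏ o, δ o ∧
      ∀ x : ι → ℝ, Qf (imM Γ) x = ∑ o, ‖(M *ᵥ fun i => (x i : ℂ)) o‖ ^ 2 / δ o := by
  have hM' : M * Γ = 1 := mul_eq_one_comm.1 hM
  have hΓs : Γᵀ = Γ := by
    have h1 : Γᵀ * M = 1 := by rw [← hs, ← Matrix.transpose_mul, hM', Matrix.transpose_one]
    rw [← Matrix.mul_one Γᵀ, ← hM', ← Matrix.mul_assoc, h1, Matrix.one_mul]
  set D : Matrix ι ι ℂ := Matrix.diagonal fun o => (δ o : ℂ) with hD
  have hMH : Mᴴ - M = (2 * Complex.I) • D := by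
    ext i j
    have h1 : (M i j).im = -Matrix.diagonal δ i j := congrFun (congrFun hI i) j
    have h2 : M j i = M i j := congrFun (congrFun hs i) j
    have h3 : D i j = ((Matrix.diagonal δ i j : ℝ) : ℂ) := by
      simp only [hD, Matrix.diagonal_apply]; split_ifs <;> simp
    rw [Matrix.sub_apply, Matrix.conjTranspose_apply, h2, Matrix.smul_apply, h3]
    apply Complex.ext <;> simp [h1]
    ring
  have hH : Γᴴ * Mᴴ = 1 := by rw [← Matrix.conjTranspose_mul, hM', Matrix.conjTranspose_one]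
  have hH' : Mᴴ * Γᴴ = 1 := mul_eq_one_comm.1 hH
  have key : (imM Γ).map (fun x : ℝ => (x : ℂ)) = Γᴴ * D * Γ := by
    have h1 : (2 * Complex.I) • (Γᴴ * D * Γ) = Γ - Γᴴ := by
      rw [← Matrix.smul_mul, ← Matrix.mul_smul, ← hMH, Matrix.mul_sub, Matrix.sub_mul, hH,
        Matrix.one_mul, Matrix.mul_assoc, hM', Matrix.mul_one]
    have h2 : (2 * Complex.I) • (imM Γ).map (fun x : ℝ => (x : ℂ)) = Γ - Γᴴ := by
      ext i j
      have h3 : Γ j i = Γ i j := congrFun (congrFun hΓs i) j
      rw [Matrix.sub_apply, Matrix.conjTranspose_apply, h3]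
      apply Complex.ext <;> simp [imM]
      ring
    exact smul_right_injective _ (mul_ne_zero two_ne_zero Complex.I_ne_zero) (h2.trans h1.symm)
  have hdet : (imM Γ).det = ‖Γ.det‖ ^ 2 * ∏ o, δ o := by
    have h1 := congrArg Matrix.det key
    rw [show (fun x : ℝ => (x : ℂ)) = Complex.ofRealHom from rfl, ← RingHom.mapMatrix_apply,
      ← RingHom.map_det, Matrix.det_mul, Matrix.det_mul, Matrix.det_conjTranspose, hD,
      Matrix.det_diagonal, mul_right_comm] at h1
    apply Complex.ofReal_injective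
    push_cast
    rw [← Complex.conj_mul']
    exact h1
  have hdet0 : (imM Γ).det ≠ 0 := by
    rw [hdet]
    refine mul_ne_zero (pow_ne_zero _ (norm_ne_zero_iff.2 ?_)) (Finset.prod_pos fun o _ => hδ o).ne'
    exact (Matrix.isUnit_det_of_right_inverse hM).ne_zero
  have hquad : ∀ (N : Matrix ι ι ℂ) (d : ι → ℝ) (x : ι → ℝ),
      (fun i => (x i : ℂ)) ⬝ᵥ (Nᴴ * Matrix.diagonal (fun o => (d o : ℂ)) * N) *ᵥ (fun i => (x i : ℂ)) =
        ((∑ o, ‖(N *ᵥ fun i => (x i : ℂ)) o‖ ^ 2 * d o : ℝ) : ℂ) := fun N d x => by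
    have hx : star (fun i => (x i : ℂ)) = fun i => (x i : ℂ) := by funext i; simp
    rw [← Matrix.mulVec_mulVec, ← Matrix.mulVec_mulVec, Matrix.dotProduct_mulVec]
    conv_lhs => rw [← hx, ← Matrix.star_mulVec, hx]
    push_cast
    refine Finset.sum_congr rfl fun o _ => ?_
    rw [Matrix.mulVec_diagonal, ← Complex.conj_mul']
    simp only [Pi.star_apply, RCLike.star_def]
    ring
  have hre : ∀ (A : Matrix ι ι ℝ) (x : ι → ℝ), ((x ⬝ᵥ A *ᵥ x : ℝ) : ℂ) =
      (fun i => (x i : ℂ)) ⬝ᵥ (A.map fun x : ℝ => (x : ℂ)) *ᵥ fun i => (x i : ℂ) := fun A x => by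
    simp [dotProduct, Matrix.mulVec]
  refine ⟨?_, hdet, fun x => ?_⟩
  · refine Matrix.PosDef.of_dotProduct_mulVec_pos ?_ fun x hx => ?_
    · rw [Matrix.IsHermitian, Matrix.conjTranspose_eq_transpose_of_trivial, imM,
        ← Matrix.transpose_map, hΓs]
    · have h1 := (hre _ x).trans (key ▸ hquad Γ δ x)
      rw [star_trivial, Complex.ofReal_injective h1]
      have h2 : (Γ *ᵥ fun i => (x i : ℂ)) ≠ 0 := fun h => hx (funext fun i => by
        have := congrArg (M *ᵥ ·) h
        simp only [Matrix.mulVec_mulVec, hM', Matrix.one_mulVec, Matrix.mulVec_zero] at this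
        simpa using congrFun this i)
      obtain ⟨o, ho⟩ := Function.ne_iff.1 h2
      exact Finset.sum_pos' (fun o _ => mul_nonneg (sq_nonneg _) (hδ o).le)
        ⟨o, Finset.mem_univ _, mul_pos (pow_pos (norm_pos_iff.2 ho) 2) (hδ o)⟩
  · set D' : Matrix ι ι ℂ := Matrix.diagonal fun o => (((δ o)⁻¹ : ℝ) : ℂ) with hD'
    have hDD : D * D' = 1 := by
      rw [hD, hD', Matrix.diagonal_mul_diagonal, ← Matrix.diagonal_one]
      congr 1; funext o
      rw [← Complex.ofReal_mul, mul_inv_cancel₀ (hδ o).ne', Complex.ofReal_one]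
    have keyT : (imM Γ).map (fun x : ℝ => (x : ℂ)) = Γ * D * Γᴴ := by
      have h1 := congrArg Matrix.transpose key
      rw [← Matrix.transpose_map, imM, ← Matrix.transpose_map, hΓs, Matrix.transpose_mul,
        Matrix.transpose_mul, hΓs, hD, Matrix.diagonal_transpose, ← hD, ← Matrix.mul_assoc] at h1
      rw [imM, h1]
      congr 1
      conv_rhs => rw [← hΓs]
      rfl
    have h1 : ((imM Γ)⁻¹).map (fun x : ℝ => (x : ℂ)) = Mᴴ * D' * M := by
      have h2 : (imM Γ).map (fun x : ℝ => (x : ℂ)) * (Mᴴ * D' * M) = 1 := by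
        rw [keyT, Matrix.mul_assoc (Γ * D), ← Matrix.mul_assoc Γᴴ, ← Matrix.mul_assoc Γᴴ, hH,
          Matrix.one_mul, ← Matrix.mul_assoc, Matrix.mul_assoc Γ, hDD, Matrix.mul_one, hM]
      have h3 : ((imM Γ)⁻¹).map (fun x : ℝ => (x : ℂ)) * (imM Γ).map (fun x : ℝ => (x : ℂ)) = 1 := by
        rw [show (fun x : ℝ => (x : ℂ)) = Complex.ofRealHom from rfl, ← Matrix.map_mul,
          Matrix.nonsing_inv_mul _ (isUnit_iff_ne_zero.2 hdet0), Matrix.map_one _ (by simp) (by simp)]
      rw [← Matrix.mul_one (((imM Γ)⁻¹).map _), ← h2, ← Matrix.mul_assoc, h3, Matrix.one_mul]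
    apply Complex.ofReal_injective
    rw [Qf, hre, h1, hD', hquad]
    simp only [div_eq_mul_inv]

theorem b2_psi_ne {q : ℕ} (s : ℝ) {z : ℂ} (hz : 0 < z.im) (a : II) {m : Fin q → ℂ}
    (hm : ∀ j, 0 < (m j).im) : z - s * (a : ℝ) + ∑ j, m j ≠ 0 := by
  intro h
  have h2 := congrArg Complex.im h
  have h3 : 0 ≤ ∑ j, (m j).im := Finset.sum_nonneg fun j _ => (hm _).le
  simp only [Complex.add_im, Complex.sub_im, Complex.ofReal_im, Complex.mul_im, Complex.ofReal_re,
    mul_zero, zero_mul, add_zero, sub_zero, Complex.im_sum, Complex.zero_im] at h2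
  linarith

theorem b2_ne_of_im {m : ℂ} (hm : 0 < m.im) : m ≠ 0 := fun h => by simp [h] at hm

theorem b2_qf_eq {m : ℂ} (hm : 0 < m.im) (x y : ℝ) :
    ‖(x : ℂ) + m⁻¹ * y‖ ^ 2 / (m.im / ‖m‖ ^ 2) = qf m x y := by
  have h0 := b2_ne_of_im hm
  have h1 : (x : ℂ) + m⁻¹ * y = m⁻¹ * (y + m * x) := by field_simp; ring
  have h2 := norm_pos_iff.2 h0
  rw [h1, norm_mul, norm_inv, qf]
  field_simp

theorem b2_inv_im (m : ℂ) : m⁻¹.im = -(m.im / ‖m‖ ^ 2) := by
  rw [Complex.inv_im, Complex.normSq_eq_norm_sq, neg_div]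

theorem b2_gamS {q : ℕ} (s : ℝ) {z : ℂ} (hz : 0 < z.im) (a : II) {m : Fin (q + 1) → ℂ}
    (hm : ∀ j, 0 < (m j).im) :
    (imM (GamS s z a m)).PosDef ∧
      (imM (GamS s z a m)).det = ‖Psi s z a m‖ ^ 2 * z.im * ∏ j, (m j).im ∧
      ∀ x : SI q → ℝ, Qf (imM (GamS s z a m)) x = NS s z.re a x ^ 2 / z.im + z.im * x none ^ 2 +
        ∑ j, qf (m j) (x none) (x (some j)) := by
  have hw := b2_psi_ne s hz a hm
  have h0 := fun j => b2_ne_of_im (hm j)
  set g := Psi s z a m with hg
  have hg1 : g * (s * (a : ℝ) - z - ∑ j, m j) = 1 := by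
    rw [hg, Psi]; field_simp; ring
  let M : Matrix (SI q) (SI q) ℂ := fun o o' => match o, o' with
    | none, none => s * (a : ℝ) - z
    | none, some _ => 1
    | some _, none => 1
    | some i, some j => if i = j then (m i)⁻¹ else 0
  have hM : GamS s z a m * M = 1 := by
    ext o o'
    rw [Matrix.mul_apply, Fintype.sum_option]
    cases o with
    | none =>
      cases o' with
      | none =>
        simp only [GamS, M, mul_one, Finset.sum_neg_distrib, ← Finset.sum_mul, ← hg,
          Matrix.one_apply_eq]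
        linear_combination hg1
      | some j =>
        simp only [GamS, M, mul_one, mul_ite, mul_zero, Finset.sum_ite_eq', Finset.mem_univ, if_true,
          ← hg, Matrix.one_apply_ne (Option.some_ne_none j).symm]
        have := h0 j
        field_simp
        ring
    | some i =>
      cases o' with
      | none =>
        simp only [GamS, M, mul_one, Finset.sum_add_distrib, Finset.sum_ite_eq, Finset.mem_univ,
          if_true, ← hg, Matrix.one_apply_ne (Option.some_ne_none i), ← Finset.sum_mul,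
          ← Finset.mul_sum]
        linear_combination (-m i) * hg1
      | some j =>
        simp only [GamS, M, mul_one, mul_ite, mul_zero, Finset.sum_ite_eq', Finset.mem_univ, if_true,
          ← hg, Matrix.one_apply, Option.some.injEq]
        have := h0 j
        split_ifs with h
        · subst h; field_simp; ring
        · field_simp; ring
  have hs : Mᵀ = M := by
    ext o o'
    cases o <;> cases o' <;> simp only [Matrix.transpose_apply, M]
    split_ifs with h1 h2 h2
    · rw [h1]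
    · exact absurd h1.symm h2
    · exact absurd h2.symm h1
    · rfl
  obtain ⟨h1, h2, h3⟩ := b2_im_inv hM hs (δ := fun o => o.elim z.im fun j => (m j).im / ‖m j‖ ^ 2)
    (fun o => by
      cases o with
      | none => exact hz
      | some j => exact div_pos (hm j) (pow_pos (norm_pos_iff.2 (h0 j)) 2))
    (by
      ext o o'
      cases o <;> cases o' <;> simp [imM, M, Matrix.diagonal_apply, b2_inv_im]
      split_ifs <;> simp [Complex.normSq_eq_norm_sq, neg_div])
  refine ⟨h1, ?_, fun x => ?_⟩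
  · let L : Matrix (SI q) (SI q) ℂ :=
      1 + Matrix.vecMulVec (fun o => o.elim 0 fun j => -m j) (Pi.single none 1)
    have hL : L.det = 1 := by
      simp only [L]
      rw [Matrix.vecMulVec_eq Unit, Matrix.det_one_add_replicateCol_mul_replicateRow]; simp
    have hG : GamS s z a m = L * Matrix.diagonal (fun o => o.elim g m) * Lᵀ := by
      ext o o'
      rw [Matrix.mul_apply, Fintype.sum_option]
      cases o <;> cases o' <;>
        simp [GamS, L, Matrix.mul_diagonal, Matrix.vecMulVec_apply, Matrix.one_apply, ← hg]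
      · ring
      · split_ifs with h
        · subst h; ring
        · ring
    rw [h2, hG, Matrix.det_mul, Matrix.det_mul, Matrix.det_transpose, hL, Matrix.det_diagonal,
      Fintype.prod_option, Fintype.prod_option]
    simp only [Option.elim, one_mul, mul_one, norm_mul, norm_prod, mul_pow, Finset.prod_div_distrib,
      Finset.prod_pow]
    have : ∏ j, ‖m j‖ ≠ 0 := Finset.prod_ne_zero_iff.2 fun j _ => norm_ne_zero_iff.2 (h0 j)
    field_simp
  · rw [h3, Fintype.sum_option]
    congr 1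
    · simp only [Matrix.mulVec, dotProduct, Fintype.sum_option, M, one_mul, Option.elim, NS]
      rw [Complex.sq_norm, Complex.normSq_apply]
      simp only [Complex.add_re, Complex.mul_re, Complex.sub_re, Complex.ofReal_re, Complex.ofReal_im,
        Complex.add_im, Complex.mul_im, Complex.sub_im, Complex.re_sum, Complex.im_sum, mul_zero,
        zero_mul, sub_zero, add_zero, Finset.sum_const_zero, zero_add, zero_sub]
      field_simp
    · refine Finset.sum_congr rfl fun j _ => ?_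
      simp only [Matrix.mulVec, dotProduct, Fintype.sum_option, M, one_mul, Option.elim, ite_mul,
        zero_mul, Finset.sum_ite_eq, Finset.mem_univ, if_true]
      exact b2_qf_eq (hm j) _ _

theorem b2_one_sub_ne' {m' m : ℂ} (hm' : 0 < m'.im) (hm : 0 < m.im) : 1 - m' * m ≠ 0 := by
  intro h
  have h1 : m' = m⁻¹ := eq_inv_of_mul_eq_one_left (sub_eq_zero.1 h).symm
  rw [h1, b2_inv_im] at hm'
  have := div_pos hm (pow_pos (norm_pos_iff.2 (b2_ne_of_im hm)) 2)
  linarith

theorem b2_gamE {m' m : ℂ} (hm' : 0 < m'.im) (hm : 0 < m.im) :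
    (imM (GamE m' m)).PosDef ∧
      ∀ x : Fin 2 → ℝ, Qf (imM (GamE m' m)) x = qf m (x 0) (x 1) + qf m' (x 1) (x 0) := by
  have h0 := b2_ne_of_im hm
  have h0' := b2_ne_of_im hm'
  have h1 := b2_one_sub_ne' hm' hm
  obtain ⟨h2, -, h3⟩ := b2_im_inv (Γ := GamE m' m) (M := !![m'⁻¹, 1; 1, m⁻¹])
    (by
      ext i j
      fin_cases i <;> fin_cases j <;> simp [GamE, Matrix.mul_apply, Fin.sum_univ_two] <;>
        field_simp <;> ring)
    (by ext i j; fin_cases i <;> fin_cases j <;> rfl)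
    (δ := ![m'.im / ‖m'‖ ^ 2, m.im / ‖m‖ ^ 2])
    (fun o => by
      fin_cases o
      · exact div_pos hm' (pow_pos (norm_pos_iff.2 h0') 2)
      · exact div_pos hm (pow_pos (norm_pos_iff.2 h0) 2))
    (by ext i j; fin_cases i <;> fin_cases j <;> simp [imM, Complex.normSq_eq_norm_sq, neg_div])
  refine ⟨h2, fun x => ?_⟩
  rw [h3, Fin.sum_univ_two, ← b2_qf_eq hm, ← b2_qf_eq hm', add_comm]
  simp [Matrix.mulVec, dotProduct, Fin.sum_univ_two, add_comm]

theorem b2_gamS_sub {q : ℕ} (s : ℝ) {z : ℂ} (hz : 0 < z.im) (a : II) {m : Fin (q + 1) → ℂ}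
    (hm : ∀ j, 0 < (m j).im) (j : Fin (q + 1)) :
    (imM (GamS s z a m)).submatrix (rhoE j) (rhoE j) =
      imM (GamE (Psi s z a fun i : Fin q => m (j + i.succ)) (m j)) := by
  have hw := b2_psi_ne s hz a hm
  have hw' := b2_psi_ne s hz a (m := fun i : Fin q => m (j + i.succ)) fun i => hm _
  have hsum : ∑ i, m i = m j + ∑ i : Fin q, m (j + i.succ) := by
    rw [← Equiv.sum_comp (Equiv.addLeft j) m, Fin.sum_univ_succ]; simp
  set w := z - s * (a : ℝ) + ∑ i : Fin q, m (j + i.succ) with hwe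
  have e1 : Psi s z a m = -(w + m j)⁻¹ := by rw [Psi, hsum, hwe]; ring_nf
  have e2 : (Psi s z a fun i : Fin q => m (j + i.succ)) = -w⁻¹ := rfl
  have hw2 : w + m j ≠ 0 := by rw [hsum] at hw; rw [hwe]; convert hw using 1; ring
  have hw3 : 1 - -w⁻¹ * m j = (w + m j) / w := by field_simp; ring
  ext o o'
  simp only [imM, Matrix.submatrix_apply, Matrix.map_apply]
  congr 1
  rw [e2]
  fin_cases o <;> fin_cases o' <;> simp only [rhoE, GamS, GamE, e1, hw3] <;> simp [GamS, e1] <;>
    field_simp <;> ring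

theorem b2_gamE_swap (m' m : ℂ) :
    (imM (GamE m' m)).submatrix ![1, 0] ![1, 0] = imM (GamE m m') := by
  ext i j
  fin_cases i <;> fin_cases j <;> simp [imM, GamE, mul_comm]

theorem b2_qf_nonneg {m : ℂ} (hm : 0 < m.im) (x y : ℝ) : 0 ≤ qf m x y := by
  exact div_nonneg (sq_nonneg _) hm.le

theorem b2_qf_eq_zero {m : ℂ} (hm : 0 < m.im) {x y : ℝ} (h : qf m x y = 0) : x = 0 ∧ y = 0 := by
  rw [qf, div_eq_zero_iff, or_iff_left hm.ne', sq_eq_zero_iff, norm_eq_zero] at h
  have h1 := congrArg Complex.im h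
  simp only [Complex.add_im, Complex.ofReal_im, Complex.mul_im, Complex.ofReal_re, mul_zero, zero_add,
    Complex.zero_im, mul_eq_zero, hm.ne', false_or] at h1
  refine ⟨h1, ?_⟩
  simpa [h1] using h

theorem b2_phiM_det {q : ℕ} (s E : ℝ) (a : II) (c : ℝ) : (PhiM (q := q) s E a c).det = c := by
  rw [PhiM, ← Matrix.cramer_transpose_apply]
  simp

theorem b2_phiM_apply {q : ℕ} (s E : ℝ) (a : II) (c : ℝ) (y : SI q → ℝ) (o : SI q) :
    (PhiM s E a c *ᵥ y) o = if o = some 0 then
      c * y (some 0) - (s * (a : ℝ) - E) * y none - ∑ j : Fin q, y (some j.succ) else y o := by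
  split_ifs with h
  · subst h
    simp [PhiM, Matrix.mulVec, dotProduct, Fintype.sum_option, Fin.sum_univ_succ, Fin.succ_ne_zero]
    ring
  · change ∑ o', PhiM s E a c o o' * y o' = y o
    simp [PhiM, Matrix.updateRow_ne h, Matrix.one_apply]

theorem b2_phiM_NS {q : ℕ} (s E : ℝ) (a : II) (c : ℝ) (y : SI q → ℝ) :
    NS s E a (PhiM s E a c *ᵥ y) = c * y (some 0) := by
  simp [NS, b2_phiM_apply, Fin.sum_univ_succ, Fin.succ_ne_zero]

theorem b2_phiM_fix {q : ℕ} (s E : ℝ) (a : II) {x : SI q → ℝ} (hx : NS s E a x = 0) :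
    PhiM s E a 0 *ᵥ x = x := by
  funext o
  rw [b2_phiM_apply]
  split_ifs with h
  · rw [NS, Fin.sum_univ_succ] at hx
    rw [h]; linarith
  · rfl

end Crest.Agent.R166
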