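import Crest.Agent.R166.B2.Defs
import Crest.Agent.R164.GConc
import Crest.Agent.R164.Haar2AuxB

/-!
# Row 166, block B2: Gaussian integration by parts
-/

set_option autoImplicit false

open MeasureTheory ProbabilityTheory Filter Topology
open scoped ENNReal NNReal BigOperators Matrix

noncomputable section

namespace Crest.Agent.R166

variable {ι : Type} [Fintype ι] [DecidableEq ι] {r : ℕ}

theorem b2_mp_eval (a : Fin r) (o : ι) :
    MeasurePreserving (fun W : Vec r ι => W a o) (gpi2 (Fin r) ι) (gaussianReal 0 1) :=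
  (R164.h2_gpi_mp o).comp (measurePreserving_eval (fun _ : Fin r => gpi ι) a)

theorem b2_int_sq (a : Fin r) (o : ι) : Integrable (fun W : Vec r ι => W a o ^ 2) (gpi2 (Fin r) ι) ∧
    ∫ W, W a o ^ 2 ∂gpi2 (Fin r) ι = 1 := by
  refine ⟨(b2_mp_eval a o).integrable_comp_of_integrable (g := fun x => x ^ 2)
    (memLp_id_gaussianReal 2).integrable_sq, ?_⟩
  rw [← R164.h2_gauss_two, ← (b2_mp_eval a o).map_eq,
    integral_map (b2_mp_eval a o).measurable.aemeasurable (by fun_prop)]

theorem b2_int_abs (a : Fin r) (o : ι) : Integrable (fun W : Vec r ι => |W a o|) (gpi2 (Fin r) ι) :=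
  ((b2_mp_eval a o).integrable_comp_of_integrable (g := fun x => x)
    ((memLp_id_gaussianReal 1).integrable le_rfl)).abs

theorem b2_shift (h : Vec r ι) : (gpi2 (Fin r) ι).map (fun W => W + h) = (gpi2 (Fin r) ι).withDensity
    fun W => ENNReal.ofReal (Real.exp (∑ a, ∑ o, h a o * W a o - (∑ a, ∑ o, h a o ^ 2) / 2)) := by
  have h1 := Measure.pi_map_pi (μ := fun _ : Fin r => gpi ι) (f := fun a z => z + h a)
    (fun a => (measurable_add_const (h a)).aemeasurable)
  have h2 := R164.ibp_pi_withDensity (gpi ι)
    (f := fun a z => Real.exp (∑ o, h a o * z o - (∑ o, h a o ^ 2) / 2))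
    (fun i z => (Real.exp_pos _).le) (fun a => by
      simp only [sub_eq_add_neg, Real.exp_add, Real.exp_sum]
      exact (Integrable.fintype_prod (f := fun o x => Real.exp (h a o * x))
        (μ := fun _ => gaussianReal 0 1) fun o => integrable_exp_mul_gaussianReal (h a o)).mul_const _)
  simp only [R164.gpi_map_add] at h1
  simp only [← Real.exp_sum, Finset.sum_sub_distrib, ← Finset.sum_div] at h2
  unfold gpi2
  rw [← h2, ← h1]
  rfl

theorem b2_single_dot (d : Vec r ι) (s : ℝ) (a : Fin r) (o : ι) :
    ∑ a', ∑ o', (s • (Pi.single a (Pi.single o (1 : ℝ) : ι → ℝ) : Vec r ι)) a' o' * d a' o' =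
      s * d a o := by
  rw [Finset.sum_eq_single a, Finset.sum_eq_single o]
  · simp
  · intro o' _ h; simp [Pi.single_eq_of_ne h]
  · simp
  · intro a' _ h; simp [Pi.single_eq_of_ne h]
  · simp

/-- Gaussian integration by parts (differentiate the Cameron-Martin formula) -/
theorem b2_ibp {G G' : Vec r ι → ℝ} (hG : Measurable G) (hG' : Measurable G') {B : ℝ}
    (hb : ∀ W, |G W| ≤ B) (hb' : ∀ W, |G' W| ≤ B) (a : Fin r) (o : ι)
    (hd : ∀ W, HasDerivAt (fun s : ℝ => G (W + s • (Pi.single a (Pi.single o (1 : ℝ) : ι → ℝ) : Vec r ι))) (G' W) 0) :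
    ∫ W, W a o * G W ∂gpi2 (Fin r) ι = ∫ W, G' W ∂gpi2 (Fin r) ι := by
  set e : Vec r ι := Pi.single a (Pi.single o (1 : ℝ) : ι → ℝ) with he
  have key : (fun s : ℝ => ∫ W, G (W + s • e) ∂gpi2 (Fin r) ι) =
      fun s => ∫ W, Real.exp (s * W a o - s ^ 2 / 2) * G W ∂gpi2 (Fin r) ι := by
    funext s
    rw [← integral_map (φ := fun W => W + s • e) (measurable_add_const _).aemeasurable
      hG.aestronglyMeasurable, b2_shift, integral_withDensity_eq_integral_toReal_smul (by fun_prop)
      (Eventually.of_forall fun _ => ENNReal.ofReal_lt_top)]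
    refine integral_congr_ae (Eventually.of_forall fun W => ?_)
    have h2 : ∑ a', ∑ o', (s • e) a' o' ^ 2 = s ^ 2 := by
      simp only [sq]
      rw [he, b2_single_dot]; simp
    simp only [smul_eq_mul]
    rw [ENNReal.toReal_ofReal (Real.exp_pos _).le, h2, he, b2_single_dot]
  have d1 := (hasDerivAt_integral_of_dominated_loc_of_deriv_le (μ := gpi2 (Fin r) ι)
    (F := fun (s : ℝ) W => G (W + s • e)) (F' := fun (s : ℝ) W => G' (W + s • e)) (x₀ := 0)
    (bound := fun _ => B) (s := Set.univ) univ_mem
    (Eventually.of_forall fun s => (hG.comp (measurable_add_const _)).aestronglyMeasurable)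
    (Integrable.of_bound (hG.comp (measurable_add_const _)).aestronglyMeasurable B
      (Eventually.of_forall fun W => hb _))
    (hG'.comp (measurable_add_const _)).aestronglyMeasurable
    (Eventually.of_forall fun W s _ => hb' _) (integrable_const _)
    (Eventually.of_forall fun W s _ => by
      have h0 : HasDerivAt (fun s' : ℝ => G (W + s • e + s' • e)) (G' (W + s • e)) (s - s) := by
        rw [sub_self]; exact hd _
      refine (h0.comp_sub_const s s).congr_of_eventuallyEq (Eventually.of_forall fun s' => ?_)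
      simp only [sub_smul]
      congr 1
      abel)).2
  have hB : 0 ≤ B := (abs_nonneg _).trans (hb 0)
  have d2 := (hasDerivAt_integral_of_dominated_loc_of_deriv_le (μ := gpi2 (Fin r) ι)
    (F := fun (s : ℝ) W => Real.exp (s * W a o - s ^ 2 / 2) * G W)
    (F' := fun (s : ℝ) W => Real.exp (s * W a o - s ^ 2 / 2) * (W a o - s) * G W) (x₀ := 0)
    (bound := fun W => Real.exp (2 * |W a o|) * B) (s := Set.Ioo (-1) 1)
    (Ioo_mem_nhds (by norm_num) (by norm_num))
    (Eventually.of_forall fun s => Measurable.aestronglyMeasurable (by fun_prop))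
    (Integrable.of_bound (Measurable.aestronglyMeasurable (by fun_prop)) B
      (Eventually.of_forall fun W => by simpa using hb W))
    (Measurable.aestronglyMeasurable (by fun_prop))
    (Eventually.of_forall fun W s hs => by
      have hs1 : |s| ≤ 1 := abs_le.2 ⟨hs.1.le, hs.2.le⟩
      rw [Real.norm_eq_abs, abs_mul, abs_mul, abs_of_pos (Real.exp_pos _)]
      refine mul_le_mul ?_ (hb W) (abs_nonneg _) (Real.exp_pos _).le
      rw [two_mul, Real.exp_add]
      refine mul_le_mul (Real.exp_le_exp.2 ?_) ?_ (abs_nonneg _) (Real.exp_pos _).le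
      · have h1 : s * W a o ≤ |W a o| := (le_abs_self _).trans (by
          rw [abs_mul]; exact mul_le_of_le_one_left (abs_nonneg _) hs1)
        nlinarith [sq_nonneg s]
      · exact (abs_sub _ _).trans ((add_le_add le_rfl hs1).trans (Real.add_one_le_exp _)))
    (((b2_mp_eval a o).integrable_comp_of_integrable (g := fun x => Real.exp (2 * |x|))
      (integrable_exp_mul_abs (X := fun x => x) (integrable_exp_mul_gaussianReal 2)
        (integrable_exp_mul_gaussianReal (-2)))).mul_const B)
    (Eventually.of_forall fun W s _ => by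
      refine HasDerivAt.mul_const (HasDerivAt.exp ?_) _
      refine (((hasDerivAt_id' s).mul_const (W a o)).fun_sub
        (((hasDerivAt_id' s).fun_pow 2).div_const 2)).congr_deriv ?_
      simp)).2
  rw [key] at d1
  have := d2.unique d1
  simpa using this

end Crest.Agent.R166
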