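import Crest.Agent.R166.B2.Defs

/-!
# Row 166, block B2: quadratic families, measurability and bounds of posterior means
-/

set_option autoImplicit false

open MeasureTheory ProbabilityTheory Filter Topology
open scoped ENNReal NNReal BigOperators Matrix

noncomputable section

namespace Crest.Agent.R166

variable {ι ι' : Type} [Fintype ι] [DecidableEq ι] [Fintype ι'] [DecidableEq ι'] {r : ℕ}
  {α : Type} [MeasurableSpace α]

theorem QFam.meas {Q : α → (ι → ℝ) → ℝ} (hQ : QFam Q) : Measurable (Function.uncurry Q) := by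
  obtain ⟨B, hB, -, h⟩ := hQ
  have e : Function.uncurry Q = fun p => ∑ o, ∑ o', B p.1 o o' * (p.2 o * p.2 o') :=
    funext fun p => h p.1 p.2
  rw [e]
  exact Finset.measurable_sum _ fun o _ => Finset.measurable_sum _ fun o' _ =>
    ((hB o o').comp measurable_fst).mul (by fun_prop)

theorem QFam.bd {Q : α → (ι → ℝ) → ℝ} (hQ : QFam Q) :
    ∃ M : ℝ, 0 ≤ M ∧ ∀ e x, |Q e x| ≤ M * ∑ o, x o ^ 2 := by
  obtain ⟨B, -, ⟨M, hM⟩, h⟩ := hQ
  refine ⟨|M| * Fintype.card ι, by positivity, fun e x => ?_⟩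
  rw [h]
  have h1 : ∀ o o', |B e o o' * (x o * x o')| ≤ |M| * (x o ^ 2 / 2 + x o' ^ 2 / 2) := fun o o' => by
    rw [abs_mul]
    refine mul_le_mul ((hM e o o').trans (le_abs_self M)) ?_ (abs_nonneg _) (abs_nonneg _)
    rw [abs_le]; constructor <;> nlinarith [sq_nonneg (x o + x o'), sq_nonneg (x o - x o')]
  refine (Finset.abs_sum_le_sum_abs _ _).trans ((Finset.sum_le_sum fun o _ =>
    (Finset.abs_sum_le_sum_abs _ _).trans (Finset.sum_le_sum fun o' _ => h1 o o')).trans_eq ?_)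
  simp only [← Finset.mul_sum, Finset.sum_add_distrib, Finset.sum_const, Finset.card_univ,
    nsmul_eq_mul, ← Finset.sum_div]
  ring

theorem QFam.add {Q Q' : α → (ι → ℝ) → ℝ} (hQ : QFam Q) (hQ' : QFam Q') :
    QFam fun e x => Q e x + Q' e x := by
  obtain ⟨B, hB, ⟨M, hM⟩, h⟩ := hQ
  obtain ⟨B', hB', ⟨M', hM'⟩, h'⟩ := hQ'
  refine ⟨fun e o o' => B e o o' + B' e o o', fun o o' => (hB o o').add (hB' o o'),
    ⟨M + M', fun e o o' => (abs_add_le _ _).trans (add_le_add (hM e o o') (hM' e o o'))⟩,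
    fun e x => ?_⟩
  simp only [h, h', add_mul, Finset.sum_add_distrib]

theorem QFam.sum {J : Type} (S : Finset J) {Q : J → α → (ι → ℝ) → ℝ} (hQ : ∀ j ∈ S, QFam (Q j)) :
    QFam fun e x => ∑ j ∈ S, Q j e x := by
  classical
  induction S using Finset.induction_on with
  | empty => exact ⟨fun _ _ _ => 0, fun _ _ => measurable_const, ⟨0, by simp⟩, by simp⟩
  | insert j S hj ih =>
    simp only [Finset.sum_insert hj]
    exact (hQ j (Finset.mem_insert_self _ _)).add (ih fun i hi => hQ i (Finset.mem_insert_of_mem hi))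

theorem QFam.sq {l : α → ι → ℝ} (hl : ∀ o, Measurable fun e => l e o) {M : ℝ}
    (hb : ∀ e o, |l e o| ≤ M) : QFam fun e x => (∑ o, l e o * x o) ^ 2 := by
  refine ⟨fun e o o' => l e o * l e o', fun o o' => (hl o).mul (hl o'), ⟨M * M, fun e o o' => ?_⟩,
    fun e x => ?_⟩
  · rw [abs_mul]; exact mul_le_mul (hb e o) (hb e o') (abs_nonneg _) ((abs_nonneg _).trans (hb e o))
  · simp only [pow_two, Finset.sum_mul_sum]
    exact Finset.sum_congr rfl fun o _ => Finset.sum_congr rfl fun o' _ => by ring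

theorem QFam.qf {m : α → ℂ} (hm : Measurable m) {c M : ℝ} (hc : 0 < c) (h1 : ∀ e, c ≤ (m e).im)
    (h2 : ∀ e, ‖m e‖ ≤ M) (o o' : ι) : QFam fun e (x : ι → ℝ) => qf (m e) (x o) (x o') := by
  have hp : ∀ e, 0 < (m e).im := fun e => hc.trans_le (h1 e)
  have hsc : ∀ e, √c ≤ √(m e).im := fun e => Real.sqrt_le_sqrt (h1 e)
  have hc' := Real.sqrt_pos.2 hc
  have mi : Measurable fun e => √(m e).im := (Complex.measurable_im.comp hm).sqrt
  have mr : Measurable fun e => (m e).re := Complex.measurable_re.comp hm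
  have q1 := QFam.sq (l := fun e i => ((if i = o' then 1 else 0) + if i = o then (m e).re else 0) /
    √(m e).im) (fun i => by split_ifs <;> fun_prop) (M := (1 + |M|) / √c) (fun e i => by
      rw [abs_div, abs_of_nonneg (Real.sqrt_nonneg _)]
      refine div_le_div₀ (by positivity) ((abs_add_le _ _).trans (add_le_add ?_ ?_)) hc' (hsc e)
      · split_ifs <;> simp
      · split_ifs
        · exact (Complex.abs_re_le_norm _).trans ((h2 e).trans (le_abs_self M))
        · simp)
  have q2 := QFam.sq (l := fun e i => if i = o then √(m e).im else 0)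
    (fun i => by split_ifs <;> fun_prop) (M := √M) (fun e i => by
      split_ifs
      · rw [abs_of_nonneg (Real.sqrt_nonneg _)]
        exact Real.sqrt_le_sqrt ((le_abs_self _).trans ((Complex.abs_im_le_norm _).trans (h2 e)))
      · simp)
  convert q1.add q2 using 3 with e x
  simp only [div_mul_eq_mul_div, ← Finset.sum_div, add_mul, Finset.sum_add_distrib, ite_mul, one_mul,
    zero_mul, Finset.sum_ite_eq', Finset.mem_univ, if_true, div_pow, mul_pow, Real.sq_sqrt (hp e).le,
    R166.qf, Complex.sq_norm, Complex.normSq_apply, Complex.add_re, Complex.add_im, Complex.mul_re,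
    Complex.mul_im, Complex.ofReal_re, Complex.ofReal_im]
  have := (hp e).ne'
  field_simp
  ring

theorem QFam.Qf {C : α → Matrix ι' ι' ℝ} (hC : COK C) (ρ : ι' → ι) :
    QFam fun e (x : ι → ℝ) => Qf (C e) (x ∘ ρ) := by
  obtain ⟨M, hM⟩ := hC.bd
  have mi : ∀ i j, Measurable fun e => (C e)⁻¹ i j := fun i j =>
    (measurable_pi_apply j).comp ((measurable_pi_apply i).comp hC.mi)
  refine ⟨fun e o o' => ∑ i, ∑ j, if ρ i = o ∧ ρ j = o' then (C e)⁻¹ i j else 0,
    fun o o' => Finset.measurable_sum _ fun i _ => Finset.measurable_sum _ fun j _ => ?_,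
    ⟨∑ _i : ι', ∑ _j : ι', |M|, fun e o o' => (Finset.abs_sum_le_sum_abs _ _).trans
      (Finset.sum_le_sum fun i _ => (Finset.abs_sum_le_sum_abs _ _).trans
        (Finset.sum_le_sum fun j _ => ?_))⟩, fun e x => ?_⟩
  · split_ifs
    · exact mi i j
    · exact measurable_const
  · split_ifs
    · exact ((hM e).1 i j).1.trans (le_abs_self M)
    · simp
  · simp only [R166.Qf, dotProduct, Matrix.mulVec, Finset.mul_sum, Finset.sum_mul, Function.comp_apply]
    symm
    calc _ = ∑ i, ∑ j, ∑ o, ∑ o', (if ρ i = o ∧ ρ j = o' then (C e)⁻¹ i j else 0) * (x o * x o') := by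
          rw [Finset.sum_congr rfl fun o _ => Finset.sum_comm, Finset.sum_comm]
          refine Finset.sum_congr rfl fun i _ => ?_
          rw [Finset.sum_congr rfl fun o _ => Finset.sum_comm, Finset.sum_comm]
      _ = _ := by
          refine Finset.sum_congr rfl fun i _ => Finset.sum_congr rfl fun j _ => ?_
          simp only [ite_and, ite_mul, zero_mul, Finset.sum_ite_irrel, Finset.sum_ite_eq,
            Finset.mem_univ, if_true, Finset.sum_const_zero]
          ring

theorem b2_Qf_nonneg {C : Matrix ι ι ℝ} (hC : C.PosDef) (x : ι → ℝ) : 0 ≤ Qf C x := by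
  simpa [R166.Qf] using hC.inv.posSemidef.dotProduct_mulVec_nonneg x

theorem b2_meas_post (κ : Kernel α (Vec r ι)) [IsSFiniteKernel κ] {Q : α → (ι → ℝ) → ℝ}
    (hQ : Measurable (Function.uncurry Q)) {g : Vec r ι → ℝ} (hg : Measurable g)
    {T : Type} [MeasurableSpace T] {e : T → α} (he : Measurable e) {γ : T → ℝ} (hγ : Measurable γ)
    {x : T → Vec r ι} (hx : Measurable x) :
    Measurable fun τ => ∫ u, g u * wt (Q (e τ)) (γ τ) (x τ) u ∂κ (e τ) := by
  have h1 : ∀ b, Measurable fun p : T × Vec r ι => Q (e p.1) (x p.1 b - p.2 b) := fun b =>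
    hQ.comp (g := Function.uncurry Q) (f := fun p : T × Vec r ι => (e p.1, x p.1 b - p.2 b))
      ((he.comp measurable_fst).prodMk (by fun_prop))
  have h2 : Measurable fun p : T × Vec r ι => g p.2 * wt (Q (e p.1)) (γ p.1) (x p.1) p.2 :=
    (hg.comp measurable_snd).mul ((((hγ.comp measurable_fst).mul
      (Finset.measurable_sum _ fun b _ => h1 b)).neg.div_const 2).exp)
  exact (h2.stronglyMeasurable.integral_kernel_prod_right' (κ := κ.comap e he)).measurable

theorem b2_meas_Z (κ : Kernel α (Vec r ι)) [IsSFiniteKernel κ] {Q : α → (ι → ℝ) → ℝ}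
    (hQ : Measurable (Function.uncurry Q))
    {T : Type} [MeasurableSpace T] {e : T → α} (he : Measurable e) {γ : T → ℝ} (hγ : Measurable γ)
    {x : T → Vec r ι} (hx : Measurable x) :
    Measurable fun τ => ∫ u, wt (Q (e τ)) (γ τ) (x τ) u ∂κ (e τ) := by
  simpa using b2_meas_post κ hQ (g := fun _ => 1) measurable_const he hγ hx

theorem b2_meas_pmean (κ : Kernel α (Vec r ι)) [IsSFiniteKernel κ] {Q : α → (ι → ℝ) → ℝ}
    (hQ : Measurable (Function.uncurry Q))
    {T : Type} [MeasurableSpace T] {e : T → α} (he : Measurable e) {γ : T → ℝ} (hγ : Measurable γ)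
    {x : T → Vec r ι} (hx : Measurable x) (a : Fin r) (o : ι) :
    Measurable fun τ => pmean (κ (e τ)) (Q (e τ)) (γ τ) (x τ) a o := by
  exact (b2_meas_post κ hQ (g := fun u => u a o) (by fun_prop) he hγ hx).div (b2_meas_Z κ hQ he hγ hx)

theorem b2_wt_int (κ : Measure (Vec r ι)) [IsProbabilityMeasure κ] {Q : (ι → ℝ) → ℝ}
    (hQ : Measurable Q) (h0 : ∀ x, 0 ≤ Q x) {γ : ℝ} (hγ : 0 ≤ γ) (x : Vec r ι) :
    (∀ u, 0 < wt Q γ x u ∧ wt Q γ x u ≤ 1) ∧ Measurable (wt Q γ x) ∧ Integrable (wt Q γ x) κ ∧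
      0 < ∫ u, wt Q γ x u ∂κ ∧ ∫ u, wt Q γ x u ∂κ ≤ 1 := by
  have h1 : ∀ u, 0 < wt Q γ x u ∧ wt Q γ x u ≤ 1 := fun u => ⟨Real.exp_pos _, Real.exp_le_one_iff.2 (by
    have : 0 ≤ γ * ∑ b, Q (x b - u b) := mul_nonneg hγ (Finset.sum_nonneg fun b _ => h0 _)
    linarith)⟩
  have h2 : Measurable (wt Q γ x) := by unfold wt; fun_prop
  have h3 : Integrable (wt Q γ x) κ := Integrable.of_bound h2.aestronglyMeasurable 1
    (Eventually.of_forall fun u => by rw [Real.norm_eq_abs, abs_of_pos (h1 u).1]; exact (h1 u).2)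
  refine ⟨h1, h2, h3, integral_exp_pos h3, ?_⟩
  simpa using integral_mono h3 (integrable_const 1) fun u => (h1 u).2

theorem b2_pmean_bd (κ : Measure (Vec r ι)) [IsProbabilityMeasure κ] {K : ℝ}
    (hK : ∀ᵐ u ∂κ, ∀ a o, |u a o| ≤ K) {Q : (ι → ℝ) → ℝ} (hQ : Measurable Q) (h0 : ∀ x, 0 ≤ Q x)
    {γ : ℝ} (hγ : 0 ≤ γ) (x : Vec r ι) (a : Fin r) (o : ι) : |pmean κ Q γ x a o| ≤ K := by
  obtain ⟨h1, -, h3, hZ, -⟩ := b2_wt_int κ hQ h0 hγ x
  change |(∫ u, u a o * wt Q γ x u ∂κ) / ∫ u, wt Q γ x u ∂κ| ≤ K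
  rw [abs_div, abs_of_pos hZ, div_le_iff₀ hZ, ← integral_const_mul, ← Real.norm_eq_abs]
  refine norm_integral_le_of_norm_le (h3.const_mul K) ?_
  filter_upwards [hK] with u hu
  rw [Real.norm_eq_abs, abs_mul, abs_of_pos (h1 u).1]
  exact mul_le_mul_of_nonneg_right (hu a o) (h1 u).1.le

theorem b2_meas_clipV (K : ℝ) : Measurable (clipV (r := r) (ι := ι) K) := by
  unfold clipV; fun_prop

/-- a bounded version of the disintegration -/
theorem b2_exists_kernel (P : Measure (α × Vec r ι)) [IsProbabilityMeasure P] {K : ℝ} (h0 : 0 ≤ K)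
    (hK : ∀ᵐ p ∂P, ∀ a o, |p.2 a o| ≤ K) :
    ∃ κ : Kernel α (Vec r ι), IsMarkovKernel κ ∧ KBd κ K ∧ P = P.fst ⊗ₘ κ := by
  have hm := b2_meas_clipV (r := r) (ι := ι) K
  refine ⟨P.condKernel.map (clipV K), Kernel.IsMarkovKernel.map _ hm, fun e => ?_, ?_⟩
  · rw [Kernel.map_apply _ hm]
    refine (ae_map_iff hm.aemeasurable ?_).2 (Eventually.of_forall fun u a o =>
      abs_le.2 ⟨le_max_left _ _, max_le (by linarith) (min_le_left _ _)⟩)
    simp only [Set.ofPred_forall]
    exact MeasurableSet.iInter fun a => MeasurableSet.iInter fun o =>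
      measurableSet_le (by fun_prop) measurable_const
  · rw [Measure.compProd_map hm, P.disintegrate P.condKernel]
    conv_lhs => rw [← Measure.map_id (μ := P)]
    refine Measure.map_congr ?_
    filter_upwards [hK] with p hp
    refine Prod.ext rfl (funext fun a => funext fun o => ?_)
    obtain ⟨h1, h2⟩ := abs_le.1 (hp a o)
    simp only [id_eq, Prod.map_snd, clipV, min_eq_right h2, max_eq_right h1]

end Crest.Agent.R166
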