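import Crest.Agent.R166.B2.Gauss
import Crest.Agent.R166.B2.QF
import Crest.Agent.R166.B2.IBP

/-!
# Row 166, block B2: channels; Bayes formula and Pythagoras
-/

set_option autoImplicit false

open MeasureTheory ProbabilityTheory Filter Topology
open scoped ENNReal NNReal BigOperators Matrix

noncomputable section

namespace Crest.Agent.R166

variable {ι ι' : Type} [Fintype ι] [DecidableEq ι] [Fintype ι'] [DecidableEq ι'] {r : ℕ}
  {α α' : Type} [MeasurableSpace α] [MeasurableSpace α'] {C : α → Matrix ι ι ℝ}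

theorem b2_meas_obs (hC : COK C) {T : Type} [MeasurableSpace T] {e : T → α} (he : Measurable e)
    {t : T → ℝ} (ht : Measurable t) {u W : T → Vec r ι} (hu : Measurable u) (hW : Measurable W) :
    Measurable fun τ => obs (C (e τ)) (t τ) (u τ) (W τ) := by
  have hs : ∀ i j, Measurable fun τ => msqrt (C (e τ)) i j := fun i j =>
    (measurable_pi_apply j).comp ((measurable_pi_apply i).comp (hC.ms.comp he))
  refine measurable_pi_lambda _ fun a => measurable_pi_lambda _ fun o => ?_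
  simp only [obs, Pi.add_apply, Pi.smul_apply, smul_eq_mul, Matrix.mulVec, dotProduct]
  exact Measurable.add (by fun_prop) (ht.inv.mul
    (Finset.measurable_sum _ fun j _ => (hs o j).mul (by fun_prop)))

theorem b2_meas_chan (hC : COK C) (t : ℝ) : Measurable fun y : (α × Vec r ι) × Vec r ι =>
    (y.1, obs (C y.1.1) t y.1.2 y.2) :=
  measurable_fst.prodMk (b2_meas_obs hC (by fun_prop) measurable_const (by fun_prop) measurable_snd)

theorem b2_chan_prob (P : Measure (α × Vec r ι)) [IsProbabilityMeasure P] (hC : COK C) (t : ℝ) :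
    IsProbabilityMeasure (chan P C t) :=
  Measure.isProbabilityMeasure_map (b2_meas_chan hC t).aemeasurable

theorem b2_chan_fst (P : Measure (α × Vec r ι)) [IsProbabilityMeasure P] (hC : COK C) (t : ℝ) :
    (chan P C t).map Prod.fst = P := by
  rw [chan, Measure.map_map measurable_fst (b2_meas_chan hC t)]
  exact Measure.fst_prod

theorem b2_bd_ms (K : ℝ) : MeasurableSet {p : α × Vec r ι | ∀ a o, |p.2 a o| ≤ K} := by
  simp only [Set.ofPred_forall]
  exact MeasurableSet.iInter fun a => MeasurableSet.iInter fun o =>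
    measurableSet_le (by fun_prop) measurable_const

theorem b2_cp_ae_bd (ν : Measure α) [IsProbabilityMeasure ν] (κ : Kernel α (Vec r ι))
    [IsMarkovKernel κ] {K : ℝ} (hK : KBd κ K) : ∀ᵐ p ∂(ν ⊗ₘ κ), ∀ a o, |p.2 a o| ≤ K :=
  Measure.ae_compProd_of_ae_ae (b2_bd_ms K) (Eventually.of_forall hK)

theorem b2_chan_ae_bd (ν : Measure α) [IsProbabilityMeasure ν] (κ : Kernel α (Vec r ι))
    [IsMarkovKernel κ] {K : ℝ} (hK : KBd κ K) (hC : COK C) (t : ℝ) :
    ∀ᵐ y ∂chan (ν ⊗ₘ κ) C t, ∀ a o, |y.1.2 a o| ≤ K := by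
  have h := b2_cp_ae_bd ν κ hK
  rw [← b2_chan_fst (ν ⊗ₘ κ) hC t] at h
  exact ae_of_ae_map measurable_fst.aemeasurable h

/-- second moments of the observation -/
theorem b2_chan_sq (ν : Measure α) [IsProbabilityMeasure ν] (κ : Kernel α (Vec r ι))
    [IsMarkovKernel κ] {K : ℝ} (hK : KBd κ K) (hC : COK C) (t : ℝ) (a : Fin r) (o : ι) :
    Integrable (fun y : (α × Vec r ι) × Vec r ι => y.2 a o ^ 2) (chan (ν ⊗ₘ κ) C t) := by
  obtain ⟨B, hB⟩ := hC.bd
  rw [chan, integrable_map_measure (Measurable.aestronglyMeasurable (by fun_prop))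
    (b2_meas_chan hC t).aemeasurable]
  have ig : Integrable (fun y : (α × Vec r ι) × Vec r ι =>
      2 * K ^ 2 + 2 * t⁻¹ ^ 2 * ((∑ _j : ι, B ^ 2) * ∑ j, y.2 a j ^ 2))
      ((ν ⊗ₘ κ).prod (gpi2 (Fin r) ι)) :=
    (integrable_const _).add (((Integrable.comp_snd (f := fun W : Vec r ι => ∑ j, W a j ^ 2)
      (integrable_finsetSum _ fun j _ => (b2_int_sq a j).1) _).const_mul _).const_mul _)
  refine ig.mono' (Measurable.aestronglyMeasurable (Measurable.comp (by fun_prop)
    (b2_meas_chan hC t))) ?_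
  filter_upwards [Measure.quasiMeasurePreserving_fst.ae (b2_cp_ae_bd ν κ hK)] with y hy
  simp only [Function.comp_apply, obs, Pi.add_apply, Pi.smul_apply, smul_eq_mul, Real.norm_eq_abs,
    abs_pow, sq_abs]
  have h1 : y.1.2 a o ^ 2 ≤ K ^ 2 := by
    rw [← sq_abs]; exact pow_le_pow_left₀ (abs_nonneg _) (hy a o) 2
  have h2 : (msqrt (C y.1.1) *ᵥ y.2 a) o ^ 2 ≤ (∑ _j : ι, B ^ 2) * ∑ j, y.2 a j ^ 2 := by
    refine (Finset.sum_mul_sq_le_sq_mul_sq _ _ _).trans (mul_le_mul_of_nonneg_right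
      (Finset.sum_le_sum fun j _ => ?_) (Finset.sum_nonneg fun _ _ => sq_nonneg _))
    rw [← sq_abs]; exact pow_le_pow_left₀ (abs_nonneg _) ((hB _).1 o j).2 2
  have h3 := mul_le_mul_of_nonneg_left h2 (sq_nonneg t⁻¹)
  nlinarith [sq_nonneg (y.1.2 a o - t⁻¹ * (msqrt (C y.1.1) *ᵥ y.2 a) o)]

theorem b2_nInt_eq (P : Measure (α × Vec r ι)) [IsProbabilityMeasure P] (hC : COK C)
    {φ : α × Vec r ι → ℝ} (hφ : Measurable φ)
    (hi : Integrable (fun y : (α × Vec r ι) × Vec r ι => φ (y.1.1, y.2)) (chan P C 1)) :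
    nInt P C φ = ∫ y, φ (y.1.1, y.2) ∂chan P C 1 := by
  have hm : Measurable fun y : (α × Vec r ι) × Vec r ι => φ (y.1.1, y.2) := hφ.comp (by fun_prop)
  rw [chan, integrable_map_measure hm.aestronglyMeasurable (b2_meas_chan hC 1).aemeasurable] at hi
  rw [chan, integral_map (b2_meas_chan hC 1).aemeasurable hm.aestronglyMeasurable]
  refine Eq.trans ?_ (integral_prod _ hi).symm
  simp only [nInt, Function.comp_apply]
  congr 4
  funext p
  congr 1
  funext W
  congr 2
  funext a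
  simp [obs]

theorem b2_obs_sub {C : Matrix ι ι ℝ} (hC : C.PosDef) (ρ : ι' → ι)
    (hC' : (C.submatrix ρ ρ).PosDef) {t : ℝ} (ht : 0 < t) (u : Vec r ι) :
    (gpi2 (Fin r) ι).map (fun W => (fun a => obs C t u W a ∘ ρ : Vec r ι')) =
      (volume : Measure (Vec r ι')).withDensity fun x => ENNReal.ofReal
        (nc r (C.submatrix ρ ρ) t * wt (Qf (C.submatrix ρ ρ)) (t ^ 2) x fun a => u a ∘ ρ) := by
  refine Eq.trans ?_ (b2_dens (A := (msqrt C).submatrix ρ id) ?_ hC' ht _)
  · rfl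
  · conv_rhs => rw [← b2_msqrt_mul hC]
    rw [Matrix.transpose_submatrix]
    exact (Matrix.submatrix_mul _ _ ρ id ρ Function.bijective_id).symm

theorem b2_meas_obs' (C : Matrix ι ι ℝ) (t : ℝ) (u : Vec r ι) : Measurable (obs C t u) := by
  unfold obs
  exact (continuous_pi fun a => continuous_const.add
    ((continuous_const.matrix_mulVec (continuous_apply a)).const_smul t⁻¹)).measurable

/-- marginal channels -/
theorem b2_chan_sub (P : Measure (α × Vec r ι)) [IsProbabilityMeasure P] (hC : COK C)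
    {C' : α' → Matrix ι' ι' ℝ} (hC' : COK C') {τ : α → α'} (hτ : Measurable τ) (ρ : ι' → ι)
    (hsub : ∀ e, C' (τ e) = (C e).submatrix ρ ρ) {t : ℝ} (ht : 0 < t) :
    (chan P C t).map (fun y => ((τ y.1.1, fun a => y.1.2 a ∘ ρ), fun a => y.2 a ∘ ρ)) =
      chan (P.map fun p => (τ p.1, fun a => p.2 a ∘ ρ)) C' t := by
  have hT : Measurable fun y : (α × Vec r ι) × Vec r ι =>
      (((τ y.1.1, fun a => y.1.2 a ∘ ρ), fun a => y.2 a ∘ ρ) : (α' × Vec r ι') × Vec r ι') := by
    fun_prop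
  have hT1 : Measurable fun p : α × Vec r ι => ((τ p.1, fun a => p.2 a ∘ ρ) : α' × Vec r ι') := by
    fun_prop
  have := Measure.isProbabilityMeasure_map (μ := P) hT1.aemeasurable
  refine Measure.ext_of_lintegral _ fun F hF => ?_
  have h1 := (hF.comp hT).comp (b2_meas_chan hC t)
  have h2 := hF.comp (b2_meas_chan (r := r) hC' t)
  rw [lintegral_map hF hT, chan, chan, lintegral_map hF (b2_meas_chan hC' t)]
  refine (lintegral_map (hF.comp hT) (b2_meas_chan hC t)).trans ?_
  refine (lintegral_prod _ h1.aemeasurable).trans ?_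
  refine Eq.trans ?_ (lintegral_prod _ h2.aemeasurable).symm
  rw [lintegral_map h2.lintegral_prod_right' hT1]
  refine lintegral_congr fun p => ?_
  have hG : Measurable fun x : Vec r ι' => F ((τ p.1, fun a => p.2 a ∘ ρ), x) :=
    hF.comp (measurable_const.prodMk measurable_id)
  have e1 := b2_obs_sub (hC.pd p.1) ρ (hsub p.1 ▸ hC'.pd _) ht p.2
  have e2 := b2_obs_sub (hC'.pd (τ p.1)) id (hC'.pd _) ht (fun a => p.2 a ∘ ρ)
  rw [← hsub] at e1
  have m1 : Measurable fun W : Vec r ι => (fun a => obs (C p.1) t p.2 W a ∘ ρ : Vec r ι') :=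
    Measurable.comp (g := fun x : Vec r ι => (fun a => x a ∘ ρ : Vec r ι')) (by fun_prop)
      (b2_meas_obs' _ t _)
  refine (lintegral_map hG m1).symm.trans ?_
  rw [e1]
  exact (congrArg (fun μ => ∫⁻ x, F ((τ p.1, fun a => p.2 a ∘ ρ), x) ∂μ) e2).symm.trans
    (lintegral_map hG (b2_meas_obs' _ t _))

theorem b2_nc_pos {C : Matrix ι ι ℝ} (hC : C.PosDef) {t : ℝ} (ht : 0 < t) : 0 < nc r C t := by
  have := hC.det_pos
  have := Real.pi_pos
  unfold nc; positivity

theorem b2_meas_Qf (C : Matrix ι ι ℝ) : Measurable (Qf C) := by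
  unfold Qf
  simp only [dotProduct, Matrix.mulVec]
  fun_prop

theorem b2_meas_wt {Q : (ι → ℝ) → ℝ} (hQ : Measurable Q) (γ : ℝ) :
    Measurable fun p : Vec r ι × Vec r ι => wt Q γ p.1 p.2 := by
  unfold wt; fun_prop

/-- density of (parameter, observation) -/
theorem b2_chan_lint (ν : Measure α) [IsProbabilityMeasure ν] (κ : Kernel α (Vec r ι))
    [IsMarkovKernel κ] (hC : COK C) {t : ℝ} (ht : 0 < t) {F : α × Vec r ι → ℝ≥0∞}
    (hF : Measurable F) :
    ∫⁻ y, F (y.1.1, y.2) ∂chan (ν ⊗ₘ κ) C t = ∫⁻ e, ∫⁻ x, F (e, x) *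
      ENNReal.ofReal (nc r (C e) t * ∫ u, wt (Qf (C e)) (t ^ 2) x u ∂κ e) ∂volume ∂ν := by
  have hm : Measurable fun y : (α × Vec r ι) × Vec r ι => F (y.1.1, y.2) := hF.comp (by fun_prop)
  have h1 := hm.comp (b2_meas_chan hC t)
  rw [chan, lintegral_map hm (b2_meas_chan hC t)]
  refine (lintegral_prod _ h1.aemeasurable).trans ?_
  rw [Measure.lintegral_compProd h1.lintegral_prod_right']
  refine lintegral_congr fun e => ?_
  have hG : Measurable fun x : Vec r ι => F (e, x) := hF.comp (measurable_const.prodMk measurable_id)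
  have hw := b2_meas_wt (r := r) (b2_meas_Qf (C e)) (t ^ 2)
  have hd : Measurable fun p : Vec r ι × Vec r ι =>
      ENNReal.ofReal (nc r (C e) t * wt (Qf (C e)) (t ^ 2) p.2 p.1) :=
    ((hw.comp measurable_swap).const_mul _).ennreal_ofReal
  have e1 : ∀ u : Vec r ι, ∫⁻ W, F (e, obs (C e) t u W) ∂gpi2 (Fin r) ι =
      ∫⁻ x, F (e, x) * ENNReal.ofReal (nc r (C e) t * wt (Qf (C e)) (t ^ 2) x u) := fun u => by
    have e2 := b2_obs_sub (hC.pd e) id (hC.pd e) ht u
    refine (lintegral_map hG (b2_meas_obs' _ t _)).symm.trans ?_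
    refine (congrArg (fun μ => ∫⁻ x, F (e, x) ∂μ) e2).trans ?_
    refine (lintegral_withDensity_eq_lintegral_mul _
      (hd.comp (measurable_const.prodMk measurable_id)) hG).trans ?_
    exact lintegral_congr fun x => mul_comm _ _
  refine (lintegral_congr e1).trans ?_
  rw [lintegral_lintegral_swap ((hG.comp measurable_snd).mul hd).aemeasurable]
  refine lintegral_congr fun x => ?_
  obtain ⟨h2, h3, h4, -⟩ := b2_wt_int (κ e) (b2_meas_Qf (C e)) (b2_Qf_nonneg (hC.pd e)) (sq_nonneg t) x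
  rw [lintegral_const_mul _ (h3.const_mul _).ennreal_ofReal, ← integral_const_mul,
    ofReal_integral_eq_lintegral_ofReal (h4.const_mul _) (Eventually.of_forall fun u =>
      mul_nonneg (b2_nc_pos (hC.pd e) ht).le (h2 u).1.le)]

end Crest.Agent.R166
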