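import Crest.Agent.R166.B2.IBP

/-!
# Row 166, block B2: the I-MMSE identity
-/

set_option autoImplicit false

open MeasureTheory ProbabilityTheory Filter Topology
open scoped ENNReal NNReal BigOperators Matrix

noncomputable section

namespace Crest.Agent.R166

variable {ι : Type} [Fintype ι] [DecidableEq ι] {r : ℕ}

section
variable {Ω : Type} [MeasurableSpace Ω] (κ : Measure Ω) [IsProbabilityMeasure κ]

theorem b2_dA {g a b c : Ω → ℝ} (hg : Measurable g) (ha : Measurable a) (hb : Measurable b)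
    (hc : Measurable c) {M : ℝ} (hM : ∀ᵐ u ∂κ, |g u| ≤ M ∧ |a u| ≤ M ∧ |b u| ≤ M ∧ |c u| ≤ M) (x : ℝ) :
    HasDerivAt (fun s => ∫ u, g u * Real.exp (a u + b u * s + c u * s ^ 2) ∂κ)
      (∫ u, g u * (Real.exp (a u + b u * x + c u * x ^ 2) * (b u + c u * (2 * x))) ∂κ) x := by
  set L := |x| + 1 with hL
  have hx : ∀ s ∈ Set.Ioo (x - 1) (x + 1), |s| ≤ L := fun s hs =>
    abs_le.2 ⟨by linarith [hs.1, neg_abs_le x], by linarith [hs.2, le_abs_self x]⟩
  have hexp : ∀ u, (|g u| ≤ M ∧ |a u| ≤ M ∧ |b u| ≤ M ∧ |c u| ≤ M) → ∀ s, |s| ≤ L →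
      Real.exp (a u + b u * s + c u * s ^ 2) ≤ Real.exp (M + M * L + M * L ^ 2) := by
    intro u hu s hs
    have hM0 : 0 ≤ M := (abs_nonneg _).trans hu.1
    refine Real.exp_le_exp.2 (add_le_add (add_le_add ((le_abs_self _).trans hu.2.1) ?_) ?_)
    · exact (le_abs_self _).trans ((abs_mul _ _).trans_le
        (mul_le_mul hu.2.2.1 hs (abs_nonneg _) hM0))
    · refine (le_abs_self _).trans ((abs_mul _ _).trans_le
        (mul_le_mul hu.2.2.2 ?_ (abs_nonneg _) hM0))
      rw [abs_pow]; exact pow_le_pow_left₀ (abs_nonneg _) hs 2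
  refine (hasDerivAt_integral_of_dominated_loc_of_deriv_le (μ := κ)
    (F := fun (s : ℝ) u => g u * Real.exp (a u + b u * s + c u * s ^ 2))
    (F' := fun (s : ℝ) u => g u * (Real.exp (a u + b u * s + c u * s ^ 2) * (b u + c u * (2 * s))))
    (bound := fun _ => M * (Real.exp (M + M * L + M * L ^ 2) * (M + M * (2 * L))))
    (s := Set.Ioo (x - 1) (x + 1)) (Ioo_mem_nhds (by linarith) (by linarith))
    (Eventually.of_forall fun s => Measurable.aestronglyMeasurable (by fun_prop))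
    (Integrable.of_bound (Measurable.aestronglyMeasurable (by fun_prop))
      (M * Real.exp (M + M * L + M * L ^ 2)) ?_)
    (Measurable.aestronglyMeasurable (by fun_prop)) ?_ (integrable_const _)
    (Eventually.of_forall fun u s _ => ?_)).2
  · filter_upwards [hM] with u hu
    rw [Real.norm_eq_abs, abs_mul, abs_of_pos (Real.exp_pos _)]
    exact mul_le_mul hu.1 (hexp u hu x (by linarith)) (Real.exp_pos _).le ((abs_nonneg _).trans hu.1)
  · filter_upwards [hM] with u hu s hs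
    have hM0 : 0 ≤ M := (abs_nonneg _).trans hu.1
    rw [Real.norm_eq_abs, abs_mul, abs_mul, abs_of_pos (Real.exp_pos _)]
    refine mul_le_mul hu.1 (mul_le_mul (hexp u hu s (hx s hs)) ?_ (abs_nonneg _) (Real.exp_pos _).le)
      (by positivity) hM0
    refine (abs_add_le _ _).trans (add_le_add hu.2.2.1 ?_)
    rw [abs_mul, abs_mul, abs_two]
    exact mul_le_mul hu.2.2.2 (by linarith [hx s hs]) (by positivity) hM0
  · refine HasDerivAt.const_mul _ (HasDerivAt.exp ?_)
    refine ((((hasDerivAt_id' s).const_mul (b u)).const_add (a u)).fun_add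
      (((hasDerivAt_id' s).fun_pow 2).const_mul (c u))).congr_deriv ?_
    simp

theorem b2_avg_bd {g w : Ω → ℝ} (hw : ∀ u, 0 < w u) (hi : Integrable w κ) {M : ℝ}
    (hM : ∀ᵐ u ∂κ, |g u| ≤ M) : |(∫ u, g u * w u ∂κ) / ∫ u, w u ∂κ| ≤ M := by
  have hZ : 0 < ∫ u, w u ∂κ := by
    rw [integral_pos_iff_support_of_nonneg (fun u => (hw u).le) hi]
    have : Function.support w = Set.univ := Set.eq_univ_of_forall fun u => (hw u).ne'
    simp [this]
  rw [abs_div, abs_of_pos hZ, div_le_iff₀ hZ, ← integral_const_mul, ← Real.norm_eq_abs]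
  refine norm_integral_le_of_norm_le (hi.const_mul M) ?_
  filter_upwards [hM] with u hu
  rw [Real.norm_eq_abs, abs_mul, abs_of_pos (hw u)]
  exact mul_le_mul_of_nonneg_right hu (hw u).le

variable {Δ : Ω → Vec r ι} {B : ℝ}

theorem b2_dot_bd {d : Vec r ι} (hd : ∀ a o, |d a o| ≤ B) (W : Vec r ι) :
    |∑ a, ∑ o, d a o * W a o| ≤ ∑ a, ∑ o, B * |W a o| :=
  (Finset.abs_sum_le_sum_abs _ _).trans (Finset.sum_le_sum fun a _ =>
    (Finset.abs_sum_le_sum_abs _ _).trans (Finset.sum_le_sum fun o _ =>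
      (abs_mul _ _).trans_le (mul_le_mul_of_nonneg_right (hd a o) (abs_nonneg _))))

theorem b2_sq_bd {x : ℝ} (hx : |x| ≤ B) : |x ^ 2| ≤ B ^ 2 := by
  rw [abs_pow]; exact pow_le_pow_left₀ (abs_nonneg _) hx 2

theorem b2_nsq_bd {d : Vec r ι} (hd : ∀ a o, |d a o| ≤ B) :
    |∑ a, ∑ o, d a o ^ 2| ≤ ∑ _a : Fin r, ∑ _o : ι, B ^ 2 :=
  (Finset.abs_sum_le_sum_abs _ _).trans (Finset.sum_le_sum fun a _ =>
    (Finset.abs_sum_le_sum_abs _ _).trans (Finset.sum_le_sum fun o _ => b2_sq_bd (hd a o)))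

theorem b2_cw_int (hΔ : Measurable Δ) (hb : ∀ᵐ u ∂κ, ∀ a o, |Δ u a o| ≤ B) {g : Ω → ℝ}
    (hg : Measurable g) {M : ℝ} (hM : ∀ᵐ u ∂κ, |g u| ≤ M) (t : ℝ) (W : Vec r ι) :
    Integrable (fun u => g u * cw t W (Δ u)) κ := by
  refine Integrable.of_bound (Measurable.aestronglyMeasurable (by unfold cw; fun_prop))
    (M * Real.exp (|t| * ∑ a, ∑ o, B * |W a o|)) ?_
  filter_upwards [hb, hM] with u hu hu'
  unfold cw
  rw [Real.norm_eq_abs, abs_mul, abs_of_pos (Real.exp_pos _)]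
  refine mul_le_mul hu' (Real.exp_le_exp.2 ?_) (Real.exp_pos _).le ((abs_nonneg _).trans hu')
  have h1 : 0 ≤ t ^ 2 * ∑ a, ∑ o, Δ u a o ^ 2 := by positivity
  have h2 := (neg_le_abs _).trans ((abs_mul t _).trans_le
    (mul_le_mul_of_nonneg_left (b2_dot_bd hu W) (abs_nonneg t)))
  linarith

theorem b2_cw_int1 (hΔ : Measurable Δ) (hb : ∀ᵐ u ∂κ, ∀ a o, |Δ u a o| ≤ B) (t : ℝ) (W : Vec r ι) :
    Integrable (fun u => cw t W (Δ u)) κ := by
  simpa using b2_cw_int κ hΔ hb (g := fun _ => 1) measurable_const (M := 1) (by simp) t W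

theorem b2_cw_Z (hΔ : Measurable Δ) (hb : ∀ᵐ u ∂κ, ∀ a o, |Δ u a o| ≤ B) (t : ℝ) (W : Vec r ι) :
    0 < ∫ u, cw t W (Δ u) ∂κ := integral_exp_pos (b2_cw_int1 κ hΔ hb t W)

theorem b2_cw_meas (hΔ : Measurable Δ) {g : Ω → ℝ} (hg : Measurable g) :
    Measurable fun p : ℝ × Vec r ι => ∫ u, g u * cw p.1 p.2 (Δ u) ∂κ :=
  (StronglyMeasurable.integral_prod_right' (f := fun y : (ℝ × Vec r ι) × Ω =>
    g y.2 * cw y.1.1 y.1.2 (Δ y.2)) (Measurable.stronglyMeasurable (by unfold cw; fun_prop))).measurable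

theorem b2_cw_meas1 (hΔ : Measurable Δ) :
    Measurable fun p : ℝ × Vec r ι => ∫ u, cw p.1 p.2 (Δ u) ∂κ := by
  simpa using b2_cw_meas κ hΔ (g := fun _ => 1) measurable_const

/-- derivative in the direction of a coordinate of `W` -/
theorem b2_cw_dW (hΔ : Measurable Δ) (hb : ∀ᵐ u ∂κ, ∀ a o, |Δ u a o| ≤ B) {g : Ω → ℝ}
    (hg : Measurable g) {M : ℝ} (hM : ∀ᵐ u ∂κ, |g u| ≤ M) (t : ℝ) (W : Vec r ι) (a : Fin r) (o : ι) :
    HasDerivAt (fun s : ℝ => ∫ u, g u *
      cw t (W + s • (Pi.single a (Pi.single o (1 : ℝ) : ι → ℝ) : Vec r ι)) (Δ u) ∂κ)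
      (-t * ∫ u, g u * Δ u a o * cw t W (Δ u) ∂κ) 0 := by
  have h := b2_dA κ hg (a := fun u => -(t ^ 2 * ∑ a, ∑ o, Δ u a o ^ 2) / 2 -
    t * ∑ a, ∑ o, Δ u a o * W a o) (b := fun u => -(t * Δ u a o)) (c := fun _ => 0)
    (by fun_prop) (by fun_prop) measurable_const
    (M := |M| + (t ^ 2 * (∑ _a : Fin r, ∑ _o : ι, B ^ 2) + |t| * ∑ a, ∑ o, B * |W a o|) + |t| * B)
    (by
      filter_upwards [hb, hM] with u hu hu'
      have hB : 0 ≤ B := (abs_nonneg _).trans (hu a o)
      have h1 := mul_le_mul_of_nonneg_left (b2_nsq_bd hu) (sq_nonneg t)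
      have h2 := mul_le_mul_of_nonneg_left (b2_dot_bd hu W) (abs_nonneg t)
      have h3 := mul_le_mul_of_nonneg_left (hu a o) (abs_nonneg t)
      have p1 : 0 ≤ t ^ 2 * ∑ _a : Fin r, ∑ _o : ι, B ^ 2 := by positivity
      have p2 : 0 ≤ |t| * ∑ a, ∑ o, B * |W a o| := by positivity
      have p3 : 0 ≤ |t| * B := by positivity
      have p4 := abs_nonneg M
      have p5 := le_abs_self M
      refine ⟨by linarith, (abs_sub _ _).trans ?_, ?_, by rw [abs_zero]; linarith⟩
      · rw [abs_div, abs_neg, abs_mul, abs_mul, abs_two, abs_of_nonneg (sq_nonneg t)]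
        have : 0 ≤ t ^ 2 * |∑ a, ∑ o, Δ u a o ^ 2| := by positivity
        linarith
      · rw [abs_neg, abs_mul]; linarith) 0
  convert h using 1
  · funext s
    refine integral_congr_ae (Eventually.of_forall fun u => ?_)
    have h1 := b2_single_dot (Δ u) s a o
    simp only [cw, Pi.add_apply, mul_add, Finset.sum_add_distrib]
    simp only [mul_comm (Δ u _ _) ((s • (_ : Vec r ι)) _ _), h1]
    congr 2
    ring
  · rw [← integral_const_mul]
    refine integral_congr_ae (Eventually.of_forall fun u => ?_)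
    simp only [cw, mul_zero, add_zero, zero_mul]
    ring

/-- derivative in `t` -/
theorem b2_cw_dt (hΔ : Measurable Δ) (hb : ∀ᵐ u ∂κ, ∀ a o, |Δ u a o| ≤ B) (t : ℝ) (W : Vec r ι) :
    HasDerivAt (fun t : ℝ => ∫ u, cw t W (Δ u) ∂κ)
      (∑ a, ∑ o, (-t * ∫ u, Δ u a o * Δ u a o * cw t W (Δ u) ∂κ -
        W a o * ∫ u, Δ u a o * cw t W (Δ u) ∂κ)) t := by
  have h := b2_dA κ (g := fun _ => 1) (a := fun _ => 0) (b := fun u => -∑ a, ∑ o, Δ u a o * W a o)
    (c := fun u => -(∑ a, ∑ o, Δ u a o ^ 2) / 2) measurable_const measurable_const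
    (by fun_prop) (by fun_prop)
    (M := 1 + (∑ _a : Fin r, ∑ _o : ι, B ^ 2) + abs (∑ a, ∑ o, B * |W a o|))
    (by
      filter_upwards [hb] with u hu
      have h1 := b2_nsq_bd hu
      have h2 := (b2_dot_bd hu W).trans (le_abs_self _)
      have p1 : 0 ≤ ∑ _a : Fin r, ∑ _o : ι, B ^ 2 := by positivity
      have p2 := abs_nonneg (∑ a, ∑ o, B * |W a o|)
      refine ⟨by rw [abs_one]; linarith, by rw [abs_zero]; linarith, by rw [abs_neg]; linarith, ?_⟩
      rw [abs_div, abs_neg, abs_two]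
      have := abs_nonneg (∑ a, ∑ o, Δ u a o ^ 2)
      linarith) t
  have e : ∀ s u, Real.exp (0 + (-∑ a, ∑ o, Δ u a o * W a o) * s + -(∑ a, ∑ o, Δ u a o ^ 2) / 2 * s ^ 2) =
      cw s W (Δ u) := fun s u => by
    unfold cw; congr 1; ring
  simp only [e, one_mul] at h
  have i1 : ∀ a o, Integrable (fun u => Δ u a o * cw t W (Δ u)) κ := fun a o =>
    b2_cw_int κ hΔ hb (by fun_prop) (hb.mono fun u hu => hu a o) t W
  have i2 : ∀ a o, Integrable (fun u => Δ u a o * Δ u a o * cw t W (Δ u)) κ := fun a o =>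
    b2_cw_int κ hΔ hb (by fun_prop) (hb.mono fun u hu => by rw [← sq]; exact b2_sq_bd (hu a o)) t W
  have i3 : ∀ a o, Integrable (fun u => -t * (Δ u a o * Δ u a o * cw t W (Δ u)) -
      W a o * (Δ u a o * cw t W (Δ u))) κ :=
    fun a o => ((i2 a o).const_mul (-t)).sub ((i1 a o).const_mul (W a o))
  convert h using 1
  simp only [← integral_const_mul]
  rw [Finset.sum_congr rfl fun a _ => Finset.sum_congr rfl fun o _ =>
    (integral_sub ((i2 a o).const_mul (-t)) ((i1 a o).const_mul (W a o))).symm,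
    Finset.sum_congr rfl fun a _ => (integral_finsetSum _ fun o _ => i3 a o).symm,
    ← integral_finsetSum _ fun a _ => integrable_finsetSum _ fun o _ => i3 a o]
  refine integral_congr_ae (Eventually.of_forall fun u => ?_)
  simp only [neg_div, Finset.sum_div, neg_mul, Finset.sum_mul, ← Finset.sum_neg_distrib,
    ← Finset.sum_add_distrib, Finset.mul_sum, Pi.sub_apply]
  refine Finset.sum_congr rfl fun a _ => Finset.sum_congr rfl fun o _ => ?_
  ring

end

/-- whitened I-MMSE identity -/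
theorem b2_core {Ω : Type} [MeasurableSpace Ω] (κ : Measure Ω) [IsProbabilityMeasure κ]
    {Δ : Ω → Vec r ι} (hΔ : Measurable Δ) {B : ℝ} (hb : ∀ᵐ u ∂κ, ∀ a o, |Δ u a o| ≤ B) :
    ∫ W, Real.log (∫ u, cw 1 W (Δ u) ∂κ) ∂gpi2 (Fin r) ι =
      -∫ t in (0 : ℝ)..1, t * ∫ W, ∑ a, ∑ o,
        ((∫ u, Δ u a o * cw t W (Δ u) ∂κ) / ∫ u, cw t W (Δ u) ∂κ) ^ 2 ∂gpi2 (Fin r) ι := by
  set m1 : Fin r → ι → ℝ × Vec r ι → ℝ := fun a o p =>
    (∫ u, Δ u a o * cw p.1 p.2 (Δ u) ∂κ) / ∫ u, cw p.1 p.2 (Δ u) ∂κ with hm1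
  set m2 : Fin r → ι → ℝ × Vec r ι → ℝ := fun a o p =>
    (∫ u, Δ u a o * Δ u a o * cw p.1 p.2 (Δ u) ∂κ) / ∫ u, cw p.1 p.2 (Δ u) ∂κ with hm2
  have c1 : ∀ a o, Measurable (m1 a o) := fun a o =>
    (b2_cw_meas κ hΔ (g := fun u => Δ u a o) (by fun_prop)).div (b2_cw_meas1 κ hΔ)
  have c2 : ∀ a o, Measurable (m2 a o) := fun a o =>
    (b2_cw_meas κ hΔ (g := fun u => Δ u a o * Δ u a o) (by fun_prop)).div (b2_cw_meas1 κ hΔ)
  have b1 : ∀ a o p, |m1 a o p| ≤ B := fun a o p =>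
    b2_avg_bd κ (fun u => Real.exp_pos _) (b2_cw_int1 κ hΔ hb _ _) (hb.mono fun u hu => hu a o)
  have b2 : ∀ a o p, |m2 a o p| ≤ B ^ 2 := fun a o p =>
    b2_avg_bd κ (fun u => Real.exp_pos _) (b2_cw_int1 κ hΔ hb _ _)
      (hb.mono fun u hu => by rw [← sq]; exact b2_sq_bd (hu a o))
  set D : ℝ → Vec r ι → ℝ := fun t W => ∑ a, ∑ o, (-t * m2 a o (t, W) - W a o * m1 a o (t, W)) with hD
  have hder : ∀ W t, HasDerivAt (fun t => Real.log (∫ u, cw t W (Δ u) ∂κ)) (D t W) t := fun W t => by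
    refine ((b2_cw_dt κ hΔ hb t W).log (b2_cw_Z κ hΔ hb t W).ne').congr_deriv ?_
    simp only [hD, hm1, hm2, Finset.sum_div, sub_div, mul_div_assoc]
  have hDm : Measurable (Function.uncurry D) := by
    refine Finset.measurable_sum _ fun a _ => Finset.measurable_sum _ fun o _ => ?_
    exact (measurable_fst.neg.mul (c2 a o)).sub (Measurable.mul (by fun_prop) (c1 a o))
  have hDb : ∀ t ∈ Set.uIoc (0 : ℝ) 1, ∀ W, ‖D t W‖ ≤ ∑ a, ∑ o, (B ^ 2 + |W a o| * B) := by
    intro t ht W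
    rw [Set.uIoc_of_le zero_le_one] at ht
    refine (Finset.abs_sum_le_sum_abs _ _).trans (Finset.sum_le_sum fun a _ =>
      (Finset.abs_sum_le_sum_abs _ _).trans (Finset.sum_le_sum fun o _ => (abs_sub _ _).trans ?_))
    rw [abs_mul, abs_mul, abs_neg, abs_of_pos ht.1]
    exact add_le_add ((mul_le_of_le_one_left (abs_nonneg _) ht.2).trans (b2 a o _))
      (mul_le_mul_of_nonneg_left (b1 a o _) (abs_nonneg _))
  have : IsFiniteMeasure (volume.restrict (Set.uIoc (0 : ℝ) 1)) := by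
    rw [Set.uIoc_of_le zero_le_one]; infer_instance
  have hftc : ∀ W, Real.log (∫ u, cw 1 W (Δ u) ∂κ) = ∫ t in (0 : ℝ)..1, D t W := fun W => by
    rw [intervalIntegral.integral_eq_sub_of_hasDerivAt (fun t _ => hder W t)]
    · simp [cw]
    · rw [intervalIntegrable_iff]
      exact Integrable.of_bound hDm.of_uncurry_right.aestronglyMeasurable _
        ((ae_restrict_mem measurableSet_uIoc).mono fun t ht => hDb t ht W)
  have hint : Integrable (Function.uncurry D)
      ((volume.restrict (Set.uIoc (0 : ℝ) 1)).prod (gpi2 (Fin r) ι)) := by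
    refine Integrable.mono' (g := fun p => ∑ a, ∑ o, (B ^ 2 + |p.2 a o| * B))
      (Integrable.comp_snd (f := fun W : Vec r ι => ∑ a, ∑ o, (B ^ 2 + |W a o| * B))
        (integrable_finsetSum _ fun a _ => integrable_finsetSum _ fun o _ =>
          (integrable_const _).add ((b2_int_abs a o).mul_const B)) _) hDm.aestronglyMeasurable ?_
    filter_upwards [Measure.quasiMeasurePreserving_fst.ae (ae_restrict_mem measurableSet_uIoc)]
      with p hp using hDb p.1 hp p.2
  simp only [hftc]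
  rw [← intervalIntegral_integral_swap hint, ← intervalIntegral.integral_neg]
  refine intervalIntegral.integral_congr fun t _ => ?_
  have mt : Measurable fun W : Vec r ι => (t, W) := measurable_const.prodMk measurable_id
  have i2 : ∀ a o, Integrable (fun W => -t * m2 a o (t, W)) (gpi2 (Fin r) ι) := fun a o =>
    (Integrable.of_bound ((c2 a o).comp mt).aestronglyMeasurable _
      (Eventually.of_forall fun W => b2 a o _)).const_mul _
  have i1 : ∀ a o, Integrable (fun W => W a o * m1 a o (t, W)) (gpi2 (Fin r) ι) := fun a o =>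
    Integrable.mono' ((b2_int_abs a o).mul_const B)
      (Measurable.aestronglyMeasurable (Measurable.mul (by fun_prop) ((c1 a o).comp mt)))
      (Eventually.of_forall fun W => (abs_mul _ _).trans_le
        (mul_le_mul_of_nonneg_left (b1 a o _) (abs_nonneg _)))
  have i3 : ∀ a o, Integrable (fun W => m1 a o (t, W) ^ 2) (gpi2 (Fin r) ι) := fun a o =>
    Integrable.of_bound (((c1 a o).comp mt).pow_const 2).aestronglyMeasurable _
      (Eventually.of_forall fun W => b2_sq_bd (b1 a o _))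
  have i4 : ∀ a o, Integrable (fun W => -t * m2 a o (t, W) - W a o * m1 a o (t, W))
      (gpi2 (Fin r) ι) := fun a o => (i2 a o).sub (i1 a o)
  have hibp : ∀ a o, ∫ W, W a o * m1 a o (t, W) ∂gpi2 (Fin r) ι =
      ∫ W, (-t * m2 a o (t, W) + t * m1 a o (t, W) ^ 2) ∂gpi2 (Fin r) ι := fun a o => by
    refine b2_ibp (G := fun W => m1 a o (t, W))
      (G' := fun W => -t * m2 a o (t, W) + t * m1 a o (t, W) ^ 2) ((c1 a o).comp mt)
      ((((c2 a o).comp mt).const_mul _).add ((((c1 a o).comp mt).pow_const 2).const_mul _))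
      (B := B + (|t| * B ^ 2 + |t| * B ^ 2)) (fun W => ?_) (fun W => ?_) a o fun W => ?_
    · exact (b1 a o _).trans (le_add_of_nonneg_right (by positivity))
    · have hB : 0 ≤ B := (abs_nonneg _).trans (b1 a o (t, W))
      refine ((abs_add_le _ _).trans ?_).trans (le_add_of_nonneg_left hB)
      rw [abs_mul, abs_mul, abs_neg]
      exact add_le_add (mul_le_mul_of_nonneg_left (b2 a o _) (abs_nonneg _))
        (mul_le_mul_of_nonneg_left (b2_sq_bd (b1 a o _)) (abs_nonneg _))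
    · have d1 := b2_cw_dW κ hΔ hb (g := fun u => Δ u a o) (by fun_prop)
        (hb.mono fun u hu => hu a o) t W a o
      have d0 := b2_cw_dW κ hΔ hb (g := fun _ => 1) measurable_const (M := 1) (by simp) t W a o
      simp only [one_mul] at d0
      have hZ := (b2_cw_Z κ hΔ hb t W).ne'
      refine (d1.fun_div d0 (by simpa using hZ)).congr_deriv ?_
      simp only [hm1, hm2, zero_smul, add_zero]
      generalize ∫ u, Δ u a o * Δ u a o * cw t W (Δ u) ∂κ = x2
      generalize ∫ u, Δ u a o * cw t W (Δ u) ∂κ = x1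
      field_simp
      ring
  simp only [hD]
  rw [integral_finsetSum _ fun a _ => integrable_finsetSum _ fun o _ => i4 a o,
    integral_finsetSum _ fun a _ => integrable_finsetSum _ fun o _ => i3 a o,
    Finset.mul_sum, ← Finset.sum_neg_distrib]
  refine Finset.sum_congr rfl fun a _ => ?_
  rw [integral_finsetSum _ fun o _ => i4 a o, integral_finsetSum _ fun o _ => i3 a o,
    Finset.mul_sum, ← Finset.sum_neg_distrib]
  refine Finset.sum_congr rfl fun o _ => ?_
  rw [integral_sub (i2 a o) (i1 a o), hibp, integral_add (i2 a o) ((i3 a o).const_mul t),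
    integral_const_mul t]
  ring

end Crest.Agent.R166
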