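import Crest.Agent.R166.B2.Defs

/-!
# Row 166, block B2: Gibbs inequality, Donsker-Varadhan with continuous test functions
-/

set_option autoImplicit false

open MeasureTheory ProbabilityTheory Filter Topology
open scoped ENNReal NNReal BigOperators Matrix

noncomputable section

namespace Crest.Agent.R166

theorem b2_exp_int {X : Type} [MeasurableSpace X] (ρ : Measure X) [IsFiniteMeasure ρ] {ψ : X → ℝ}
    (hψ : Measurable ψ) {B : ℝ} (hb : ∀ x, |ψ x| ≤ B) : Integrable (fun x => Real.exp (ψ x)) ρ :=
  Integrable.of_bound hψ.exp.aestronglyMeasurable (Real.exp B) (Eventually.of_forall fun x => by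
    rw [Real.norm_eq_abs, abs_of_pos (Real.exp_pos _)]
    exact Real.exp_le_exp.2 ((le_abs_self _).trans (hb x)))

theorem b2_gibbs {X : Type} [MeasurableSpace X] (ρ μ : Measure X) [IsProbabilityMeasure ρ]
    [IsProbabilityMeasure μ] {f : X → ℝ} (hf : Measurable f)
    (hμ : μ = ρ.withDensity fun x => ENNReal.ofReal (Real.exp (f x))) (hi : Integrable f μ)
    {ψ : X → ℝ} (hψ : Measurable ψ) (hb : ∃ B, ∀ x, |ψ x| ≤ B) :
    ∫ x, ψ x ∂μ - Real.log (∫ x, Real.exp (ψ x) ∂ρ) ≤ ∫ x, f x ∂μ := by
  obtain ⟨B, hB⟩ := hb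
  have i1 := b2_exp_int ρ hψ hB
  have hZ : 0 < ∫ x, Real.exp (ψ x) ∂ρ := integral_exp_pos i1
  set Z := ∫ x, Real.exp (ψ x) ∂ρ with hZe
  have e : ∀ x, (ENNReal.ofReal (Real.exp (f x))).toReal • Real.exp (ψ x - f x) = Real.exp (ψ x) :=
    fun x => by
      rw [ENNReal.toReal_ofReal (Real.exp_pos _).le, smul_eq_mul, ← Real.exp_add]; congr 1; ring
  have i2 : Integrable (fun x => Real.exp (ψ x - f x)) μ := by
    rw [hμ, integrable_withDensity_iff_integrable_smul' hf.exp.ennreal_ofReal
      (Eventually.of_forall fun _ => ENNReal.ofReal_lt_top)]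
    simpa only [e] using i1
  have e2 : ∫ x, Real.exp (ψ x - f x) ∂μ = Z := by
    rw [hμ, integral_withDensity_eq_integral_toReal_smul hf.exp.ennreal_ofReal
      (Eventually.of_forall fun _ => ENNReal.ofReal_lt_top)]
    simp only [e, hZe]
  have iψ : Integrable ψ μ :=
    Integrable.of_bound hψ.aestronglyMeasurable B (Eventually.of_forall hB)
  have i3 : Integrable (fun x => ψ x - f x) μ := iψ.sub hi
  have h := integral_mono (μ := μ) (f := fun x => ψ x - f x - Real.log Z)
    (g := fun x => Real.exp (ψ x - f x) / Z - 1) (i3.sub (integrable_const _))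
    ((i2.div_const Z).sub (integrable_const _)) fun x => by
      have := Real.add_one_le_exp (ψ x - f x - Real.log Z)
      rw [Real.exp_sub _ (Real.log Z), Real.exp_log hZ] at this
      simp only
      linarith
  rw [integral_sub i3 (integrable_const _), integral_sub iψ hi,
    integral_sub (i2.div_const Z) (integrable_const _), integral_div, e2, div_self hZ.ne'] at h
  simp only [integral_const, probReal_univ, smul_eq_mul, one_mul] at h
  linarith

theorem b2_dv {X : Type} [TopologicalSpace X] [TopologicalSpace.PseudoMetrizableSpace X]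
    [MeasurableSpace X] [BorelSpace X] (ρ μ : Measure X) [IsProbabilityMeasure ρ]
    [IsProbabilityMeasure μ] {f : X → ℝ} (hf : Measurable f)
    (hμ : μ = ρ.withDensity fun x => ENNReal.ofReal (Real.exp (f x))) (hi : Integrable f μ) {B : ℝ}
    (h : ∀ φ : BoundedContinuousFunction X ℝ,
      ∫ x, φ x ∂μ - Real.log (∫ x, Real.exp (φ x) ∂ρ) ≤ B) :
    ∫ x, f x ∂μ ≤ B := by
  letI := TopologicalSpace.pseudoMetrizableSpacePseudoMetric X
  have hcl : ∀ M x y : ℝ, |max (-M) (min M x) - max (-M) (min M y)| ≤ |x - y| := fun M x y =>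
    (abs_max_sub_max_le_max _ _ _ _).trans (max_le (by simp)
      ((abs_min_sub_min_le_max _ _ _ _).trans (max_le (by simp) le_rfl)))
  have hcb : ∀ {M : ℝ}, 0 ≤ M → ∀ x : ℝ, |max (-M) (min M x)| ≤ M := fun hM x =>
    abs_le.2 ⟨le_max_left _ _, max_le (by linarith) (min_le_left _ _)⟩
  -- bounded measurable test functions
  have h1 : ∀ {g : X → ℝ}, Measurable g → ∀ {M : ℝ}, 0 ≤ M → (∀ x, |g x| ≤ M) →
      ∫ x, g x ∂μ - Real.log (∫ x, Real.exp (g x) ∂ρ) ≤ B := by
    intro g hg M hM hb
    have ig : Integrable g (μ + ρ) :=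
      Integrable.of_bound hg.aestronglyMeasurable M (Eventually.of_forall hb)
    have hZ : 0 < ∫ x, Real.exp (g x) ∂ρ := integral_exp_pos (b2_exp_int ρ hg hb)
    set Z := ∫ x, Real.exp (g x) ∂ρ
    refine le_of_forall_pos_le_add fun ε hε => ?_
    obtain ⟨φ₀, hφ₀, iφ₀⟩ := ig.exists_boundedContinuous_integral_sub_le
      (ε := ε / (1 + Real.exp M / Z)) (by positivity)
    set δ := ε / (1 + Real.exp M / Z) with hδ
    have hc : Continuous fun x => max (-M) (min M (φ₀ x)) := by fun_prop
    have hφ := h (BoundedContinuousFunction.ofNormedAddCommGroup _ hc M fun x => hcb hM _)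
    simp only [BoundedContinuousFunction.coe_ofNormedAddCommGroup] at hφ
    have hd : ∀ x, |g x - max (-M) (min M (φ₀ x))| ≤ ‖g x - φ₀ x‖ := fun x => by
      have := hcl M (g x) (φ₀ x)
      rwa [min_eq_right (abs_le.1 (hb x)).2, max_eq_right (abs_le.1 (hb x)).1] at this
    have id : Integrable (fun x => ‖g x - φ₀ x‖) (μ + ρ) := (ig.sub iφ₀).norm
    rw [integral_add_measure id.left_of_add_measure id.right_of_add_measure] at hφ₀
    have p1 : 0 ≤ ∫ x, ‖g x - φ₀ x‖ ∂μ := integral_nonneg fun _ => norm_nonneg _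
    have p2 : 0 ≤ ∫ x, ‖g x - φ₀ x‖ ∂ρ := integral_nonneg fun _ => norm_nonneg _
    have iφ : Integrable (fun x => max (-M) (min M (φ₀ x))) μ :=
      Integrable.of_bound hc.aestronglyMeasurable M (Eventually.of_forall fun x => hcb hM _)
    have a1 : ∫ x, g x ∂μ ≤ ∫ x, max (-M) (min M (φ₀ x)) ∂μ + ∫ x, ‖g x - φ₀ x‖ ∂μ := by
      rw [← integral_add iφ id.left_of_add_measure]
      exact integral_mono ig.left_of_add_measure (iφ.add id.left_of_add_measure) fun x => by
        have := (le_abs_self _).trans (hd x)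
        simp only
        linarith
    have ie := b2_exp_int ρ hc.measurable fun x => hcb hM (φ₀ x)
    have a2 : ∫ x, Real.exp (max (-M) (min M (φ₀ x))) ∂ρ ≤ Z + Real.exp M * ∫ x, ‖g x - φ₀ x‖ ∂ρ := by
      rw [← integral_const_mul, ← integral_add (b2_exp_int ρ hg hb)
        (id.right_of_add_measure.const_mul _)]
      refine integral_mono ie ((b2_exp_int ρ hg hb).add (id.right_of_add_measure.const_mul _))
        fun x => ?_
      set a := max (-M) (min M (φ₀ x))
      have b1 := Real.add_one_le_exp (g x - a)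
      have b2 : Real.exp a ≤ Real.exp M := Real.exp_le_exp.2 ((le_abs_self _).trans (hcb hM _))
      have b3 : Real.exp (g x) = Real.exp a * Real.exp (g x - a) := by
        rw [← Real.exp_add]; congr 1; ring
      have b4 := (neg_le_abs _).trans (hd x)
      have b5 := Real.exp_pos a
      have b6 := norm_nonneg (g x - φ₀ x)
      simp only
      nlinarith [mul_le_mul_of_nonneg_left b1 b5.le, mul_le_mul_of_nonneg_left b4 b5.le,
        mul_le_mul_of_nonneg_right b2 b6]
    have a3 := Real.log_le_sub_one_of_pos (div_pos (integral_exp_pos ie) hZ)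
    rw [Real.log_div (integral_exp_pos ie).ne' hZ.ne'] at a3
    have a4 : (∫ x, Real.exp (max (-M) (min M (φ₀ x))) ∂ρ) / Z ≤ 1 + Real.exp M / Z * δ := by
      rw [div_le_iff₀ hZ]
      have : Real.exp M * ∫ x, ‖g x - φ₀ x‖ ∂ρ ≤ Real.exp M * δ :=
        mul_le_mul_of_nonneg_left (by linarith) (Real.exp_pos _).le
      have e : (1 + Real.exp M / Z * δ) * Z = Z + Real.exp M * δ := by field_simp
      linarith
    have a5 : δ + Real.exp M / Z * δ = ε := by
      rw [hδ]; field_simp
    linarith
  have ief : Integrable (fun x => Real.exp (f x)) ρ ∧ ∫ x, Real.exp (f x) ∂ρ = 1 := by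
    have hl : ∫⁻ x, ENNReal.ofReal (Real.exp (f x)) ∂ρ = 1 := by
      have := measure_univ (μ := μ)
      rwa [hμ, withDensity_apply _ MeasurableSet.univ, Measure.restrict_univ] at this
    have i : Integrable (fun x => Real.exp (f x)) ρ := ⟨hf.exp.aestronglyMeasurable, by
      rw [hasFiniteIntegral_iff_ofReal (Eventually.of_forall fun x => (Real.exp_pos _).le), hl]
      exact ENNReal.one_lt_top⟩
    refine ⟨i, ?_⟩
    rw [integral_eq_lintegral_of_nonneg_ae (Eventually.of_forall fun x => (Real.exp_pos _).le)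
      i.aestronglyMeasurable, hl, ENNReal.toReal_one]
  have h2 : ∀ n : ℕ, ∫ x, max (-(n : ℝ)) (min n (f x)) ∂μ ≤ B + Real.exp (-n) := fun n => by
    have hg : Measurable fun x => max (-(n : ℝ)) (min n (f x)) := by fun_prop
    have hb := fun x => hcb (Nat.cast_nonneg n) (f x)
    have a1 := h1 hg (Nat.cast_nonneg n) hb
    have a2 := Real.log_le_sub_one_of_pos (integral_exp_pos (b2_exp_int ρ hg hb))
    have a3 : ∫ x, Real.exp (max (-(n : ℝ)) (min n (f x))) ∂ρ ≤ 1 + Real.exp (-n) := by
      have := integral_mono (b2_exp_int ρ hg hb) (ief.1.add (integrable_const (Real.exp (-n))))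
        fun x => by
          simp only [Pi.add_apply]
          rcases le_total (-(n : ℝ)) (min n (f x)) with h | h
          · rw [max_eq_right h]
            exact (Real.exp_le_exp.2 (min_le_right _ _)).trans
              (le_add_of_nonneg_right (Real.exp_pos _).le)
          · rw [max_eq_left h]; exact le_add_of_nonneg_left (Real.exp_pos _).le
      rw [integral_add' ief.1 (integrable_const _), ief.2] at this
      simpa using this
    linarith
  have l1 : Tendsto (fun n : ℕ => ∫ x, max (-(n : ℝ)) (min n (f x)) ∂μ) atTop (𝓝 (∫ x, f x ∂μ)) := by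
    refine tendsto_integral_of_dominated_convergence (fun x => |f x|)
      (fun n => Measurable.aestronglyMeasurable (by fun_prop)) hi.abs
      (fun n => Eventually.of_forall fun x => ?_) (Eventually.of_forall fun x => ?_)
    · have := hcl n (f x) 0
      rwa [min_eq_right (Nat.cast_nonneg n), max_eq_right (a := -(n : ℝ)) (b := 0) (by simp),
        sub_zero, sub_zero] at this
    · refine tendsto_const_nhds.congr' ?_
      filter_upwards [tendsto_natCast_atTop_atTop.eventually_ge_atTop |f x|] with n hn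
      rw [min_eq_right (abs_le.1 hn).2, max_eq_right (abs_le.1 hn).1]
  have l2 : Tendsto (fun n : ℕ => B + Real.exp (-n)) atTop (𝓝 B) := by
    have := (Real.tendsto_exp_neg_atTop_nhds_zero.comp tendsto_natCast_atTop_atTop).const_add B
    rwa [add_zero] at this
  exact le_of_tendsto_of_tendsto' l1 l2 h2

end Crest.Agent.R166
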