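import Crest.Agent.R166.Iface

/-!
# Row 166, block B2 (I-MMSE): definitions

A *channel* is a parameter space `α` (environment), a prior kernel `κ : Kernel α (Vec r ι)`, a covariance
`C : α → Matrix ι ι ℝ`; at level `t > 0` the observation is `X = U + t⁻¹ C^{1/2} W`.
-/

set_option autoImplicit false

open MeasureTheory ProbabilityTheory Filter Topology
open scoped ENNReal NNReal BigOperators Matrix

noncomputable section

namespace Crest.Agent.R166

/-- `r` vectors indexed by `ι` -/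
abbrev Vec (r : ℕ) (ι : Type) : Type := Fin r → ι → ℝ

section
variable {ι : Type} [Fintype ι] [DecidableEq ι] {r : ℕ} {α : Type} [MeasurableSpace α]

/-- the precision form of the covariance `C` -/
def Qf (C : Matrix ι ι ℝ) (x : ι → ℝ) : ℝ := x ⬝ᵥ C⁻¹ *ᵥ x

/-- the weight in `pmean` -/
def wt (Q : (ι → ℝ) → ℝ) (γ : ℝ) (x u : Vec r ι) : ℝ := Real.exp (-(γ * ∑ b, Q (x b - u b)) / 2)

/-- normalising constant of the density of `t⁻¹ C^{1/2} W` -/
def nc (r : ℕ) (C : Matrix ι ι ℝ) (t : ℝ) : ℝ :=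
  (t ^ Fintype.card ι / √((2 * Real.pi) ^ Fintype.card ι * C.det)) ^ r

/-- the observation -/
def obs (C : Matrix ι ι ℝ) (t : ℝ) (u W : Vec r ι) : Vec r ι := fun a => u a + t⁻¹ • (msqrt C *ᵥ W a)

/-- joint law of (parameter, signal) and observation -/
def chan (P : Measure (α × Vec r ι)) (C : α → Matrix ι ι ℝ) (t : ℝ) :
    Measure ((α × Vec r ι) × Vec r ι) :=
  (P.prod (gpi2 (Fin r) ι)).map fun y => (y.1, obs (C y.1.1) t y.1.2 y.2)

/-- log-density of the observation (level `1`) with respect to the standard Gaussian -/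
def lr (κ : Measure (Vec r ι)) (C : Matrix ι ι ℝ) (x : Vec r ι) : ℝ :=
  -((r : ℝ) / 2) * Real.log C.det + Real.log (∫ u, wt (Qf C) 1 x u ∂κ) + (∑ a, ∑ o, x a o ^ 2) / 2

/-- minimal mean square error at level `t` -/
def mm (κ : Kernel α (Vec r ι)) (P : Measure (α × Vec r ι)) (C : α → Matrix ι ι ℝ) (t : ℝ) : ℝ :=
  ∫ y, ∑ a, Qf (C y.1.1) (y.1.2 a - pmean (κ y.1.1) (Qf (C y.1.1)) (t ^ 2) y.2 a) ∂chan P C t

/-- admissible covariance families -/
structure COK (C : α → Matrix ι ι ℝ) : Prop where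
  pd : ∀ e, (C e).PosDef
  mi : Measurable fun e => (C e)⁻¹
  ms : Measurable fun e => msqrt (C e)
  md : Measurable fun e => (C e).det
  bd : ∃ B : ℝ, ∀ e, (∀ i j, |(C e)⁻¹ i j| ≤ B ∧ |msqrt (C e) i j| ≤ B) ∧ |Real.log (C e).det| ≤ B

/-- bounded priors -/
def KBd (κ : Kernel α (Vec r ι)) (K : ℝ) : Prop := ∀ e, ∀ᵐ u ∂κ e, ∀ a o, |u a o| ≤ K

/-- families of quadratic forms with bounded measurable coefficients -/
def QFam (Q : α → (ι → ℝ) → ℝ) : Prop :=
  ∃ B : α → ι → ι → ℝ, (∀ o o', Measurable fun e => B e o o') ∧ (∃ M, ∀ e o o', |B e o o'| ≤ M) ∧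
    ∀ e x, Q e x = ∑ o, ∑ o', B e o o' * (x o * x o')

/-- the whitened weight -/
def cw (t : ℝ) (W d : Vec r ι) : ℝ :=
  Real.exp (-(t ^ 2 * ∑ a, ∑ o, d a o ^ 2) / 2 - t * ∑ a, ∑ o, d a o * W a o)

/-- coordinatewise truncation -/
def clipV (K : ℝ) (u : Vec r ι) : Vec r ι := fun a o => max (-K) (min K (u a o))

end

/-- the coordinates of the `j`-th edge of a star -/
def rhoE {q : ℕ} (j : Fin (q + 1)) : Fin 2 → SI q := ![none, some j]

/-- the eigenvalue defect at the centre of a star -/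
def NS {q : ℕ} (s E : ℝ) (a : II) (x : SI q → ℝ) : ℝ := (s * (a : ℝ) - E) * x none + ∑ j, x (some j)

/-- star precision form at `z`, `Im z > 0` -/
def QSz {q : ℕ} (s : ℝ) (z : ℂ) (e : SEnv q) (x : SI q → ℝ) : ℝ :=
  NS s z.re e.1 x ^ 2 / z.im + z.im * x none ^ 2 + ∑ j, qf (mT s z (e.2 j)) (x none) (x (some j))

/-- precision form of the `i`-th edge at `z`, read on star coordinates -/
def QEz {q : ℕ} (s : ℝ) (z : ℂ) (e : SEnv q) (i : Fin (q + 1)) (x : SI q → ℝ) : ℝ :=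
  qf (mT s z (e.2 i)) (x none) (x (some i)) + qf (mT s z (nearV e i)) (x (some i)) (x none)

/-- the discrepancy between star and edge posterior means -/
def Dz {q r : ℕ} (s : ℝ) (z : ℂ) (κ : Measure (Vec r (SI q))) (t : ℝ) (e : SEnv q)
    (x : Vec r (SI q)) : ℝ :=
  ∑ a, ∑ j, qf (mT s z (e.2 j))
    (pmean κ (QSz s z e) (t ^ 2) x a none - pmean κ (QEz s z e j) (t ^ 2) x a none)
    (pmean κ (QSz s z e) (t ^ 2) x a (some j) - pmean κ (QEz s z e j) (t ^ 2) x a (some j))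

/-- the change of variables `y ↦ x` with `NS x = c * y (some 0)` -/
def PhiM {q : ℕ} (s E : ℝ) (a : II) (c : ℝ) : Matrix (SI q) (SI q) ℝ :=
  (1 : Matrix (SI q) (SI q) ℝ).updateRow (some 0) fun o =>
    if o = some 0 then c else if o = none then E - s * (a : ℝ) else -1

end Crest.Agent.R166
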