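import Crest.Agent.R166.B2.Defs
import Crest.Agent.R164.GConc

/-!
# Row 166, block B2: Gaussian facts
-/

set_option autoImplicit false

open MeasureTheory ProbabilityTheory Filter Topology
open scoped ENNReal NNReal BigOperators Matrix

noncomputable section

namespace Crest.Agent.R166

variable {ι ι' : Type} [Fintype ι] [DecidableEq ι] [Fintype ι'] [DecidableEq ι'] {r : ℕ}

open scoped MatrixOrder in
/-- `CFC.sqrt_mul_sqrt_self`, `CFC.sqrt_nonneg` -/
theorem b2_msqrt_mul {C : Matrix ι ι ℝ} (hC : C.PosDef) : msqrt C * (msqrt C)ᵀ = C := by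
  have h1 : (msqrt C)ᵀ = msqrt C := by
    have := (Matrix.nonneg_iff_posSemidef.1 (CFC.sqrt_nonneg C)).isHermitian
    rw [Matrix.IsHermitian, Matrix.conjTranspose_eq_transpose_of_trivial] at this
    exact this
  rw [h1]
  exact CFC.sqrt_mul_sqrt_self C hC.posSemidef.nonneg

theorem b2_msqrt_det {C : Matrix ι ι ℝ} (hC : C.PosDef) :
    IsUnit (msqrt C).det ∧ |(msqrt C).det| = √C.det := by
  have h := congrArg Matrix.det (b2_msqrt_mul hC)
  rw [Matrix.det_mul, Matrix.det_transpose] at h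
  refine ⟨isUnit_iff_ne_zero.2 fun h0 => ?_, ?_⟩
  · rw [h0, zero_mul] at h; exact hC.det_pos.ne h
  · rw [← h, Real.sqrt_mul_self_eq_abs]

theorem b2_Qf_eq {C : Matrix ι ι ℝ} (hC : C.PosDef) (x : ι → ℝ) :
    Qf C x = ∑ o, ((msqrt C)⁻¹ *ᵥ x) o ^ 2 := by
  have h : C⁻¹ = ((msqrt C)⁻¹)ᵀ * (msqrt C)⁻¹ := by
    conv_lhs => rw [← b2_msqrt_mul hC]
    rw [Matrix.mul_inv_rev, Matrix.transpose_nonsing_inv]
  rw [Qf, h, ← Matrix.mulVec_mulVec, Matrix.dotProduct_mulVec, Matrix.vecMul_transpose]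
  simp only [dotProduct, sq]

open scoped MatrixOrder Matrix.Norms.L2Operator in
theorem b2_msqrt_cont : ContinuousOn (msqrt : Matrix ι ι ℝ → Matrix ι ι ℝ) {C | C.PosSemidef} := by
  have h := CFC.continuousOn_sqrt (A := Matrix ι ι ℝ)
  exact h.mono fun C hC => Matrix.PosSemidef.nonneg hC

/-- `CFC.continuousOn_sqrt` (L2 operator norm), compactness -/
theorem b2_cok_of_cont {α : Type} [TopologicalSpace α] [CompactSpace α] [MeasurableSpace α]
    [OpensMeasurableSpace α] {C : α → Matrix ι ι ℝ} (hC : Continuous C) (hpd : ∀ e, (C e).PosDef) :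
    COK C := by
  have hd : Continuous fun e => (C e).det := hC.matrix_det
  have hi : Continuous fun e => (C e)⁻¹ := by
    refine continuous_iff_continuousAt.2 fun e => ContinuousAt.comp (f := C)
      (continuousAt_matrix_inv _ ?_) hC.continuousAt
    rw [Ring.inverse_eq_inv']
    exact continuousAt_inv₀ (hpd e).det_pos.ne'
  have hs : Continuous fun e => msqrt (C e) :=
    b2_msqrt_cont.comp_continuous hC fun e => (hpd e).posSemidef
  have hl : Continuous fun e => Real.log (C e).det := hd.log fun e => (hpd e).det_pos.ne'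
  refine ⟨hpd, hi.measurable, hs.measurable, hd.measurable, ?_⟩
  have hF : Continuous fun e => ((fun i j => (C e)⁻¹ i j : ι → ι → ℝ),
      (fun i j => msqrt (C e) i j : ι → ι → ℝ), Real.log (C e).det) := hi.prodMk (hs.prodMk hl)
  obtain ⟨B, hB⟩ := (isCompact_range hF).isBounded.exists_norm_le
  refine ⟨B, fun e => ?_⟩
  have h := hB _ ⟨e, rfl⟩
  simp only [norm_prod_le_iff] at h
  have key : ∀ f : ι → ι → ℝ, ‖f‖ ≤ B → ∀ i j, |f i j| ≤ B := fun f hf i j =>
    ((norm_le_pi_norm (f i) j).trans (norm_le_pi_norm f i)).trans hf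
  exact ⟨fun i j => ⟨key _ h.1 i j, key _ h.2.1 i j⟩, h.2.2⟩

theorem b2_meas_rows (A : Matrix ι ι' ℝ) :
    Measurable fun y : Vec r ι' => (fun a => A *ᵥ y a : Vec r ι) :=
  (continuous_pi fun a => continuous_const.matrix_mulVec (continuous_apply a)).measurable

/-- linear change of variables, row by row (`map_linearMap_addHaar_eq_smul_addHaar`,
`LinearMap.det_pi`) -/
theorem b2_lint_rows {A : Matrix ι ι ℝ} (hA : A.det ≠ 0) {F : Vec r ι → ℝ≥0∞} (hF : Measurable F) :
    ∫⁻ x, F x = ENNReal.ofReal (|A.det| ^ r) * ∫⁻ y : Vec r ι, F fun a => A *ᵥ y a := by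
  set f : Vec r ι →ₗ[ℝ] Vec r ι :=
    LinearMap.pi fun a => (Matrix.toLin' A).comp (LinearMap.proj a) with hf
  have hd : LinearMap.det f = A.det ^ r := by
    rw [hf, LinearMap.det_pi]; simp
  have h := Measure.map_linearMap_addHaar_eq_smul_addHaar (volume : Measure (Vec r ι))
    (f := f) (by rw [hd]; exact pow_ne_zero _ hA)
  have e : (f : Vec r ι → Vec r ι) = fun y a => A *ᵥ y a := rfl
  rw [e] at h
  rw [← lintegral_map hF (b2_meas_rows A), h, lintegral_smul_measure, smul_eq_mul, ← mul_assoc,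
    ← ENNReal.ofReal_mul (by positivity), hd, abs_inv, abs_pow,
    mul_inv_cancel₀ (pow_ne_zero _ (abs_ne_zero.2 hA)), ENNReal.ofReal_one, one_mul]

theorem b2_gpi2_eq : gpi2 (Fin r) ι = (volume : Measure (Vec r ι)).withDensity fun x =>
    ENNReal.ofReal ((√((2 * Real.pi) ^ Fintype.card ι))⁻¹ ^ r *
      Real.exp (-(∑ a, ∑ o, x a o ^ 2) / 2)) := by
  unfold gpi2
  refine Measure.pi_eq fun s hs => ?_
  have hs2 : √(2 * Real.pi) ^ Fintype.card ι = √((2 * Real.pi) ^ Fintype.card ι) := by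
    rw [eq_comm, Real.sqrt_eq_iff_mul_self_eq (by positivity) (by positivity), ← mul_pow,
      Real.mul_self_sqrt (by positivity)]
  have e : (fun x : Vec r ι => ENNReal.ofReal ((√((2 * Real.pi) ^ Fintype.card ι))⁻¹ ^ r *
      Real.exp (-(∑ a, ∑ o, x a o ^ 2) / 2))) = fun x => ∏ a, R164.GConc_rho (x a) := by
    funext x
    simp only [R164.GConc_rho_eq]
    rw [← ENNReal.ofReal_prod_of_nonneg (fun _ _ => by positivity), Finset.prod_mul_distrib,
      Finset.prod_const, Finset.card_univ, Fintype.card_fin, ← Real.exp_sum,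
      inv_pow (√(2 * Real.pi)), hs2]
    simp only [neg_div, Finset.sum_div, Finset.sum_neg_distrib]
  rw [e, withDensity_apply _ (MeasurableSet.univ_pi hs), volume_pi, Measure.restrict_pi_pi,
    R164.GConc_fintype_prod (E := fun _ => ι → ℝ) _ (fun _ => R164.GConc_rho)
      (fun _ => R164.GConc_rho_meas)]
  refine Finset.prod_congr rfl fun i _ => ?_
  rw [gpi, R164.GConc_gpi_eq, withDensity_apply _ (hs i)]

/-- density of a non-degenerate Gaussian (reduce to `A = msqrt C` by
`R164.measurePreserving_gpi_mulVec` with `M = (msqrt C)⁻¹ * A`) -/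
theorem b2_dens {A : Matrix ι ι' ℝ} {C : Matrix ι ι ℝ} (hA : A * Aᵀ = C) (hC : C.PosDef) {t : ℝ}
    (ht : 0 < t) (u : Vec r ι) :
    (gpi2 (Fin r) ι').map (fun W a => u a + t⁻¹ • (A *ᵥ W a)) =
      (volume : Measure (Vec r ι)).withDensity fun x =>
        ENNReal.ofReal (nc r C t * wt (Qf C) (t ^ 2) x u) := by
  obtain ⟨hu, hd⟩ := b2_msqrt_det hC
  set S := msqrt C with hS
  have hM : S⁻¹ * A * (S⁻¹ * A)ᵀ = 1 := by
    rw [Matrix.transpose_mul, Matrix.mul_assoc, ← Matrix.mul_assoc A, hA, ← b2_msqrt_mul hC, ← hS,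
      Matrix.transpose_nonsing_inv, Matrix.mul_assoc, Matrix.mul_nonsing_inv _ (by
        rwa [Matrix.det_transpose]), Matrix.mul_one, Matrix.nonsing_inv_mul _ hu]
  have hmp : MeasurePreserving (fun W : Vec r ι' => (fun a => (S⁻¹ * A) *ᵥ W a : Vec r ι))
      (gpi2 (Fin r) ι') (gpi2 (Fin r) ι) :=
    measurePreserving_pi (fun _ => gpi ι') (fun _ => gpi ι)
      fun _ => R164.measurePreserving_gpi_mulVec _ hM
  have hT : Measurable fun W : Vec r ι => (fun a => (t⁻¹ • S) *ᵥ W a : Vec r ι) + u :=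
    (b2_meas_rows _).add_const u
  have e : (fun (W : Vec r ι') a => u a + t⁻¹ • (A *ᵥ W a)) =
      (fun W : Vec r ι => (fun a => (t⁻¹ • S) *ᵥ W a : Vec r ι) + u) ∘
        fun W a => (S⁻¹ * A) *ᵥ W a := by
    funext W a
    simp only [Function.comp_apply, Pi.add_apply, Matrix.smul_mulVec, Matrix.mulVec_mulVec,
      Matrix.mul_nonsing_inv_cancel_left _ _ hu, add_comm]
  rw [e, ← Measure.map_map hT hmp.measurable, hmp.map_eq]
  have hdet : (t⁻¹ • S).det ≠ 0 := by
    rw [Matrix.det_smul]; exact mul_ne_zero (pow_ne_zero _ (inv_ne_zero ht.ne')) hu.ne_zero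
  have hwm : Measurable fun x : Vec r ι => ENNReal.ofReal (nc r C t * wt (Qf C) (t ^ 2) x u) := by
    unfold wt Qf
    simp only [dotProduct, Matrix.mulVec]
    fun_prop
  refine Measure.ext_of_lintegral _ fun F hF => ?_
  have hFT : Measurable fun W : Vec r ι => F ((fun a => (t⁻¹ • S) *ᵥ W a : Vec r ι) + u) := hF.comp hT
  have hG : Measurable fun x : Vec r ι =>
      ((fun x => ENNReal.ofReal (nc r C t * wt (Qf C) (t ^ 2) x u)) * F) (x + u) :=
    (hwm.mul hF).comp (measurable_add_const u)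
  rw [lintegral_map hF hT, b2_gpi2_eq, lintegral_withDensity_eq_lintegral_mul _ (by fun_prop) hFT,
    lintegral_withDensity_eq_lintegral_mul _ hwm hF,
    ← lintegral_add_right_eq_self ((fun x => ENNReal.ofReal (nc r C t * wt (Qf C) (t ^ 2) x u)) * F) u,
    b2_lint_rows hdet hG, ← lintegral_const_mul' _ _ ENNReal.ofReal_ne_top]
  refine lintegral_congr fun y => ?_
  simp only [Pi.mul_apply, Function.comp_apply]
  rw [← mul_assoc, ← ENNReal.ofReal_mul (by positivity)]
  congr 2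
  have h1 : ∀ b, t ^ 2 * Qf C ((t⁻¹ • S) *ᵥ y b) = ∑ o, y b o ^ 2 := fun b => by
    rw [b2_Qf_eq hC, ← hS, Matrix.smul_mulVec, Matrix.mulVec_smul, Matrix.mulVec_mulVec,
      Matrix.nonsing_inv_mul _ hu, Matrix.one_mulVec, Finset.mul_sum]
    refine Finset.sum_congr rfl fun o _ => ?_
    simp only [Pi.smul_apply, smul_eq_mul]
    field_simp
  simp only [wt, Pi.add_apply, add_sub_cancel_right, Finset.mul_sum, h1, nc]
  rw [← mul_assoc, ← mul_pow, Matrix.det_smul, abs_mul, hd, abs_of_pos (by positivity),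
    Real.sqrt_mul (by positivity)]
  have := Real.sqrt_pos.2 hC.det_pos
  congr 2
  rw [inv_pow t]
  field_simp

end Crest.Agent.R166
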