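import Crest.Agent.R166.B2.Core
import Crest.Agent.R166.B2.Gauss
import Crest.Agent.R166.B2.QF

/-!
# Row 166, block B2: the I-MMSE identity for a fixed signal
-/

set_option autoImplicit false

open MeasureTheory ProbabilityTheory Filter Topology
open scoped ENNReal NNReal BigOperators Matrix

noncomputable section

namespace Crest.Agent.R166

variable {ι : Type} [Fintype ι] [DecidableEq ι] {r : ℕ}

theorem b2_wt_obs {C : Matrix ι ι ℝ} (hC : C.PosDef) {t : ℝ} (ht : t ≠ 0) (U W u : Vec r ι) :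
    wt (Qf C) (t ^ 2) (obs C t U W) u =
      Real.exp (-(∑ a, ∑ o, W a o ^ 2) / 2) * cw t W fun a => (msqrt C)⁻¹ *ᵥ (U a - u a) := by
  rw [wt, cw, ← Real.exp_add]
  congr 1
  have h : ∀ b, (msqrt C)⁻¹ *ᵥ (obs C t U W b - u b) = (msqrt C)⁻¹ *ᵥ (U b - u b) + t⁻¹ • W b := by
    intro b
    rw [obs, add_sub_right_comm, Matrix.mulVec_add, Matrix.mulVec_smul, Matrix.mulVec_mulVec,
      Matrix.nonsing_inv_mul _ (b2_msqrt_det hC).1, Matrix.one_mulVec]
  simp only [b2_Qf_eq hC, h, Pi.add_apply, Pi.smul_apply, smul_eq_mul, Finset.mul_sum, neg_div,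
    Finset.sum_div, ← Finset.sum_neg_distrib, ← Finset.sum_sub_distrib, ← Finset.sum_add_distrib]
  refine Finset.sum_congr rfl fun a _ => Finset.sum_congr rfl fun o _ => ?_
  field_simp
  ring

/-- I-MMSE identity for a fixed signal -/
theorem b2_immse_fix (κ : Measure (Vec r ι)) [IsProbabilityMeasure κ] {K : ℝ}
    (hK : ∀ᵐ u ∂κ, ∀ a o, |u a o| ≤ K) {C : Matrix ι ι ℝ} (hC : C.PosDef) (U : Vec r ι) :
    ∫ W, Real.log (∫ u, wt (Qf C) 1 (obs C 1 U W) u ∂κ) ∂gpi2 (Fin r) ι =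
      -((r : ℝ) * Fintype.card ι) / 2 - ∫ t in (0 : ℝ)..1, t * ∫ W, ∑ a,
        Qf C (U a - pmean κ (Qf C) (t ^ 2) (obs C t U W) a) ∂gpi2 (Fin r) ι := by
  set A := (msqrt C)⁻¹ with hA
  set Δ : Vec r ι → Vec r ι := fun u a => A *ᵥ (U a - u a) with hΔ
  have mΔ : Measurable Δ :=
    (b2_meas_rows A).comp (f := fun u : Vec r ι => U - u) (measurable_const.sub measurable_id)
  have hb : ∀ᵐ u ∂κ, ∀ a o, |Δ u a o| ≤ ∑ a, ∑ o, ∑ o', |A o o'| * (|U a o'| + |K|) := by
    have hn : ∀ a o o', 0 ≤ |A o o'| * (|U a o'| + |K|) := fun a o o' =>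
      mul_nonneg (abs_nonneg _) (add_nonneg (abs_nonneg _) (abs_nonneg _))
    filter_upwards [hK] with u hu a o
    have h1 : |Δ u a o| ≤ ∑ o', |A o o'| * (|U a o'| + |K|) :=
      (Finset.abs_sum_le_sum_abs _ _).trans (Finset.sum_le_sum fun o' _ => (abs_mul _ _).trans_le
        (mul_le_mul_of_nonneg_left ((abs_sub _ _).trans
          (add_le_add le_rfl ((hu a o').trans (le_abs_self K)))) (abs_nonneg _)))
    refine h1.trans (le_trans ?_ (Finset.single_le_sum (f := fun a => ∑ o, ∑ o',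
      |A o o'| * (|U a o'| + |K|)) (fun _ _ => Finset.sum_nonneg fun _ _ =>
        Finset.sum_nonneg fun _ _ => hn _ _ _) (Finset.mem_univ a)))
    exact Finset.single_le_sum (f := fun o => ∑ o', |A o o'| * (|U a o'| + |K|))
      (fun _ _ => Finset.sum_nonneg fun _ _ => hn _ _ _) (Finset.mem_univ o)
  have hc := b2_core κ mΔ hb
  have h1 : ∀ W, Real.log (∫ u, wt (Qf C) 1 (obs C 1 U W) u ∂κ) =
      -(∑ a, ∑ o, W a o ^ 2) / 2 + Real.log (∫ u, cw 1 W (Δ u) ∂κ) := fun W => by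
    have := fun u => b2_wt_obs hC one_ne_zero U W u
    rw [one_pow] at this
    simp only [this]
    rw [integral_const_mul, Real.log_mul (Real.exp_pos _).ne' (b2_cw_Z κ mΔ hb 1 W).ne', Real.log_exp]
  have iW : Integrable (fun W : Vec r ι => ∑ a, ∑ o, W a o ^ 2) (gpi2 (Fin r) ι) :=
    integrable_finsetSum _ fun a _ => integrable_finsetSum _ fun o _ => (b2_int_sq a o).1
  have mL : Measurable fun W : Vec r ι => ∫ u, cw 1 W (Δ u) ∂κ :=
    (b2_cw_meas1 κ mΔ).of_uncurry_left (f := fun t W => ∫ u, cw t W (Δ u) ∂κ)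
  have iL : Integrable (fun W : Vec r ι => Real.log (∫ u, cw 1 W (Δ u) ∂κ)) (gpi2 (Fin r) ι) := by
    set B := ∑ a, ∑ o, ∑ o', |A o o'| * (|U a o'| + |K|)
    have ig : Integrable (fun W : Vec r ι => (∑ _a : Fin r, ∑ _o : ι, B ^ 2) + ∑ a, ∑ o, B * |W a o|)
        (gpi2 (Fin r) ι) :=
      (integrable_const _).add (integrable_finsetSum _ fun a _ => integrable_finsetSum _ fun o _ =>
        (b2_int_abs a o).const_mul B)
    refine ig.mono' mL.log.aestronglyMeasurable (Eventually.of_forall fun W => ?_)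
    have hZ := b2_cw_Z κ mΔ hb 1 W
    have hi := b2_cw_int1 κ mΔ hb 1 W
    have key : ∀ᵐ u ∂κ, |-(1 ^ 2 * ∑ a, ∑ o, Δ u a o ^ 2) / 2 - 1 * ∑ a, ∑ o, Δ u a o * W a o| ≤
        (∑ _a : Fin r, ∑ _o : ι, B ^ 2) + ∑ a, ∑ o, B * |W a o| := by
      filter_upwards [hb] with u hu
      have h1 := b2_nsq_bd hu
      have h2 := b2_dot_bd hu W
      refine (abs_sub _ _).trans ?_
      rw [one_pow, one_mul, one_mul, abs_div, abs_neg, abs_two]
      have := abs_nonneg (∑ a, ∑ o, Δ u a o ^ 2)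
      linarith
    rw [Real.norm_eq_abs, abs_le, Real.le_log_iff_exp_le hZ, Real.log_le_iff_le_exp hZ]
    have hcst : ∀ c : ℝ, ∫ _u, c ∂κ = c := fun c => by simp
    exact ⟨(hcst _).symm.trans_le (integral_mono_ae (integrable_const _) hi
        (key.mono fun u hu => Real.exp_le_exp.2 (abs_le.1 hu).1)),
      (integral_mono_ae hi (integrable_const _)
        (key.mono fun u hu => Real.exp_le_exp.2 (abs_le.1 hu).2)).trans_eq (hcst _)⟩
  have hW : ∫ W, ∑ a, ∑ o, W a o ^ 2 ∂gpi2 (Fin r) ι = r * Fintype.card ι := by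
    rw [integral_finsetSum _ fun a _ => integrable_finsetSum _ fun o _ => (b2_int_sq a o).1,
      Finset.sum_congr rfl fun a _ => integral_finsetSum _ fun o _ => (b2_int_sq a o).1]
    simp [(b2_int_sq _ _).2]
  simp only [h1]
  have iW' : Integrable (fun W : Vec r ι => -(∑ a, ∑ o, W a o ^ 2) / 2) (gpi2 (Fin r) ι) :=
    iW.neg.div_const 2
  rw [integral_add iW' iL, hc, integral_div, integral_neg, hW, sub_eq_add_neg]
  congr 2
  refine intervalIntegral.integral_congr fun t _ => ?_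
  rcases eq_or_ne t 0 with rfl | ht
  · simp
  beta_reduce
  congr 1
  refine integral_congr_ae (Eventually.of_forall fun W => Finset.sum_congr rfl fun a _ => ?_)
  rw [b2_Qf_eq hC]
  refine Finset.sum_congr rfl fun o _ => ?_
  congr 1
  have hZ := (b2_cw_Z κ mΔ hb t W).ne'
  have hp : ∀ o', pmean κ (Qf C) (t ^ 2) (obs C t U W) a o' =
      (∫ u, u a o' * cw t W (Δ u) ∂κ) / ∫ u, cw t W (Δ u) ∂κ := fun o' => by
    change (∫ u, u a o' * wt (Qf C) (t ^ 2) (obs C t U W) u ∂κ) /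
      ∫ u, wt (Qf C) (t ^ 2) (obs C t U W) u ∂κ = _
    simp only [b2_wt_obs hC ht, mul_left_comm _ (Real.exp _), integral_const_mul]
    rw [mul_div_mul_left _ _ (Real.exp_pos _).ne']
  have i0 := b2_cw_int1 κ mΔ hb t W
  have i1 : ∀ o', Integrable (fun u => u a o' * cw t W (Δ u)) κ := fun o' =>
    b2_cw_int κ mΔ hb (by fun_prop) (hK.mono fun u hu => hu a o') t W
  have i2 : ∀ o', Integrable (fun u => A o o' * (U a o' * cw t W (Δ u) - u a o' * cw t W (Δ u))) κ :=
    fun o' => ((i0.const_mul _).sub (i1 o')).const_mul _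
  have e : ∀ u, Δ u a o * cw t W (Δ u) =
      ∑ o', A o o' * (U a o' * cw t W (Δ u) - u a o' * cw t W (Δ u)) := fun u => by
    change (∑ o', A o o' * (U a o' - u a o')) * _ = _
    rw [Finset.sum_mul]
    exact Finset.sum_congr rfl fun o' _ => by ring
  simp only [e]
  rw [integral_finsetSum _ fun o' _ => i2 o', Finset.sum_div]
  refine Finset.sum_congr rfl fun o' _ => ?_
  rw [integral_const_mul, integral_sub (i0.const_mul _) (i1 o'), integral_const_mul, Pi.sub_apply, hp, ← hA]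
  field_simp

end Crest.Agent.R166
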