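import Crest.Agent.R166.B2.Chan
import Crest.Agent.R166.B2.Fix
import Crest.Agent.R166.B2.DV

/-!
# Row 166, block B2: relative entropy of a channel
-/

set_option autoImplicit false

open MeasureTheory ProbabilityTheory Filter Topology
open scoped ENNReal NNReal BigOperators Matrix

noncomputable section

namespace Crest.Agent.R166

variable {ι : Type} [Fintype ι] [DecidableEq ι] {r : ℕ}
  {α : Type} [MeasurableSpace α] {C : α → Matrix ι ι ℝ}

theorem b2_lr_meas (κ : Kernel α (Vec r ι)) [IsMarkovKernel κ] (hC : COK C) :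
    Measurable fun x : α × Vec r ι => lr (κ x.1) (C x.1) x.2 := by
  unfold lr
  exact (((hC.md.comp measurable_fst).log.const_mul _).add (b2_meas_Z κ (QFam.Qf hC id).meas
    measurable_fst measurable_const measurable_snd).log).add (by fun_prop)

theorem b2_logZ_meas (κ : Kernel α (Vec r ι)) [IsMarkovKernel κ] (hC : COK C) :
    Measurable fun y : (α × Vec r ι) × Vec r ι =>
      Real.log (∫ u, wt (Qf (C y.1.1)) 1 y.2 u ∂κ y.1.1) :=
  (b2_meas_Z κ (QFam.Qf hC id).meas (e := fun y : (α × Vec r ι) × Vec r ι => y.1.1) (by fun_prop)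
    measurable_const measurable_snd).log

theorem b2_logZ_int (ν : Measure α) [IsProbabilityMeasure ν] (κ : Kernel α (Vec r ι))
    [IsMarkovKernel κ] {K : ℝ} (hK : KBd κ K) (hC : COK C) :
    Integrable (fun y : (α × Vec r ι) × Vec r ι =>
      Real.log (∫ u, wt (Qf (C y.1.1)) 1 y.2 u ∂κ y.1.1)) (chan (ν ⊗ₘ κ) C 1) := by
  have := b2_chan_prob (ν ⊗ₘ κ) hC 1
  obtain ⟨M, hM0, hM⟩ := (QFam.Qf hC id).bd
  have ig : Integrable (fun y : (α × Vec r ι) × Vec r ι => M * ∑ a, ∑ o, (y.2 a o ^ 2 + K ^ 2))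
      (chan (ν ⊗ₘ κ) C 1) :=
    (integrable_finsetSum _ fun a _ => integrable_finsetSum _ fun o _ =>
      (b2_chan_sq ν κ hK hC 1 a o).add (integrable_const _)).const_mul M
  refine ig.mono' (b2_logZ_meas κ hC).aestronglyMeasurable (Eventually.of_forall fun y => ?_)
  obtain ⟨-, -, h3, hZ, h5⟩ := b2_wt_int (κ y.1.1) (b2_meas_Qf (C y.1.1))
    (b2_Qf_nonneg (hC.pd _)) zero_le_one y.2
  rw [Real.norm_eq_abs, abs_of_nonpos (Real.log_nonpos hZ.le h5), neg_le, Real.le_log_iff_exp_le hZ]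
  have hcst : ∀ c : ℝ, ∫ _u, c ∂κ y.1.1 = c := fun c => by simp
  refine (hcst _).symm.trans_le (integral_mono_ae (integrable_const _) h3 ?_)
  filter_upwards [hK y.1.1] with u hu
  refine Real.exp_le_exp.2 ?_
  have h1 : ∑ b, Qf (C y.1.1) (y.2 b - u b) ≤ ∑ b, M * ∑ o, 2 * (y.2 b o ^ 2 + K ^ 2) := by
    refine Finset.sum_le_sum fun b _ => ((le_abs_self _).trans (hM y.1.1 _)).trans
      (mul_le_mul_of_nonneg_left (Finset.sum_le_sum fun o _ => ?_) hM0)
    have : u b o ^ 2 ≤ K ^ 2 := by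
      rw [← sq_abs]; exact pow_le_pow_left₀ (abs_nonneg _) (hu b o) 2
    rw [Pi.sub_apply]
    nlinarith [sq_nonneg (y.2 b o + u b o)]
  simp only [← Finset.mul_sum] at h1
  linarith

theorem b2_logdet_int (ν : Measure α) [IsProbabilityMeasure ν] (κ : Kernel α (Vec r ι))
    [IsMarkovKernel κ] (hC : COK C) :
    Integrable (fun y : (α × Vec r ι) × Vec r ι => Real.log (C y.1.1).det) (chan (ν ⊗ₘ κ) C 1) ∧
    ∫ y, Real.log (C y.1.1).det ∂chan (ν ⊗ₘ κ) C 1 = ∫ e, Real.log (C e).det ∂ν := by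
  have := b2_chan_prob (ν ⊗ₘ κ) hC 1
  obtain ⟨B, hB⟩ := hC.bd
  have m11 : Measurable fun y : (α × Vec r ι) × Vec r ι => y.1.1 := by fun_prop
  refine ⟨Integrable.of_bound (hC.md.log.comp m11).aestronglyMeasurable B
    (Eventually.of_forall fun y => (hB _).2), ?_⟩
  have h : (chan (ν ⊗ₘ κ) C 1).map (fun y => y.1.1) = ν := by
    have := congrArg (Measure.map Prod.fst) (b2_chan_fst (ν ⊗ₘ κ) hC 1)
    rw [Measure.map_map measurable_fst measurable_fst] at this
    exact this.trans (Measure.fst_compProd ν κ)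
  conv_rhs => rw [← h]
  rw [integral_map m11.aemeasurable hC.md.log.aestronglyMeasurable]

theorem b2_lr_int (ν : Measure α) [IsProbabilityMeasure ν] (κ : Kernel α (Vec r ι))
    [IsMarkovKernel κ] {K : ℝ} (hK : KBd κ K) (hC : COK C) :
    Integrable (fun y : (α × Vec r ι) × Vec r ι => lr (κ y.1.1) (C y.1.1) y.2)
      (chan (ν ⊗ₘ κ) C 1) := by
  exact (((b2_logdet_int ν κ hC).1.const_mul _).add (b2_logZ_int ν κ hK hC)).add
    ((integrable_finsetSum _ fun a _ => integrable_finsetSum _ fun o _ =>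
      b2_chan_sq ν κ hK hC 1 a o).div_const 2)

theorem b2_lr_dens (ν : Measure α) [IsProbabilityMeasure ν] (κ : Kernel α (Vec r ι))
    [IsMarkovKernel κ] (hC : COK C) :
    (chan (ν ⊗ₘ κ) C 1).map (fun y => (y.1.1, y.2)) = (ν.prod (gpi2 (Fin r) ι)).withDensity
      fun x => ENNReal.ofReal (Real.exp (lr (κ x.1) (C x.1) x.2)) := by
  have m12 : Measurable fun y : (α × Vec r ι) × Vec r ι => (y.1.1, y.2) := by fun_prop
  have hd := (b2_lr_meas κ hC).exp.ennreal_ofReal
  refine Measure.ext_of_lintegral _ fun F hF => ?_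
  rw [lintegral_map hF m12, b2_chan_lint ν κ hC one_pos hF,
    lintegral_withDensity_eq_lintegral_mul _ hd hF, lintegral_prod _ (hd.mul hF).aemeasurable]
  refine lintegral_congr fun e => ?_
  rw [b2_gpi2_eq, lintegral_withDensity_eq_lintegral_mul _ (by fun_prop)
    (g := fun x => ((fun x : α × Vec r ι => ENNReal.ofReal (Real.exp (lr (κ x.1) (C x.1) x.2))) * F)
      (e, x)) ((hd.mul hF).comp (measurable_const.prodMk measurable_id))]
  refine lintegral_congr fun x => ?_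
  simp only [Pi.mul_apply]
  rw [← mul_assoc, ← ENNReal.ofReal_mul (by positivity), mul_comm]
  congr 2
  have hZ := (b2_wt_int (κ e) (b2_meas_Qf (C e)) (b2_Qf_nonneg (hC.pd _)) zero_le_one x).2.2.2.1
  have hdet := (hC.pd e).det_pos
  have h1 : Real.exp (-((r : ℝ) / 2) * Real.log (C e).det) = (√(C e).det)⁻¹ ^ r := by
    rw [← Real.exp_log (x := (√(C e).det)⁻¹ ^ r) (by positivity), Real.log_pow, Real.log_inv,
      Real.log_sqrt hdet.le]
    congr 1; ring
  rw [lr, Real.exp_add, Real.exp_add, Real.exp_log hZ, h1, one_pow, nc, one_pow,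
    Real.sqrt_mul (by positivity), one_div, mul_inv, mul_pow, neg_div, Real.exp_neg]
  field_simp

/-- the squared error as a function of `(t, (e, U), W)` -/
def b2err (κ : Kernel α (Vec r ι)) (C : α → Matrix ι ι ℝ) (w : ℝ × (α × Vec r ι) × Vec r ι) : ℝ :=
  ∑ a, Qf (C w.2.1.1) (w.2.1.2 a - pmean (κ w.2.1.1) (Qf (C w.2.1.1)) (w.1 ^ 2)
    (obs (C w.2.1.1) w.1 w.2.1.2 w.2.2) a)

theorem b2err_meas (κ : Kernel α (Vec r ι)) [IsMarkovKernel κ] (hC : COK C) :
    Measurable (b2err κ C) := by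
  have hQ : Measurable (Function.uncurry fun e => Qf (C e)) := (QFam.Qf hC id).meas
  have he : Measurable fun w : ℝ × (α × Vec r ι) × Vec r ι => w.2.1.1 := by fun_prop
  refine Finset.measurable_sum _ fun a _ => hQ.comp (he.prodMk (Measurable.sub (by fun_prop)
    (measurable_pi_lambda _ fun o => b2_meas_pmean κ hQ he (measurable_fst.pow_const 2)
      (b2_meas_obs hC he measurable_fst (by fun_prop) (by fun_prop)) a o)))

theorem b2err_bd (κ : Kernel α (Vec r ι)) [IsMarkovKernel κ] {K : ℝ} (hK : KBd κ K) (hC : COK C) :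
    ∃ M : ℝ, ∀ w : ℝ × (α × Vec r ι) × Vec r ι, (∀ a o, |w.2.1.2 a o| ≤ K) → |b2err κ C w| ≤ M := by
  obtain ⟨M, hM0, hM⟩ := (QFam.Qf hC id).bd
  refine ⟨∑ _a : Fin r, M * ∑ _o : ι, (K + K) ^ 2, fun w hw => (Finset.abs_sum_le_sum_abs _ _).trans
    (Finset.sum_le_sum fun a _ => (hM _ _).trans (mul_le_mul_of_nonneg_left
      (Finset.sum_le_sum fun o _ => ?_) hM0))⟩
  rw [← sq_abs]
  exact pow_le_pow_left₀ (abs_nonneg _) ((abs_sub _ _).trans (add_le_add (hw a o)
    (b2_pmean_bd _ (hK _) (b2_meas_Qf _) (b2_Qf_nonneg (hC.pd _)) (sq_nonneg _) _ a o))) 2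

theorem b2_mm_eq (ν : Measure α) [IsProbabilityMeasure ν] (κ : Kernel α (Vec r ι))
    [IsMarkovKernel κ] (hC : COK C) (t : ℝ) :
    mm κ (ν ⊗ₘ κ) C t = ∫ y, b2err κ C (t, y) ∂(ν ⊗ₘ κ).prod (gpi2 (Fin r) ι) := by
  have hQ : Measurable (Function.uncurry fun e => Qf (C e)) := (QFam.Qf hC id).meas
  have he : Measurable fun y : (α × Vec r ι) × Vec r ι => y.1.1 := by fun_prop
  have hm : Measurable fun y : (α × Vec r ι) × Vec r ι =>
      ∑ a, Qf (C y.1.1) (y.1.2 a - pmean (κ y.1.1) (Qf (C y.1.1)) (t ^ 2) y.2 a) :=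
    Finset.measurable_sum _ fun a _ => hQ.comp (he.prodMk (Measurable.sub (by fun_prop)
      (measurable_pi_lambda _ fun o => b2_meas_pmean κ hQ he measurable_const measurable_snd a o)))
  rw [mm, chan, integral_map (b2_meas_chan hC t).aemeasurable hm.aestronglyMeasurable]
  rfl

theorem b2err_int (ν : Measure α) [IsProbabilityMeasure ν] (κ : Kernel α (Vec r ι))
    [IsMarkovKernel κ] {K : ℝ} (hK : KBd κ K) (hC : COK C) :
    Integrable (fun w : ℝ × (α × Vec r ι) × Vec r ι => w.1 * b2err κ C w)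
      ((volume.restrict (Set.uIoc (0 : ℝ) 1)).prod ((ν ⊗ₘ κ).prod (gpi2 (Fin r) ι))) := by
  have : IsFiniteMeasure (volume.restrict (Set.uIoc (0 : ℝ) 1)) := by
    rw [Set.uIoc_of_le zero_le_one]; infer_instance
  obtain ⟨M, hM⟩ := b2err_bd κ hK hC
  refine Integrable.of_bound (measurable_fst.mul (b2err_meas κ hC)).aestronglyMeasurable M ?_
  filter_upwards [Measure.quasiMeasurePreserving_fst.ae (ae_restrict_mem measurableSet_uIoc),
    (Measure.quasiMeasurePreserving_fst.comp Measure.quasiMeasurePreserving_snd).ae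
      (b2_cp_ae_bd ν κ hK)] with w h1 h2
  rw [Set.uIoc_of_le zero_le_one] at h1
  rw [Real.norm_eq_abs, abs_mul, abs_of_pos h1.1]
  exact (mul_le_of_le_one_left (abs_nonneg _) h1.2).trans (hM w h2)

theorem b2_mm_int (ν : Measure α) [IsProbabilityMeasure ν] (κ : Kernel α (Vec r ι))
    [IsMarkovKernel κ] {K : ℝ} (hK : KBd κ K) (hC : COK C) :
    IntervalIntegrable (fun t => t * mm κ (ν ⊗ₘ κ) C t) volume 0 1 := by
  rw [intervalIntegrable_iff]
  simp only [b2_mm_eq ν κ hC, ← integral_const_mul]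
  exact (b2err_int ν κ hK hC).integral_prod_left

/-- integrated I-MMSE identity -/
theorem b2_lr_eq (ν : Measure α) [IsProbabilityMeasure ν] (κ : Kernel α (Vec r ι))
    [IsMarkovKernel κ] {K : ℝ} (hK : KBd κ K) (hC : COK C) :
    ∫ y, lr (κ y.1.1) (C y.1.1) y.2 ∂chan (ν ⊗ₘ κ) C 1 =
      -((r : ℝ) / 2) * ∫ e, Real.log (C e).det ∂ν - (r : ℝ) * Fintype.card ι / 2 -
        (∫ t in (0 : ℝ)..1, t * mm κ (ν ⊗ₘ κ) C t) +
        (∑ a, ∑ o, ∫ y, y.2 a o ^ 2 ∂chan (ν ⊗ₘ κ) C 1) / 2 := by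
  have i1 := (b2_logdet_int ν κ hC).1.const_mul (-((r : ℝ) / 2))
  have i2 := b2_logZ_int ν κ hK hC
  have i3 := b2_chan_sq ν κ hK hC 1
  have i12 : Integrable (fun y : (α × Vec r ι) × Vec r ι => -((r : ℝ) / 2) * Real.log (C y.1.1).det +
      Real.log (∫ u, wt (Qf (C y.1.1)) 1 y.2 u ∂κ y.1.1)) (chan (ν ⊗ₘ κ) C 1) := i1.add i2
  have hZ : ∫ y, Real.log (∫ u, wt (Qf (C y.1.1)) 1 y.2 u ∂κ y.1.1) ∂chan (ν ⊗ₘ κ) C 1 =
      -((r : ℝ) * Fintype.card ι) / 2 - ∫ t in (0 : ℝ)..1, t * mm κ (ν ⊗ₘ κ) C t := by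
    have hi := i2
    rw [chan, integrable_map_measure (b2_logZ_meas κ hC).aestronglyMeasurable
      (b2_meas_chan hC 1).aemeasurable] at hi
    rw [chan, integral_map (b2_meas_chan hC 1).aemeasurable (b2_logZ_meas κ hC).aestronglyMeasurable]
    refine (integral_prod _ hi).trans ?_
    have e1 : ∀ p : α × Vec r ι, ∫ W, Real.log (∫ u, wt (Qf (C p.1)) 1 (obs (C p.1) 1 p.2 W) u ∂κ p.1)
        ∂gpi2 (Fin r) ι = -((r : ℝ) * Fintype.card ι) / 2 -
          ∫ t in (0 : ℝ)..1, ∫ W, t * b2err κ C (t, p, W) ∂gpi2 (Fin r) ι := fun p => by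
      rw [b2_immse_fix (κ p.1) (hK p.1) (hC.pd p.1) p.2]
      simp only [integral_const_mul]
      rfl
    have hI := b2err_int ν κ hK hC
    have hI2 : Integrable (Function.uncurry fun (t : ℝ) (p : α × Vec r ι) =>
        ∫ W, t * b2err κ C (t, p, W) ∂gpi2 (Fin r) ι)
        ((volume.restrict (Set.uIoc (0 : ℝ) 1)).prod (ν ⊗ₘ κ)) :=
      ((measurePreserving_prodAssoc _ _ _).integrable_comp_of_integrable hI).integral_prod_left
    refine (integral_congr_ae (Eventually.of_forall e1)).trans ?_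
    have hI3 : Integrable (fun p : α × Vec r ι =>
        ∫ t in (0 : ℝ)..1, ∫ W, t * b2err κ C (t, p, W) ∂gpi2 (Fin r) ι) (ν ⊗ₘ κ) := by
      have := hI2.integral_prod_right
      rw [Set.uIoc_of_le zero_le_one] at this
      simp only [intervalIntegral.integral_of_le zero_le_one]
      exact this
    rw [integral_sub (integrable_const _) hI3, ← intervalIntegral_integral_swap hI2]
    simp only [integral_const, probReal_univ, smul_eq_mul, one_mul, sub_right_inj]
    refine intervalIntegral.integral_congr_ae ?_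
    have := hI.prod_right_ae
    rw [ae_restrict_iff' measurableSet_uIoc] at this
    filter_upwards [this] with t ht h
    rw [b2_mm_eq ν κ hC, ← integral_const_mul, integral_prod _ (ht h)]
  unfold lr
  rw [integral_add i12 ((integrable_finsetSum _ fun a _ => integrable_finsetSum _ fun o _ =>
    i3 a o).div_const 2), integral_add i1 i2, integral_const_mul, (b2_logdet_int ν κ hC).2, hZ,
    integral_div, integral_finsetSum _ fun a _ => integrable_finsetSum _ fun o _ => i3 a o,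
    Finset.sum_congr rfl fun a _ => integral_finsetSum _ fun o _ => i3 a o]
  ring

theorem b2_kl_upper (ν : Measure α) [IsProbabilityMeasure ν] (κ : Kernel α (Vec r ι))
    [IsMarkovKernel κ] {K : ℝ} (hK : KBd κ K) (hC : COK C) {ψ : α × Vec r ι → ℝ}
    (hψ : Measurable ψ) (hb : ∃ B, ∀ x, |ψ x| ≤ B) :
    nInt (ν ⊗ₘ κ) C ψ - Real.log (∫ x, Real.exp (ψ x) ∂ν.prod (gpi2 (Fin r) ι)) ≤
      ∫ y, lr (κ y.1.1) (C y.1.1) y.2 ∂chan (ν ⊗ₘ κ) C 1 := by
  have := b2_chan_prob (ν ⊗ₘ κ) hC 1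
  have m12 : Measurable fun y : (α × Vec r ι) × Vec r ι => (y.1.1, y.2) := by fun_prop
  have := Measure.isProbabilityMeasure_map (μ := chan (ν ⊗ₘ κ) C 1) m12.aemeasurable
  have hl := b2_lr_meas κ hC
  have h := b2_gibbs _ _ hl (b2_lr_dens ν κ hC) ((integrable_map_measure hl.aestronglyMeasurable
    m12.aemeasurable).2 (b2_lr_int ν κ hK hC)) hψ hb
  obtain ⟨B, hB⟩ := hb
  rw [integral_map m12.aemeasurable hψ.aestronglyMeasurable,
    integral_map m12.aemeasurable hl.aestronglyMeasurable] at h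
  rwa [b2_nInt_eq _ hC hψ (Integrable.of_bound (hψ.comp m12).aestronglyMeasurable B
    (Eventually.of_forall fun y => hB _))]

theorem b2_kl_lower [TopologicalSpace α] [TopologicalSpace.PseudoMetrizableSpace α] [BorelSpace α]
    (ν : Measure α) [IsProbabilityMeasure ν] (κ : Kernel α (Vec r ι))
    [IsMarkovKernel κ] {K : ℝ} (hK : KBd κ K) (hC : COK C) {B : ℝ}
    (h : ∀ φ : BoundedContinuousFunction (α × Vec r ι) ℝ,
      nInt (ν ⊗ₘ κ) C φ - Real.log (∫ x, Real.exp (φ x) ∂ν.prod (gpi2 (Fin r) ι)) ≤ B) :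
    ∫ y, lr (κ y.1.1) (C y.1.1) y.2 ∂chan (ν ⊗ₘ κ) C 1 ≤ B := by
  have := b2_chan_prob (ν ⊗ₘ κ) hC 1
  have m12 : Measurable fun y : (α × Vec r ι) × Vec r ι => (y.1.1, y.2) := by fun_prop
  have := Measure.isProbabilityMeasure_map (μ := chan (ν ⊗ₘ κ) C 1) m12.aemeasurable
  have hl := b2_lr_meas κ hC
  have h1 := b2_dv _ _ hl (b2_lr_dens ν κ hC) ((integrable_map_measure hl.aestronglyMeasurable
    m12.aemeasurable).2 (b2_lr_int ν κ hK hC)) (B := B) fun φ => by
      have hφ : Measurable φ := φ.continuous.measurable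
      rw [integral_map m12.aemeasurable hφ.aestronglyMeasurable, ← b2_nInt_eq _ hC hφ
        (Integrable.of_bound (hφ.comp m12).aestronglyMeasurable ‖φ‖
          (Eventually.of_forall fun y => φ.norm_coe_le_norm _))]
      exact h φ
  rwa [integral_map m12.aemeasurable hl.aestronglyMeasurable] at h1

end Crest.Agent.R166
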