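import Crest.Agent.R166.B2.QF
import Crest.Agent.R166.B2.Alg

/-!
# Row 166, block B2: limits of posterior means
-/

set_option autoImplicit false

open MeasureTheory ProbabilityTheory Filter Topology
open scoped ENNReal NNReal BigOperators Matrix

noncomputable section

namespace Crest.Agent.R166

section
variable {ι : Type} [Fintype ι] [DecidableEq ι] {r : ℕ}

theorem b2_clip_abs {K : ℝ} (hK : 0 ≤ K) (x : ℝ) : |max (-K) (min K x)| ≤ |x| := by
  rcases le_total x 0 with h | h
  · rw [min_eq_right (h.trans hK), abs_of_nonpos h, abs_of_nonpos (max_le (by linarith) h)]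
    exact neg_le_neg (le_max_right _ _)
  · rw [max_eq_right ((neg_nonpos.2 hK).trans (le_min hK h)), abs_of_nonneg h,
      abs_of_nonneg (le_min hK h)]
    exact min_le_right _ _

theorem b2_clip_ev {K : ℕ → ℝ} (hK : Tendsto K atTop atTop) (u : Vec r ι) :
    ∀ᶠ k in atTop, clipV (K k) u = u := by
  filter_upwards [hK.eventually_ge_atTop ‖u‖] with k hk
  funext a o
  obtain ⟨h1, h2⟩ := abs_le.1 (((norm_le_pi_norm (u a) o).trans (norm_le_pi_norm u a)).trans hk)
  simp only [clipV, min_eq_right h2, max_eq_right h1]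

/-- dominated convergence for posterior means -/
theorem b2_lim_pm (κ : Measure (Vec r ι)) [IsProbabilityMeasure κ]
    (hi : ∀ a o, Integrable (fun u : Vec r ι => u a o) κ) {Qk : ℕ → (ι → ℝ) → ℝ}
    (hQk : ∀ k, Measurable (Qk k)) (h0 : ∀ k x, 0 ≤ Qk k x) {Q : (ι → ℝ) → ℝ} (hQ : Measurable Q)
    (hQ0 : ∀ x, 0 ≤ Q x) {K : ℕ → ℝ} (hK0 : ∀ k, 0 ≤ K k) (hK : Tendsto K atTop atTop) {γ c : ℝ}
    (hγ : 0 ≤ γ) {xk : ℕ → Vec r ι} {x : Vec r ι}
    (hl : ∀ᵐ u ∂κ, Tendsto (fun k => ∑ b, Qk k (xk k b - u b)) atTop (𝓝 (c + ∑ b, Q (x b - u b)))) :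
    Tendsto (fun k => ∫ u, wt (Qk k) γ (xk k) u ∂κ.map (clipV (K k))) atTop
      (𝓝 (Real.exp (-(γ * c) / 2) * ∫ u, wt Q γ x u ∂κ)) ∧
    ∀ a o, Tendsto (fun k => pmean (κ.map (clipV (K k))) (Qk k) γ (xk k) a o) atTop
      (𝓝 (pmean κ Q γ x a o)) := by
  have hw := fun k => b2_wt_int κ (hQk k) (h0 k) hγ (xk k)
  have hc := fun k => b2_meas_clipV (r := r) (ι := ι) (K k)
  have hlw : ∀ᵐ u ∂κ, Tendsto (fun k => wt (Qk k) γ (xk k) (clipV (K k) u)) atTop
      (𝓝 (Real.exp (-(γ * c) / 2) * wt Q γ x u)) := by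
    filter_upwards [hl] with u hu
    have h1 := (Real.continuous_exp.tendsto _).comp (((hu.const_mul γ).neg).div_const 2)
    have e : Real.exp (-(γ * c) / 2) * wt Q γ x u =
        Real.exp (-(γ * (c + ∑ b, Q (x b - u b))) / 2) := by
      rw [wt, ← Real.exp_add]; congr 1; ring
    rw [e]
    refine h1.congr' ?_
    filter_upwards [b2_clip_ev hK u] with k hk
    rw [hk]; rfl
  have l0 : Tendsto (fun k => ∫ u, wt (Qk k) γ (xk k) u ∂κ.map (clipV (K k))) atTop
      (𝓝 (Real.exp (-(γ * c) / 2) * ∫ u, wt Q γ x u ∂κ)) := by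
    simp only [fun k => integral_map (μ := κ) (hc k).aemeasurable (hw k).2.1.aestronglyMeasurable]
    rw [← integral_const_mul]
    exact tendsto_integral_of_dominated_convergence (fun _ => 1)
      (fun k => ((hw k).2.1.comp (hc k)).aestronglyMeasurable) (integrable_const _)
      (fun k => Eventually.of_forall fun u => by
        rw [Real.norm_eq_abs, abs_of_pos ((hw k).1 _).1]; exact ((hw k).1 _).2) hlw
  refine ⟨l0, fun a o => ?_⟩
  have hm : ∀ k, Measurable fun u : Vec r ι => u a o * wt (Qk k) γ (xk k) u := fun k =>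
    Measurable.mul (by fun_prop) (hw k).2.1
  have l1 : Tendsto (fun k => ∫ u, u a o * wt (Qk k) γ (xk k) u ∂κ.map (clipV (K k))) atTop
      (𝓝 (Real.exp (-(γ * c) / 2) * ∫ u, u a o * wt Q γ x u ∂κ)) := by
    simp only [fun k => integral_map (μ := κ) (hc k).aemeasurable (hm k).aestronglyMeasurable]
    rw [← integral_const_mul]
    refine tendsto_integral_of_dominated_convergence (fun u => |u a o|)
      (fun k => ((hm k).comp (hc k)).aestronglyMeasurable) (hi a o).abs
      (fun k => Eventually.of_forall fun u => ?_) ?_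
    · rw [Real.norm_eq_abs, abs_mul, abs_of_pos ((hw k).1 _).1]
      exact (mul_le_of_le_one_right (abs_nonneg _) ((hw k).1 _).2).trans (b2_clip_abs (hK0 k) _)
    · filter_upwards [hlw] with u hu
      rw [mul_left_comm]
      refine (hu.const_mul (u a o)).congr' ?_
      filter_upwards [b2_clip_ev hK u] with k hk
      rw [hk]
  have hZ := (b2_wt_int κ hQ hQ0 hγ x).2.2.2.1
  have := l1.div l0 (mul_pos (Real.exp_pos _) hZ).ne'
  rw [mul_div_mul_left _ _ (Real.exp_pos _).ne'] at this
  exact this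

theorem b2_pm_cont (κ : Measure (Vec r ι)) [IsProbabilityMeasure κ]
    (hi : ∀ a o, Integrable (fun u : Vec r ι => u a o) κ) {Q : (ι → ℝ) → ℝ} (hQ : Continuous Q)
    (hQ0 : ∀ x, 0 ≤ Q x) {γ : ℝ} (hγ : 0 ≤ γ) (a : Fin r) (o : ι) :
    Continuous fun x => pmean κ Q γ x a o := by
  have hw := fun x => b2_wt_int κ hQ.measurable hQ0 hγ x
  have hc : ∀ u : Vec r ι, Continuous fun x => wt Q γ x u := fun u => by unfold wt; fun_prop
  have c0 : Continuous fun x => ∫ u, wt Q γ x u ∂κ :=
    continuous_of_dominated (bound := fun _ => 1) (fun x => (hw x).2.1.aestronglyMeasurable)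
      (fun x => Eventually.of_forall fun u => by
        rw [Real.norm_eq_abs, abs_of_pos ((hw x).1 _).1]; exact ((hw x).1 _).2)
      (integrable_const _) (Eventually.of_forall hc)
  have c1 : Continuous fun x => ∫ u, u a o * wt Q γ x u ∂κ :=
    continuous_of_dominated (bound := fun u => |u a o|)
      (fun x => (Measurable.mul (by fun_prop) (hw x).2.1).aestronglyMeasurable)
      (fun x => Eventually.of_forall fun u => by
        rw [Real.norm_eq_abs, abs_mul, abs_of_pos ((hw x).1 _).1]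
        exact mul_le_of_le_one_right (abs_nonneg _) ((hw x).1 _).2)
      (hi a o).abs (Eventually.of_forall fun u => continuous_const.mul (hc u))
  exact c1.div c0 fun x => (hw x).2.2.2.1.ne'

end

variable {q r : ℕ} {π : Measure II} [IsProbabilityMeasure π] {s E : ℝ}

/-- choice of the truncation levels -/
theorem b2_choose_K (hs0 : 0 ≤ s) (hs1 : s ≤ 1) {P : Measure (SState q r)} (hP : IsLimit q r π s E P) :
    ∃ K : ℕ → ℕ, Tendsto K atTop atTop ∧ Tendsto (fun k => ∫ p, ∑ a,
      (NS s E p.1.1 (p.2 a) ^ 2 / (zk E k).im + (zk E k).im * p.2 a none ^ 2) ∂P.map (clipS (K k)))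
      atTop (𝓝 0) := by
  have := hP.prob
  have hη : ∀ k, (zk E k).im = (2 : ℝ)⁻¹ ^ k := fun k => by
    simp [zk, -Complex.ofReal_pow, -Complex.ofReal_inv]
  have hη0 : ∀ k, 0 < (zk E k).im := fun k => by rw [hη]; positivity
  have hη1 : Tendsto (fun k => (zk E k).im) atTop (𝓝 0) := by
    simp only [hη]; exact tendsto_pow_atTop_nhds_zero_of_lt_one (by norm_num) (by norm_num)
  have hc : ∀ K : ℝ, Measurable (clipS (q := q) (r := r) K) := fun K =>
    measurable_id.prodMap (b2_meas_clipV K)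
  have mN : Measurable fun p : SState q r => ∑ a, NS s E p.1.1 (p.2 a) ^ 2 := by unfold NS; fun_prop
  have ig : Integrable (fun p : SState q r => ∑ a, ((1 + |E|) ^ 2 + (q + 1)) * ∑ o, p.2 a o ^ 2) P :=
    integrable_finsetSum _ fun a _ => (integrable_finsetSum _ fun o _ => hP.sq a o).const_mul _
  have hb : ∀ (K : ℕ) (p : SState q r), ‖∑ a, NS s E p.1.1 (clipV K p.2 a) ^ 2‖ ≤
      ∑ a, ((1 + |E|) ^ 2 + (q + 1)) * ∑ o, p.2 a o ^ 2 := fun K p => by
    rw [Real.norm_eq_abs, abs_of_nonneg (Finset.sum_nonneg fun _ _ => sq_nonneg _)]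
    refine Finset.sum_le_sum fun a _ => ?_
    have h1 := Finset.sum_mul_sq_le_sq_mul_sq Finset.univ
      (fun o : SI q => o.elim (s * (p.1.1 : ℝ) - E) fun _ => 1) (clipV K p.2 a)
    simp only [Fintype.sum_option, Option.elim, one_mul, one_pow, Finset.sum_const, Finset.card_univ,
      Fintype.card_fin, nsmul_eq_mul, mul_one] at h1
    refine h1.trans (mul_le_mul ?_ ?_ (by positivity) (by positivity))
    · have h2 : |(p.1.1 : ℝ)| ≤ 1 := abs_le.2 p.1.1.2
      have h3 : |s * (p.1.1 : ℝ)| ≤ 1 := by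
        rw [abs_mul, abs_of_nonneg hs0]; exact mul_le_one₀ hs1 (abs_nonneg _) h2
      push_cast
      refine add_le_add ?_ le_rfl
      rw [← sq_abs]
      exact pow_le_pow_left₀ (abs_nonneg _) ((abs_sub _ _).trans (add_le_add h3 le_rfl)) 2
    · rw [← Fintype.sum_option (fun o => clipV (K : ℝ) p.2 a o ^ 2)]
      exact Finset.sum_le_sum fun o _ => sq_le_sq.2 (b2_clip_abs (Nat.cast_nonneg K) _)
  have l1 : Tendsto (fun K : ℕ => ∫ p, ∑ a, NS s E p.1.1 (clipV K p.2 a) ^ 2 ∂P) atTop (𝓝 0) := by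
    have := tendsto_integral_of_dominated_convergence (μ := P) (f := fun _ => (0 : ℝ))
      (F := fun (K : ℕ) p => ∑ a, NS s E p.1.1 (clipV K p.2 a) ^ 2) _
      (fun K => (mN.comp (hc K)).aestronglyMeasurable) ig (fun K => Eventually.of_forall (hb K)) (by
        filter_upwards [hP.eig] with p hp
        refine tendsto_const_nhds.congr' ?_
        filter_upwards [b2_clip_ev tendsto_natCast_atTop_atTop p.2] with K hK
        rw [hK]
        exact (Finset.sum_eq_zero fun a _ => by
          have : NS s E p.1.1 (p.2 a) = 0 := hp a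
          rw [this]; simp).symm)
    simpa using this
  have hex : ∀ k : ℕ, ∃ K : ℕ, k ≤ K ∧ ∫ p, ∑ a, NS s E p.1.1 (clipV K p.2 a) ^ 2 ∂P ≤
      (zk E k).im ^ 2 := fun k =>
    ((eventually_ge_atTop k).and (l1.eventually_le_const (pow_pos (hη0 k) 2))).exists
  choose K hK1 hK2 using hex
  refine ⟨K, tendsto_atTop_mono hK1 tendsto_id, ?_⟩
  have l2 := hη1.add (hη1.mul_const (∑ a, ∫ p, p.2 a none ^ 2 ∂P))
  rw [zero_mul, add_zero] at l2
  refine squeeze_zero (fun k => integral_nonneg fun p => Finset.sum_nonneg fun a _ => add_nonneg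
    (div_nonneg (sq_nonneg _) (hη0 k).le) (mul_nonneg (hη0 k).le (sq_nonneg _))) (fun k => ?_) l2
  rw [integral_map (hc _).aemeasurable (Measurable.aestronglyMeasurable (by unfold NS; fun_prop))]
  have i1 : Integrable (fun p : SState q r => ∑ a, NS s E p.1.1 (clipV (K k) p.2 a) ^ 2) P :=
    ig.mono' (mN.comp (hc _)).aestronglyMeasurable (Eventually.of_forall (hb _))
  have i2 : Integrable (fun p : SState q r => ∑ a, p.2 a none ^ 2) P :=
    integrable_finsetSum _ fun a _ => hP.sq a none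
  refine (integral_mono_of_nonneg (Eventually.of_forall fun p => Finset.sum_nonneg fun a _ =>
    add_nonneg (div_nonneg (sq_nonneg _) (hη0 k).le) (mul_nonneg (hη0 k).le (sq_nonneg _)))
    ((i1.div_const (zk E k).im).add (i2.const_mul (zk E k).im))
    (Eventually.of_forall fun p => ?_)).trans ?_
  · simp only [Pi.add_apply, Finset.sum_div, Finset.mul_sum, ← Finset.sum_add_distrib]
    exact Finset.sum_le_sum fun a _ => add_le_add le_rfl (mul_le_mul_of_nonneg_left
      (sq_le_sq.2 (b2_clip_abs (Nat.cast_nonneg _) _)) (hη0 k).le)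
  · rw [integral_add' (i1.div_const _) (i2.const_mul _), integral_div, integral_const_mul,
      integral_finsetSum _ fun a _ => hP.sq a none]
    refine add_le_add ?_ le_rfl
    rw [div_le_iff₀ (hη0 k), ← sq]
    exact hK2 k

end Crest.Agent.R166
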