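import Crest.Agent.R166.B2.Gauss
import Crest.Agent.R166.B2.Alg

/-!
# Row 166, block B2: tree facts at a fixed `z`
-/

set_option autoImplicit false

open MeasureTheory ProbabilityTheory Filter Topology
open scoped ENNReal NNReal BigOperators Matrix

noncomputable section

namespace Crest.Agent.R166

variable {q r : ℕ} {π : Measure II} [IsProbabilityMeasure π] {s : ℝ} {z : ℂ}

instance b2_envLaw_prob : IsProbabilityMeasure (envLaw q π) := by unfold envLaw; infer_instance

instance b2_starLaw_prob : IsProbabilityMeasure (starLaw q π) := by unfold starLaw; infer_instance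

instance b2_edgeLaw_prob : IsProbabilityMeasure (edgeLaw q π) := by unfold edgeLaw; infer_instance

theorem b2_cont_nearV (j : Fin (q + 1)) : Continuous fun e : SEnv q => nearV e j := by
  refine continuous_pi fun l => ?_
  cases l with
  | nil => exact continuous_fst
  | cons i l => exact (continuous_apply_apply _ l).comp continuous_snd

theorem b2_cont_imM {X ι : Type} [TopologicalSpace X] {A : X → Matrix ι ι ℂ} (hA : Continuous A) :
    Continuous fun x => imM (A x) :=
  continuous_pi fun i => continuous_pi fun j =>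
    Complex.continuous_im.comp ((continuous_apply_apply i j).comp hA)

theorem b2_one_sub_ne {m' m : ℂ} (hm' : 0 < m'.im) (hm : 0 < m.im) : 1 - m' * m ≠ 0 := by
  intro h
  have h1 := congrArg Complex.re h
  have h2 := congrArg Complex.im h
  simp only [Complex.sub_re, Complex.one_re, Complex.mul_re, Complex.zero_re, Complex.sub_im,
    Complex.one_im, Complex.mul_im, Complex.zero_im] at h1 h2
  have h3 : m'.re * m.im + m'.im * m.re = 0 := by linarith
  have h4 : m.im * (m'.re * m.re) = -(m'.im * m.re ^ 2) := by linear_combination m.re * h3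
  nlinarith [mul_pos hm' (mul_pos hm hm), mul_nonneg hm'.le (sq_nonneg m.re)]

theorem b2_cont_GamE {X : Type} [TopologicalSpace X] {m' m : X → ℂ} (h' : Continuous m')
    (h : Continuous m) (p' : ∀ x, 0 < (m' x).im) (p : ∀ x, 0 < (m x).im) :
    Continuous fun x => GamE (m' x) (m x) := by
  have hn := fun x => b2_one_sub_ne (p' x) (p x)
  have hd : Continuous fun x => 1 - m' x * m x := by fun_prop
  refine continuous_pi fun i => continuous_pi fun j => ?_
  fin_cases i <;> fin_cases j
  · exact h'.div hd hn
  · exact (h'.mul h).neg.div hd hn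
  · exact (h'.mul h).neg.div hd hn
  · exact h.div hd hn

/-- the facts on the tree used at a fixed `z` -/
theorem b2_tree (hT0 : StT0) (hs0 : 0 ≤ s) (hs1 : s ≤ 1) (hz : 0 < z.im) :
    COK (fun e : SEnv q => imM (GS s z e)) ∧ COK (fun e : EEnv q => imM (GE s z e)) ∧
    (∀ j, COK (fun e : SEnv q => imM (GE s z (nearV e j, e.2 j)))) ∧
    (∀ (e : SEnv q) j, imM (GE s z (nearV e j, e.2 j)) = (imM (GS s z e)).submatrix (rhoE j) (rhoE j)) ∧
    (∀ e : SEnv q, Qf (imM (GS s z e)) = QSz s z e) ∧
    (∀ (e : SEnv q) j, (fun x => Qf (imM (GE s z (nearV e j, e.2 j))) (x ∘ rhoE j)) = QEz s z e j) ∧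
    Measurable (mT (q := q) s z) ∧ ∃ c M : ℝ, 0 < c ∧ ∀ β : Env q, c ≤ (mT s z β).im ∧ ‖mT s z β‖ ≤ M := by
  obtain ⟨-, hc, hp⟩ := (hT0 q s hs0 hs1).1 z hz
  have hpos : ∀ β : Env q, 0 < (mT s z β).im := fun β => (hp β).1
  have hm : ∀ j, Continuous fun e : SEnv q => mT s z (e.2 j) := fun j =>
    hc.comp ((continuous_apply j).comp continuous_snd)
  have hg : Continuous fun e : SEnv q => Psi s z e.1 fun j => mT s z (e.2 j) := by
    unfold Psi
    refine Continuous.neg (Continuous.inv₀ (Continuous.add (by fun_prop)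
      (continuous_finsetSum _ fun j _ => hm j)) fun e h => ?_)
    have h2 := congrArg Complex.im h
    have h3 : 0 ≤ ∑ j, (mT s z (e.2 j)).im := Finset.sum_nonneg fun j _ => (hpos _).le
    simp only [Complex.add_im, Complex.sub_im, Complex.ofReal_im, Complex.mul_im, Complex.ofReal_re,
      mul_zero, zero_mul, add_zero, sub_zero, Complex.im_sum, Complex.zero_im] at h2
    linarith
  have hGS : Continuous fun e : SEnv q => GS s z e := by
    refine continuous_pi fun i => continuous_pi fun j => ?_
    cases i with
    | none =>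
      cases j with
      | none => exact hg
      | some j => exact ((hm j).mul hg).neg
    | some i =>
      cases j with
      | none => exact ((hm i).mul hg).neg
      | some j =>
        refine Continuous.add ?_ (((hm i).mul (hm j)).mul hg)
        by_cases h : i = j
        · simpa only [if_pos h] using hm i
        · simpa only [if_neg h] using continuous_const
  have hGE : Continuous fun e : EEnv q => GE s z e :=
    b2_cont_GamE (hc.comp continuous_fst) (hc.comp continuous_snd) (fun _ => hpos _) fun _ => hpos _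
  refine ⟨b2_cok_of_cont (b2_cont_imM hGS) fun e => (b2_gamS s hz e.1 fun j => hpos _).1,
    b2_cok_of_cont (b2_cont_imM hGE) fun e => (b2_gamE (hpos _) (hpos _)).1,
    fun j => b2_cok_of_cont (b2_cont_imM (hGE.comp ((b2_cont_nearV j).prodMk
      ((continuous_apply j).comp continuous_snd)))) fun e => (b2_gamE (hpos _) (hpos _)).1,
    fun e j => ?_, fun e => funext fun x => (b2_gamS s hz e.1 fun j => hpos _).2.2 x,
    fun e j => funext fun x => (b2_gamE (hpos _) (hpos _)).2 _, hc.measurable, ?_⟩
  · unfold GS GE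
    rw [b2_gamS_sub s hz e.1 (fun j => hpos _) j, (hp (nearV e j)).2.2]
    rfl
  · obtain ⟨c, C, hc0, h⟩ := (hT0 q s hs0 hs1).2 z.im ‖z‖ hz
    exact ⟨c, z.im⁻¹, hc0, fun β => ⟨(h z z le_rfl le_rfl le_rfl le_rfl β).1, (hp β).2.1⟩⟩

theorem b2_meas_qf {T : Type} [MeasurableSpace T] {m : T → ℂ} (hm : Measurable m) {x y : T → ℝ}
    (hx : Measurable x) (hy : Measurable y) : Measurable fun τ => qf (m τ) (x τ) (y τ) := by
  unfold qf
  exact (((Complex.measurable_ofReal.comp hy).add
    (hm.mul (Complex.measurable_ofReal.comp hx))).norm.pow_const 2).div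
    (Complex.measurable_im.comp hm)

theorem b2_meas_nearV (j : Fin (q + 1)) : Measurable fun e : SEnv q => nearV e j := by
  exact (b2_cont_nearV j).measurable

theorem b2_edgeOf_eq (j : Fin (q + 1)) : edgeOf (q := q) (r := r) j =
    fun p => ((nearV p.1 j, p.1.2 j), fun a => p.2 a ∘ rhoE j) := by
  funext p
  refine Prod.ext rfl ?_
  funext a o
  fin_cases o <;> rfl

theorem b2_swapE_eq : swapE (q := q) (r := r) =
    fun p => (p.1.swap, fun a => p.2 a ∘ ![1, 0]) := by
  funext p
  refine Prod.ext rfl ?_
  funext a o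
  fin_cases o <;> rfl

theorem b2_meas_rotS (k : Fin (q + 1)) : Measurable (rotS (q := q) (r := r) k) := by
  unfold rotS; fun_prop

theorem b2_meas_edgeOf (j : Fin (q + 1)) : Measurable (edgeOf (q := q) (r := r) j) := by
  rw [b2_edgeOf_eq]
  exact (((b2_meas_nearV j).comp measurable_fst).prodMk (by fun_prop)).prodMk (by fun_prop)

theorem b2_meas_swapE : Measurable (swapE (q := q) (r := r)) := by
  rw [b2_swapE_eq]; fun_prop

theorem b2_map_edgeOf (P : Measure (SState q r)) (rot : ∀ k, P.map (rotS k) = P) (j : Fin (q + 1)) :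
    P.map (edgeOf j) = P.map (edgeOf 0) := by
  have e : edgeOf (q := q) (r := r) 0 ∘ rotS j = edgeOf j := by
    funext p
    simp only [Function.comp_apply, edgeOf, rotS, nearV, zero_add, add_zero, Option.map]
  rw [← e, ← Measure.map_map (b2_meas_edgeOf 0) (b2_meas_rotS j), rot]

end Crest.Agent.R166
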