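import Crest.Agent.R166.B2.KL
import Crest.Agent.R166.B2.Tree

/-!
# Row 166, block B2: mutual informations
-/

set_option autoImplicit false

open MeasureTheory ProbabilityTheory Filter Topology
open scoped ENNReal NNReal BigOperators Matrix

noncomputable section

namespace Crest.Agent.R166

variable {q r : ℕ} {π : Measure II} [IsProbabilityMeasure π] {s : ℝ} {z : ℂ}

/-- the mutual information of the star dominates -/
theorem b2_mi (hT0 : StT0) (hs0 : 0 ≤ s) (hs1 : s ≤ 1) (hz : 0 < z.im)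
    (κ : Kernel (SEnv q) (Vec r (SI q))) [IsMarkovKernel κ] {K : ℝ} (hK : KBd κ K)
    (κE : Kernel (EEnv q) (Vec r (Fin 2))) [IsMarkovKernel κE] (hKE : KBd κE K)
    (hPE : ∀ j, (starLaw q π ⊗ₘ κ).map (edgeOf j) = edgeLaw q π ⊗ₘ κE)
    (swap : (edgeLaw q π ⊗ₘ κE).map swapE = edgeLaw q π ⊗ₘ κE)
    (hE : EntIneq q r π s z (starLaw q π ⊗ₘ κ)) :
    ((q : ℝ) + 1) / 2 * ∫ t in (0 : ℝ)..1, t * mm κE (edgeLaw q π ⊗ₘ κE) (fun e => imM (GE s z e)) t ≤
      ∫ t in (0 : ℝ)..1, t * mm κ (starLaw q π ⊗ₘ κ) (fun e => imM (GS s z e)) t := by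
  obtain ⟨h1, h2, h3, h4, -⟩ := b2_tree (q := q) hT0 hs0 hs1 hz
  set μ := chan (starLaw q π ⊗ₘ κ) (fun e => imM (GS s z e)) 1 with hμ
  set μE := chan (edgeLaw q π ⊗ₘ κE) (fun e => imM (GE s z e)) 1 with hμE
  have := b2_chan_prob (starLaw q π ⊗ₘ κ) h1 1
  have hle := b2_kl_lower (starLaw q π) κ hK h1 fun φ => hE φ _ fun ψ hψ hb => by
    rw [hPE 0]; exact b2_kl_upper (edgeLaw q π) κE hKE h2 hψ hb
  have isq := b2_chan_sq (starLaw q π) κ hK h1 1
  have hn : nInt (starLaw q π ⊗ₘ κ) (fun e => imM (GS s z e))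
      (fun x => ∑ a, (Real.log (2 * Real.pi) / 2 + x.2 a none ^ 2 / 2)) =
      r * (Real.log (2 * Real.pi) / 2) + (∑ a, ∫ y, y.2 a none ^ 2 ∂μ) / 2 := by
    have hi : ∀ a, Integrable (fun y : SState q r × Vec r (SI q) =>
        Real.log (2 * Real.pi) / 2 + y.2 a none ^ 2 / 2) μ := fun a =>
      (integrable_const _).add ((isq a none).div_const 2)
    rw [b2_nInt_eq _ h1 (by fun_prop) (integrable_finsetSum _ fun a _ => hi a),
      integral_finsetSum _ fun a _ => hi a]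
    rw [Finset.sum_congr rfl fun a _ => integral_add (integrable_const _) ((isq a none).div_const 2)]
    simp only [integral_const, probReal_univ, smul_eq_mul, one_mul, integral_div, Finset.sum_add_distrib,
      Finset.sum_const, Finset.card_univ, Fintype.card_fin, nsmul_eq_mul, Finset.sum_div]
    rfl
  have hed : ∀ (j : Fin (q + 1)) a o, ∫ y, y.2 a o ^ 2 ∂μE = ∫ y, y.2 a (rhoE j o) ^ 2 ∂μ := by
    intro j a o
    have hτ : Measurable fun e : SEnv q => (nearV e j, e.2 j) :=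
      (b2_meas_nearV j).prodMk (by fun_prop)
    have hs := b2_chan_sub (starLaw q π ⊗ₘ κ) h1 h2 hτ (rhoE j) (fun e => h4 e j) one_pos
    rw [← b2_edgeOf_eq, hPE] at hs
    have hT : Measurable fun y : SState q r × Vec r (SI q) =>
        ((((nearV y.1.1 j, y.1.1.2 j), fun a => y.1.2 a ∘ rhoE j), fun a => y.2 a ∘ rhoE j) :
          EState q r × Vec r (Fin 2)) :=
      ((hτ.comp (by fun_prop)).prodMk (by fun_prop)).prodMk (by fun_prop)
    rw [hμE, ← hs, integral_map hT.aemeasurable (Measurable.aestronglyMeasurable (by fun_prop))]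
    rfl
  have hsw : ∀ a, ∫ y, y.2 a 0 ^ 2 ∂μE = ∫ y, y.2 a 1 ^ 2 ∂μE := by
    intro a
    have hs := b2_chan_sub (edgeLaw q π ⊗ₘ κE) h2 h2 measurable_swap ![1, 0]
      (fun e => (b2_gamE_swap _ _).symm) one_pos
    rw [← b2_swapE_eq, swap, ← hμE] at hs
    have hT : Measurable fun y : EState q r × Vec r (Fin 2) =>
        (((y.1.1.swap, fun a => y.1.2 a ∘ ![1, 0]), fun a => y.2 a ∘ ![1, 0]) :
          EState q r × Vec r (Fin 2)) := by fun_prop
    conv_lhs => rw [← hs]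
    rw [integral_map hT.aemeasurable (Measurable.aestronglyMeasurable (by fun_prop))]
    rfl
  have hv : ∀ a, ∫ y, y.2 a 0 ^ 2 ∂μE = ∫ y, y.2 a none ^ 2 ∂μ := fun a => hed 0 a 0
  have hj : ∀ a j, ∫ y, y.2 a (some j) ^ 2 ∂μ = ∫ y, y.2 a none ^ 2 ∂μ := fun a j => by
    rw [← hv, hsw, hed j a 1]; rfl
  rw [b2_lr_eq (starLaw q π) κ hK h1, b2_lr_eq (edgeLaw q π) κE hKE h2, hn, ← hμ, ← hμE] at hle
  simp only [Fintype.sum_option, hj, Fin.sum_univ_two, ← hsw, hv, Finset.sum_const, Finset.card_univ,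
    Fintype.card_fin, nsmul_eq_mul, Fintype.card_option, Finset.sum_add_distrib, ← Finset.mul_sum,
    hBethe] at hle
  rw [Real.log_mul (by positivity) (Real.exp_pos 1).ne', Real.log_exp] at hle
  push_cast at hle
  nlinarith [hle]

end Crest.Agent.R166
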