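import Crest.Agent.R166.B2.Orth
import Crest.Agent.R166.B2.Tree

/-!
# Row 166, block B2: mean square errors
-/

set_option autoImplicit false

open MeasureTheory ProbabilityTheory Filter Topology
open scoped ENNReal NNReal BigOperators Matrix

noncomputable section

namespace Crest.Agent.R166

variable {q r : ℕ} {π : Measure II} [IsProbabilityMeasure π] {s : ℝ} {z : ℂ}

theorem b2_qfam_q0 (hs0 : 0 ≤ s) (hs1 : s ≤ 1) (hz : 0 < z.im) : QFam fun (e : SEnv q) (x : SI q → ℝ) =>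
    NS s z.re e.1 x ^ 2 / z.im + z.im * x none ^ 2 := by
  have hs := Real.sqrt_pos.2 hz
  have h1 := QFam.sq (α := SEnv q) (ι := SI q)
    (l := fun e o => o.elim (s * (e.1 : ℝ) - z.re) (fun _ => 1) / √z.im)
    (fun o => by cases o <;> simp only [Option.elim] <;> fun_prop) (M := (2 + |z.re|) / √z.im)
    (fun e o => by
      rw [abs_div, abs_of_pos hs]
      refine div_le_div_of_nonneg_right ?_ hs.le
      have := abs_nonneg z.re
      cases o with
      | none =>
        have h2 : |(e.1 : ℝ)| ≤ 1 := abs_le.2 e.1.2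
        have h3 : |s * (e.1 : ℝ)| ≤ 1 := by
          rw [abs_mul, abs_of_nonneg hs0]; exact mul_le_one₀ hs1 (abs_nonneg _) h2
        exact (abs_sub _ _).trans (by linarith)
      | some j => simp only [Option.elim, abs_one]; linarith)
  have h2 := QFam.sq (α := SEnv q) (ι := SI q) (l := fun _ o => o.elim (√z.im) fun _ => 0)
    (fun o => measurable_const) (M := √z.im) (fun e o => by
      cases o <;> simp [abs_of_pos hs])
  convert h1.add h2 using 3 with e x
  simp only [Fintype.sum_option, Option.elim, zero_mul, Finset.sum_const_zero, add_zero, NS,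
    div_mul_eq_mul_div, ← Finset.sum_div, one_mul, ← add_div, div_pow, mul_pow, Real.sq_sqrt hz.le]

/-- the error of any estimator built from the edge posterior mean -/
theorem b2_edge_le (hT0 : StT0) (hs0 : 0 ≤ s) (hs1 : s ≤ 1) (hz : 0 < z.im)
    (κ : Kernel (SEnv q) (Vec r (SI q))) [IsMarkovKernel κ] {K : ℝ} (hK : KBd κ K)
    (PE : Measure (EState q r)) (j : Fin (q + 1))
    (hPE : (starLaw q π ⊗ₘ κ).map (edgeOf j) = PE) {t : ℝ} (ht : 0 < t) (a : Fin r)
    {f : EEnv q × Vec r (Fin 2) → Fin 2 → ℝ} (hf : Measurable f) {M : ℝ} (hb : ∀ y o, |f y o| ≤ M) :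
    ∫ y, qf (mT s z (y.1.1.2 j))
        (y.1.2 a none - pmean (κ y.1.1) (QEz s z y.1.1 j) (t ^ 2) y.2 a none)
        (y.1.2 a (some j) - pmean (κ y.1.1) (QEz s z y.1.1 j) (t ^ 2) y.2 a (some j))
        ∂chan (starLaw q π ⊗ₘ κ) (fun e => imM (GS s z e)) t ≤
      ∫ y, qf (mT s z y.1.1.2) (y.1.2 a 0 - f (y.1.1, y.2) 0) (y.1.2 a 1 - f (y.1.1, y.2) 1)
        ∂chan PE (fun e => imM (GE s z e)) t := by
  obtain ⟨h1, h2, h3, h4, -, h6, hm, c, M', hc, hcM⟩ := b2_tree (q := q) hT0 hs0 hs1 hz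
  have hτ : Measurable fun e : SEnv q => (nearV e j, e.2 j) := (b2_meas_nearV j).prodMk (by fun_prop)
  have hQ : QFam fun (e : SEnv q) (x : SI q → ℝ) => qf (mT s z (e.2 j)) (x none) (x (some j)) :=
    QFam.qf (hm.comp (by fun_prop)) hc (fun e => (hcM _).1) (fun e => (hcM _).2) _ _
  have hf' : Measurable fun y : SEnv q × Vec r (Fin 2) => f ((nearV y.1 j, y.1.2 j), y.2) :=
    hf.comp ((hτ.comp measurable_fst).prodMk measurable_snd)
  have hp := b2_pyth (starLaw q π) κ hK h1 (rhoE j) (h3 j) (fun e => h4 e j) ht hQ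
    (f := fun y o => f ((nearV y.1 j, y.1.2 j), y.2) (o.elim 0 fun _ => 1))
    (measurable_pi_lambda _ fun o => (measurable_pi_apply _).comp hf') (fun y o => hb _ _) a
  simp only [h6, Pi.sub_apply, Option.elim] at hp
  have hs := b2_chan_sub (starLaw q π ⊗ₘ κ) h1 h2 hτ (rhoE j) (fun e => h4 e j) ht
  rw [← b2_edgeOf_eq, hPE] at hs
  have hG : Measurable fun y : EState q r × Vec r (Fin 2) =>
      qf (mT s z y.1.1.2) (y.1.2 a 0 - f (y.1.1, y.2) 0) (y.1.2 a 1 - f (y.1.1, y.2) 1) := by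
    have hf2 : Measurable fun y : EState q r × Vec r (Fin 2) => f (y.1.1, y.2) :=
      hf.comp (by fun_prop)
    exact b2_meas_qf (hm.comp (by fun_prop)) (by fun_prop) (by fun_prop)
  have hT : Measurable fun y : SState q r × Vec r (SI q) =>
      ((((nearV y.1.1 j, y.1.1.2 j), fun a => y.1.2 a ∘ rhoE j), fun a => y.2 a ∘ rhoE j) :
        EState q r × Vec r (Fin 2)) :=
    ((hτ.comp (by fun_prop)).prodMk (by fun_prop)).prodMk (by fun_prop)
  rw [← hs, integral_map hT.aemeasurable hG.aestronglyMeasurable]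
  refine le_of_le_of_eq (le_add_of_nonneg_right (integral_nonneg fun y =>
    b2_qf_nonneg (hc.trans_le (hcM _).1) _ _)) (hp.symm.trans ?_)
  rfl

/-- comparison of the mean square errors -/
theorem b2_mmse (hT0 : StT0) (hs0 : 0 ≤ s) (hs1 : s ≤ 1) (hz : 0 < z.im)
    (κ : Kernel (SEnv q) (Vec r (SI q))) [IsMarkovKernel κ] {K : ℝ} (hK : KBd κ K)
    (κE : Kernel (EEnv q) (Vec r (Fin 2))) [IsMarkovKernel κE] (hKE : KBd κE K)
    (hPE : ∀ j, (starLaw q π ⊗ₘ κ).map (edgeOf j) = edgeLaw q π ⊗ₘ κE)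
    (swap : (edgeLaw q π ⊗ₘ κE).map swapE = edgeLaw q π ⊗ₘ κE) {t : ℝ} (ht : 0 < t) :
    Integrable (fun y => Dz s z (κ y.1.1) t y.1.1 y.2)
      (chan (starLaw q π ⊗ₘ κ) (fun e => imM (GS s z e)) t) ∧
    ∫ y, Dz s z (κ y.1.1) t y.1.1 y.2 ∂chan (starLaw q π ⊗ₘ κ) (fun e => imM (GS s z e)) t ≤
      ((q : ℝ) + 1) / 2 * mm κE (edgeLaw q π ⊗ₘ κE) (fun e => imM (GE s z e)) t -
        mm κ (starLaw q π ⊗ₘ κ) (fun e => imM (GS s z e)) t +
        ∫ p, ∑ a, (NS s z.re p.1.1 (p.2 a) ^ 2 / z.im + z.im * p.2 a none ^ 2)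
          ∂(starLaw q π ⊗ₘ κ) := by
  obtain ⟨h1, h2, h3, h4, h5, h6, hm, c, M', hc, hcM⟩ := b2_tree (q := q) hT0 hs0 hs1 hz
  have hpos : ∀ β : Env q, 0 < (mT s z β).im := fun β => hc.trans_le (hcM β).1
  set μ := chan (starLaw q π ⊗ₘ κ) (fun e => imM (GS s z e)) t with hμ
  set μE := chan (edgeLaw q π ⊗ₘ κE) (fun e => imM (GE s z e)) t with hμE
  have := b2_chan_prob (starLaw q π ⊗ₘ κ) h1 t
  have := b2_chan_prob (edgeLaw q π ⊗ₘ κE) h2 t
  have h5' : ∀ e : SEnv q, (fun x => Qf (imM (GS s z e)) (x ∘ id)) = QSz s z e := fun e => by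
    rw [← h5]; rfl
  have hQS : QFam (QSz (q := q) s z) := by
    rw [← funext h5']; exact QFam.Qf h1 id
  have hQE : ∀ j, QFam fun e => QEz (q := q) s z e j := fun j => by
    rw [← funext fun e => h6 e j]; exact QFam.Qf (h3 j) (rhoE j)
  have hQj : ∀ j, QFam fun (e : SEnv q) (x : SI q → ℝ) => qf (mT s z (e.2 j)) (x none) (x (some j)) :=
    fun j => QFam.qf (hm.comp (by fun_prop)) hc (fun e => (hcM _).1) (fun e => (hcM _).2) _ _
  have hQ0 := b2_qfam_q0 (q := q) hs0 hs1 hz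
  have hQA : QFam fun (e : EEnv q) (x : Fin 2 → ℝ) => qf (mT s z e.2) (x 0) (x 1) :=
    QFam.qf (hm.comp measurable_snd) hc (fun e => (hcM _).1) (fun e => (hcM _).2) _ _
  have hQB : QFam fun (e : EEnv q) (x : Fin 2 → ℝ) => qf (mT s z e.1) (x 1) (x 0) :=
    QFam.qf (hm.comp measurable_fst) hc (fun e => (hcM _).1) (fun e => (hcM _).2) _ _
  have hQF : QFam fun (e : EEnv q) => Qf (imM (GE s z e)) := QFam.Qf h2 id
  -- posterior means
  set pS : SEnv q × Vec r (SI q) → Vec r (SI q) := fun y =>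
    pmean (κ y.1) (QSz s z y.1) (t ^ 2) y.2 with hpS
  set pJ : Fin (q + 1) → SEnv q × Vec r (SI q) → Vec r (SI q) := fun j y =>
    pmean (κ y.1) (QEz s z y.1 j) (t ^ 2) y.2 with hpJ
  set pE : EEnv q × Vec r (Fin 2) → Vec r (Fin 2) := fun y =>
    pmean (κE y.1) (Qf (imM (GE s z y.1))) (t ^ 2) y.2 with hpE
  have mS : Measurable pS := measurable_pi_lambda _ fun a => measurable_pi_lambda _ fun o =>
    b2_meas_pmean κ hQS.meas measurable_fst measurable_const measurable_snd a o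
  have mJ : ∀ j, Measurable (pJ j) := fun j => measurable_pi_lambda _ fun a =>
    measurable_pi_lambda _ fun o =>
      b2_meas_pmean κ (hQE j).meas measurable_fst measurable_const measurable_snd a o
  have mE : Measurable pE := measurable_pi_lambda _ fun a => measurable_pi_lambda _ fun o =>
    b2_meas_pmean κE hQF.meas measurable_fst measurable_const measurable_snd a o
  have bS : ∀ y a o, |pS y a o| ≤ K := fun y a o => b2_pmean_bd _ (hK _)
    (hQS.meas.of_uncurry_left) (fun x => by rw [← h5]; exact b2_Qf_nonneg (h1.pd _) _)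
    (sq_nonneg t) _ a o
  have bJ : ∀ j y a o, |pJ j y a o| ≤ K := fun j y a o => b2_pmean_bd _ (hK _)
    ((hQE j).meas.of_uncurry_left)
    (fun x => add_nonneg (b2_qf_nonneg (hpos _) _ _) (b2_qf_nonneg (hpos _) _ _)) (sq_nonneg t) _ a o
  have bE : ∀ y a o, |pE y a o| ≤ K := fun y a o => b2_pmean_bd _ (hKE _)
    (hQF.meas.of_uncurry_left) (fun x => b2_Qf_nonneg (h2.pd _) _) (sq_nonneg t) _ a o
  have hsw : ∀ {x y : ℝ}, |x| ≤ K → |y| ≤ K → |x - y| ≤ K + K := fun hx hy =>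
    (abs_sub _ _).trans (add_le_add hx hy)
  have m12 : Measurable fun y : SState q r × Vec r (SI q) => (y.1.1, y.2) := by fun_prop
  have m12E : Measurable fun y : EState q r × Vec r (Fin 2) => (y.1.1, y.2) := by fun_prop
  have iUS : ∀ {Q : SEnv q → (SI q → ℝ) → ℝ}, QFam Q → ∀ a,
      Integrable (fun y => Q y.1.1 (y.1.2 a - pS (y.1.1, y.2) a)) μ := fun hQ a =>
    b2_int_Q μ hQ (by fun_prop) (Measurable.sub (by fun_prop)
      ((measurable_pi_apply a).comp (mS.comp m12))) (M := K + K) (by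
        filter_upwards [b2_chan_ae_bd (starLaw q π) κ hK h1 t] with y hy o
        exact hsw (hy a o) (bS _ a o))
  have iSJ : ∀ j a, Integrable (fun y : SState q r × Vec r (SI q) => qf (mT s z (y.1.1.2 j))
      ((pS (y.1.1, y.2) a - pJ j (y.1.1, y.2) a) none)
      ((pS (y.1.1, y.2) a - pJ j (y.1.1, y.2) a) (some j))) μ := fun j a =>
    b2_int_Q μ (hQj j) (by fun_prop) (Measurable.sub ((measurable_pi_apply a).comp (mS.comp m12))
      ((measurable_pi_apply a).comp ((mJ j).comp m12))) (M := K + K)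
      (Eventually.of_forall fun y o => hsw (bS _ a o) (bJ j _ a o))
  have iUE : ∀ {Q : EEnv q → (Fin 2 → ℝ) → ℝ}, QFam Q → ∀ a,
      Integrable (fun y => Q y.1.1 (y.1.2 a - pE (y.1.1, y.2) a)) μE := fun hQ a =>
    b2_int_Q μE hQ (by fun_prop) (Measurable.sub (by fun_prop)
      ((measurable_pi_apply a).comp (mE.comp m12E))) (M := K + K) (by
        filter_upwards [b2_chan_ae_bd (edgeLaw q π) κE hKE h2 t] with y hy o
        exact hsw (hy a o) (bE _ a o))
  have iU : ∀ a, Integrable (fun y : SState q r × Vec r (SI q) =>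
      NS s z.re y.1.1.1 (y.1.2 a) ^ 2 / z.im + z.im * y.1.2 a none ^ 2) μ := fun a =>
    b2_int_Q μ hQ0 (e := fun y => y.1.1) (by fun_prop) (v := fun y => y.1.2 a) (by fun_prop) (M := K)
      (by filter_upwards [b2_chan_ae_bd (starLaw q π) κ hK h1 t] with y hy o using hy a o)
  refine ⟨integrable_finsetSum _ fun a _ => integrable_finsetSum _ fun j _ => iSJ j a, ?_⟩
  -- the pieces
  set A : Fin r → ℝ := fun a => ∫ y, qf (mT s z y.1.1.2) ((y.1.2 a - pE (y.1.1, y.2) a) 0)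
    ((y.1.2 a - pE (y.1.1, y.2) a) 1) ∂μE with hA
  set A' : Fin r → ℝ := fun a => ∫ y, qf (mT s z y.1.1.1) ((y.1.2 a - pE (y.1.1, y.2) a) 1)
    ((y.1.2 a - pE (y.1.1, y.2) a) 0) ∂μE with hA'
  set S0 : Fin r → ℝ := fun a => ∫ y, (NS s z.re y.1.1.1 (y.1.2 a - pS (y.1.1, y.2) a) ^ 2 / z.im +
    z.im * (y.1.2 a - pS (y.1.1, y.2) a) none ^ 2) ∂μ with hS0
  set Sj : Fin r → Fin (q + 1) → ℝ := fun a j => ∫ y, qf (mT s z (y.1.1.2 j))
    ((y.1.2 a - pS (y.1.1, y.2) a) none) ((y.1.2 a - pS (y.1.1, y.2) a) (some j)) ∂μ with hSj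
  set Ej : Fin r → Fin (q + 1) → ℝ := fun a j => ∫ y, qf (mT s z (y.1.1.2 j))
    ((y.1.2 a - pJ j (y.1.1, y.2) a) none) ((y.1.2 a - pJ j (y.1.1, y.2) a) (some j)) ∂μ with hEj
  set Dj : Fin r → Fin (q + 1) → ℝ := fun a j => ∫ y, qf (mT s z (y.1.1.2 j))
    ((pS (y.1.1, y.2) a - pJ j (y.1.1, y.2) a) none)
    ((pS (y.1.1, y.2) a - pJ j (y.1.1, y.2) a) (some j)) ∂μ with hDj
  set R : Fin r → ℝ := fun a => ∫ y,
    (NS s z.re y.1.1.1 (y.1.2 a) ^ 2 / z.im + z.im * y.1.2 a none ^ 2) ∂μ with hR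
  have e1 : ∫ y, Dz s z (κ y.1.1) t y.1.1 y.2 ∂μ = ∑ a, ∑ j, Dj a j := by
    refine (integral_finsetSum _ fun a _ => integrable_finsetSum _ fun j _ => iSJ j a).trans ?_
    exact Finset.sum_congr rfl fun a _ => integral_finsetSum _ fun j _ => iSJ j a
  have e2 : mm κE (edgeLaw q π ⊗ₘ κE) (fun e => imM (GE s z e)) t = ∑ a, (A a + A' a) := by
    refine (integral_finsetSum _ fun a _ => iUE hQF a).trans (Finset.sum_congr rfl fun a _ => ?_)
    refine Eq.trans ?_ (integral_add (iUE hQA a) (iUE hQB a))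
    exact integral_congr_ae (Eventually.of_forall fun y => (b2_gamE (hpos _) (hpos _)).2 _)
  have e3 : mm κ (starLaw q π ⊗ₘ κ) (fun e => imM (GS s z e)) t = ∑ a, (S0 a + ∑ j, Sj a j) := by
    unfold mm
    simp only [h5]
    refine (integral_finsetSum _ fun a _ => iUS hQS a).trans (Finset.sum_congr rfl fun a _ => ?_)
    rw [hSj, ← integral_finsetSum _ fun j _ => iUS (hQj j) a]
    exact integral_add (iUS hQ0 a) (integrable_finsetSum _ fun j _ => iUS (hQj j) a)
  have e4 : ∫ p, ∑ a, (NS s z.re p.1.1 (p.2 a) ^ 2 / z.im + z.im * p.2 a none ^ 2)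
      ∂(starLaw q π ⊗ₘ κ) = ∑ a, R a := by
    rw [← b2_chan_fst (starLaw q π ⊗ₘ κ) h1 t, integral_map measurable_fst.aemeasurable
      (Measurable.aestronglyMeasurable (by unfold NS; fun_prop))]
    exact integral_finsetSum _ fun a _ => iU a
  have i1 : ∀ a, S0 a ≤ R a := fun a => by
    have hp := b2_pyth (starLaw q π) κ hK h1 id h1 (fun e => rfl) ht hQ0 (f := fun _ _ => 0)
      measurable_const (M := 0) (fun _ _ => by simp) a
    simp only [h5'] at hp
    refine le_of_le_of_eq (le_add_of_nonneg_right (integral_nonneg fun y => add_nonneg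
      (div_nonneg (sq_nonneg _) hz.le) (mul_nonneg hz.le (sq_nonneg _)))) (hp.symm.trans ?_)
    refine integral_congr_ae (Eventually.of_forall fun y => ?_)
    have : (y.1.2 a - fun _ => 0) = y.1.2 a := sub_zero _
    simp only [this]
  have i2 : ∀ a j, Ej a j = Sj a j + Dj a j := fun a j => by
    have hp := b2_pyth (starLaw q π) κ hK h1 id h1 (fun e => rfl) ht (hQj j) (f := fun y => pJ j y a)
      ((measurable_pi_apply a).comp (mJ j)) (fun y o => bJ j y a o) a
    simp only [h5'] at hp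
    exact hp
  have i3 : ∀ a j, Ej a j ≤ A a := fun a j =>
    b2_edge_le hT0 hs0 hs1 hz κ hK _ j (hPE j) ht a (f := fun y => pE y a)
      ((measurable_pi_apply a).comp mE) (fun y o => bE y a o)
  have i4 : ∀ a j, Ej a j ≤ A' a := fun a j => by
    have msw : Measurable fun y : EEnv q × Vec r (Fin 2) =>
        ((y.1.swap, fun b => y.2 b ∘ ![1, 0]) : EEnv q × Vec r (Fin 2)) := by fun_prop
    have h := b2_edge_le hT0 hs0 hs1 hz κ hK _ j (hPE j) ht a
      (f := fun y => pE (y.1.swap, fun b => y.2 b ∘ ![1, 0]) a ∘ ![1, 0])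
      (measurable_pi_lambda _ fun o => (measurable_pi_apply _).comp
        ((measurable_pi_apply a).comp (mE.comp msw))) (fun y o => bE _ a _)
    refine h.trans_eq ?_
    have hs := b2_chan_sub (edgeLaw q π ⊗ₘ κE) h2 h2 measurable_swap ![1, 0]
      (fun e => (b2_gamE_swap _ _).symm) ht
    rw [← b2_swapE_eq, swap, ← hμE] at hs
    have hT : Measurable fun y : EState q r × Vec r (Fin 2) =>
        (((y.1.1.swap, fun a => y.1.2 a ∘ ![1, 0]), fun a => y.2 a ∘ ![1, 0]) :
          EState q r × Vec r (Fin 2)) := by fun_prop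
    have hG := (iUE hQB a).aestronglyMeasurable
    rw [← hs] at hG
    rw [hA']
    beta_reduce
    conv_rhs => rw [← hs]
    rw [integral_map hT.aemeasurable hG]
    rfl
  rw [e1, e2, e3, e4, Finset.mul_sum, ← Finset.sum_sub_distrib, ← Finset.sum_add_distrib]
  refine Finset.sum_le_sum fun a _ => ?_
  have h7 : ∑ j, Dj a j + ∑ j, Sj a j ≤ ∑ _j : Fin (q + 1), (A a + A' a) / 2 := by
    rw [← Finset.sum_add_distrib]
    refine Finset.sum_le_sum fun j _ => ?_
    have := i2 a j; have := i3 a j; have := i4 a j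
    linarith
  rw [Finset.sum_const, Finset.card_univ, Fintype.card_fin, nsmul_eq_mul] at h7
  push_cast at h7
  have := i1 a
  linarith

end Crest.Agent.R166
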