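import Crest.Agent.R166.B2.Lim

/-!
# Row 166, block B2: pointwise limit of the integrand
-/

set_option autoImplicit false

open MeasureTheory ProbabilityTheory Filter Topology
open scoped ENNReal NNReal BigOperators Matrix

noncomputable section

namespace Crest.Agent.R166

variable {q r : ℕ} {s E : ℝ}

theorem b2_zk_im (E : ℝ) (k : ℕ) : (zk E k).im = (2 : ℝ)⁻¹ ^ k := by
  simp [zk, -Complex.ofReal_pow, -Complex.ofReal_inv]

theorem b2_zk_im_pos (E : ℝ) (k : ℕ) : 0 < (zk E k).im := by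
  rw [b2_zk_im]; positivity

theorem b2_zk_re (E : ℝ) (k : ℕ) : (zk E k).re = E := by
  simp [zk, -Complex.ofReal_pow, -Complex.ofReal_inv]

theorem b2_phiM_cont (s E : ℝ) : Continuous fun p : II × ℝ => PhiM (q := q) s E p.1 p.2 := by
  refine continuous_pi fun o => continuous_pi fun o' => ?_
  simp only [PhiM, Matrix.updateRow_apply]
  split_ifs <;> fun_prop

theorem b2_zk_im_tend (E : ℝ) : Tendsto (fun k => (zk E k).im) atTop (𝓝 0) := by
  simp only [b2_zk_im]
  exact tendsto_pow_atTop_nhds_zero_of_lt_one (by norm_num) (by norm_num)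

theorem b2_zk_tend (E : ℝ) : Tendsto (zk E) atTop (𝓝 (E : ℂ)) := by
  have h := (Complex.continuous_ofReal.tendsto 0).comp
    (tendsto_pow_atTop_nhds_zero_of_lt_one (r := (2 : ℝ)⁻¹) (by norm_num) (by norm_num))
  have := (h.mul_const Complex.I).const_add (E : ℂ)
  rw [Complex.ofReal_zero, zero_mul, add_zero] at this
  exact this

theorem b2_qf_tend {m : ℕ → ℂ} {x y : ℕ → ℝ} {m₀ : ℂ} {x₀ y₀ : ℝ} (h0 : 0 < m₀.im)
    (hm : Tendsto m atTop (𝓝 m₀)) (hx : Tendsto x atTop (𝓝 x₀)) (hy : Tendsto y atTop (𝓝 y₀)) :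
    Tendsto (fun k => qf (m k) (x k) (y k)) atTop (𝓝 (qf m₀ x₀ y₀)) := by
  unfold qf
  exact ((((Complex.continuous_ofReal.tendsto _).comp hy).add
    (hm.mul ((Complex.continuous_ofReal.tendsto _).comp hx))).norm.pow 2).div
    ((Complex.continuous_im.tendsto _).comp hm) h0.ne'

theorem b2_NS_sub (a : II) (x u : SI q → ℝ) : NS s E a (x - u) = NS s E a x - NS s E a u := by
  simp only [NS, Pi.sub_apply, Finset.sum_sub_distrib]; ring

theorem b2_nc_tend {e : SEnv q} (hpos : ∀ k β, 0 < (mT (q := q) s (zk E k) β).im)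
    (h1 : ∀ j, 0 < (mB s E (e.2 j)).im ∧
      Tendsto (fun k => mT s (zk E k) (e.2 j)) atTop (𝓝 (mB s E (e.2 j)))) {t : ℝ} (ht : 0 < t) :
    ∃ J : ℝ, 0 < J ∧ Tendsto (fun k => nc r (imM (GS s (zk E k) e)) t * |√(zk E k).im| ^ r) atTop
      (𝓝 J) := by
  set n := Fintype.card (SI q)
  have hw : (E : ℂ) - s * (e.1 : ℝ) + ∑ j, mB s E (e.2 j) ≠ 0 := by
    intro h
    have h2 := congrArg Complex.im h
    have h3 : 0 < ∑ j, (mB s E (e.2 j)).im :=
      Finset.sum_pos (fun j _ => (h1 j).1) Finset.univ_nonempty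
    simp only [Complex.add_im, Complex.sub_im, Complex.ofReal_im, Complex.mul_im, Complex.ofReal_re,
      mul_zero, zero_mul, add_zero, sub_zero, zero_add, Complex.im_sum, Complex.zero_im] at h2
    exact h3.ne' h2
  have hg : Tendsto (fun k => Psi s (zk E k) e.1 fun j => mT s (zk E k) (e.2 j)) atTop
      (𝓝 (Psi s E e.1 fun j => mB s E (e.2 j))) := by
    unfold Psi
    exact ((((b2_zk_tend E).sub_const _).add
      (tendsto_finsetSum _ fun j _ => (h1 j).2)).inv₀ hw).neg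
  have hg0 : 0 < ‖Psi s E e.1 fun j => mB s E (e.2 j)‖ := by
    unfold Psi
    exact norm_pos_iff.2 (neg_ne_zero.2 (inv_ne_zero hw))
  have hp : Tendsto (fun k => ∏ j, (mT s (zk E k) (e.2 j)).im) atTop (𝓝 (∏ j, (mB s E (e.2 j)).im)) :=
    tendsto_finsetProd _ fun j _ => (Complex.continuous_im.tendsto _).comp (h1 j).2
  have hp0 : 0 < ∏ j, (mB s E (e.2 j)).im := Finset.prod_pos fun j _ => (h1 j).1
  have hpi := Real.pi_pos
  refine ⟨(t ^ n / √((2 * Real.pi) ^ n * (‖Psi s E e.1 fun j => mB s E (e.2 j)‖ ^ 2 *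
    ∏ j, (mB s E (e.2 j)).im))) ^ r, by positivity, ?_⟩
  refine Tendsto.congr (fun k => ?_) ((Tendsto.div tendsto_const_nhds
    ((((hg.norm.pow 2).mul hp).const_mul ((2 * Real.pi) ^ n)).sqrt) (by positivity)).pow r)
  have hz := b2_zk_im_pos E k
  have hd := (b2_gamS s hz e.1 (m := fun j => mT s (zk E k) (e.2 j)) fun j => hpos k _).2.1
  unfold nc GS
  rw [hd, ← mul_pow, abs_of_nonneg (Real.sqrt_nonneg _)]
  congr 1
  have hs := Real.sqrt_pos.2 hz
  have e1 : (2 * Real.pi) ^ n * (‖Psi s (zk E k) e.1 fun j => mT s (zk E k) (e.2 j)‖ ^ 2 *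
      (zk E k).im * ∏ j, (mT s (zk E k) (e.2 j)).im) = (zk E k).im * ((2 * Real.pi) ^ n *
      (‖Psi s (zk E k) e.1 fun j => mT s (zk E k) (e.2 j)‖ ^ 2 * ∏ j, (mT s (zk E k) (e.2 j)).im)) := by
    ring
  simp only [Pi.div_apply]
  rw [e1, Real.sqrt_mul hz.le]
  field_simp
  rfl

/-- the pointwise limit of the integrand -/
theorem b2_pointwise (κ : Measure (Vec r (SI q))) [IsProbabilityMeasure κ] {e : SEnv q}
    (hi : ∀ a o, Integrable (fun u : Vec r (SI q) => u a o) κ)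
    (heig : ∀ᵐ u ∂κ, ∀ a, EigS s E e (u a))
    (hpos : ∀ k β, 0 < (mT (q := q) s (zk E k) β).im)
    (h1 : ∀ j, 0 < (mB s E (e.2 j)).im ∧
      Tendsto (fun k => mT s (zk E k) (e.2 j)) atTop (𝓝 (mB s E (e.2 j))))
    (h2 : ∀ j, 0 < (mB s E (nearV e j)).im ∧
      Tendsto (fun k => mT s (zk E k) (nearV e j)) atTop (𝓝 (mB s E (nearV e j))))
    {K : ℕ → ℕ} (hK : Tendsto K atTop atTop) {t : ℝ} (ht : 0 < t) (y : Vec r (SI q)) :
    ∃ J : ℝ, 0 < J ∧ Tendsto (fun k =>
      Dz s (zk E k) (κ.map (clipV (K k))) t e (fun a => PhiM s E e.1 (√(zk E k).im) *ᵥ y a) *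
        (nc r (imM (GS s (zk E k) e)) t * ∫ u, wt (QSz s (zk E k) e) (t ^ 2)
          (fun a => PhiM s E e.1 (√(zk E k).im) *ᵥ y a) u ∂κ.map (clipV (K k))) *
        |√(zk E k).im| ^ r) atTop
      (𝓝 ((∑ a, ∑ j, qf (mB s E (e.2 j))
        (pmean κ (QS0 s E e) (t ^ 2) (fun a => PhiM s E e.1 0 *ᵥ y a) a none -
          pmean κ (QE0 s E e j) (t ^ 2) (fun a => PhiM s E e.1 0 *ᵥ y a) a none)
        (pmean κ (QS0 s E e) (t ^ 2) (fun a => PhiM s E e.1 0 *ᵥ y a) a (some j) -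
          pmean κ (QE0 s E e j) (t ^ 2) (fun a => PhiM s E e.1 0 *ᵥ y a) a (some j))) * J)) := by
  set xk : ℕ → Vec r (SI q) := fun k a => PhiM s E e.1 (√(zk E k).im) *ᵥ y a with hxk
  set x : Vec r (SI q) := fun a => PhiM s E e.1 0 *ᵥ y a with hx
  have hc : Continuous fun c : ℝ => (fun a => PhiM s E e.1 c *ᵥ y a : Vec r (SI q)) :=
    continuous_pi fun a => ((b2_phiM_cont s E).comp
      (continuous_const.prodMk continuous_id)).matrix_mulVec continuous_const
  have hsq : Tendsto (fun k => √(zk E k).im) atTop (𝓝 0) := by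
    simpa using (b2_zk_im_tend E).sqrt
  have hxx : Tendsto xk atTop (𝓝 x) := (hc.tendsto 0).comp hsq
  have hxo : ∀ (u : Vec r (SI q)) b o, Tendsto (fun k => (xk k b - u b) o) atTop (𝓝 ((x b - u b) o)) :=
    fun u b o => (((continuous_apply_apply b o).tendsto x).comp hxx).sub_const (u b o)
  have hK0 : ∀ k, (0 : ℝ) ≤ K k := fun k => Nat.cast_nonneg _
  have hK' : Tendsto (fun k => (K k : ℝ)) atTop atTop := tendsto_natCast_atTop_atTop.comp hK
  have hS := b2_lim_pm κ hi (Qk := fun k => QSz s (zk E k) e) (Q := QS0 s E e)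
    (fun k => Continuous.measurable (by unfold QSz NS qf; fun_prop))
    (fun k x => add_nonneg (add_nonneg (div_nonneg (sq_nonneg _) (b2_zk_im_pos E k).le)
      (mul_nonneg (b2_zk_im_pos E k).le (sq_nonneg _)))
      (Finset.sum_nonneg fun j _ => b2_qf_nonneg (hpos k _) _ _))
    (Continuous.measurable (by unfold QS0 qf; fun_prop))
    (fun x => Finset.sum_nonneg fun j _ => b2_qf_nonneg (h1 j).1 _ _) hK0 hK'
    (c := ∑ b, y b (some 0) ^ 2) (sq_nonneg t) (xk := xk) (x := x) (by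
      filter_upwards [heig] with u hu
      rw [← Finset.sum_add_distrib]
      refine tendsto_finsetSum _ fun b _ => ?_
      have hN : ∀ k, NS s (zk E k).re e.1 (xk k b - u b) ^ 2 / (zk E k).im = y b (some 0) ^ 2 := by
        intro k
        have hz := b2_zk_im_pos E k
        have hu' : NS s E e.1 (u b) = 0 := hu b
        rw [b2_zk_re, b2_NS_sub, hu', sub_zero, hxk, b2_phiM_NS, mul_pow, Real.sq_sqrt hz.le]
        field_simp
      simp only [QSz, hN, QS0]
      have h3 := (b2_zk_im_tend E).mul ((hxo u b none).pow 2)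
      rw [zero_mul] at h3
      have h4 := (h3.const_add (y b (some 0) ^ 2)).add (tendsto_finsetSum Finset.univ fun j _ =>
        b2_qf_tend (h1 j).1 (h1 j).2 (hxo u b none) (hxo u b (some j)))
      rwa [add_zero] at h4)
  have hEd := fun j => b2_lim_pm κ hi (Qk := fun k => QEz s (zk E k) e j) (Q := QE0 s E e j)
    (fun k => Continuous.measurable (by unfold QEz qf; fun_prop))
    (fun k x => add_nonneg (b2_qf_nonneg (hpos k _) _ _) (b2_qf_nonneg (hpos k _) _ _))
    (Continuous.measurable (by unfold QE0 qf; fun_prop))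
    (fun x => add_nonneg (b2_qf_nonneg (h1 j).1 _ _) (b2_qf_nonneg (h2 j).1 _ _)) hK0 hK'
    (c := 0) (sq_nonneg t) (xk := xk) (x := x) (Eventually.of_forall fun u => by
      rw [zero_add]
      exact tendsto_finsetSum _ fun b _ =>
        (b2_qf_tend (h1 j).1 (h1 j).2 (hxo u b none) (hxo u b (some j))).add
        (b2_qf_tend (h2 j).1 (h2 j).2 (hxo u b (some j)) (hxo u b none)))
  obtain ⟨J, hJ, hJl⟩ := b2_nc_tend (r := r) hpos h1 ht
  have hZ := (b2_wt_int κ (Q := QS0 s E e) (Continuous.measurable (by unfold QS0 qf; fun_prop))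
    (fun x => Finset.sum_nonneg fun j _ => b2_qf_nonneg (h1 j).1 _ _) (sq_nonneg t) x).2.2.2.1
  refine ⟨J * (Real.exp (-(t ^ 2 * ∑ b, y b (some 0) ^ 2) / 2) * ∫ u, wt (QS0 s E e) (t ^ 2) x u ∂κ),
    by positivity, ?_⟩
  have hD := tendsto_finsetSum Finset.univ fun a _ => tendsto_finsetSum Finset.univ fun j _ =>
    b2_qf_tend (h1 j).1 (h1 j).2 ((hS.2 a none).sub ((hEd j).2 a none))
      ((hS.2 a (some j)).sub ((hEd j).2 a (some j)))
  refine Tendsto.congr (fun k => ?_) (hD.mul (hJl.mul hS.1))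
  simp only [Dz, hxk]
  ring

end Crest.Agent.R166
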