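import Crest.Agent.R166.B2.Step
import Crest.Agent.R166.B2.Point

/-!
# Row 166, block B2: posterior means agree
-/

set_option autoImplicit false

open MeasureTheory ProbabilityTheory Filter Topology
open scoped ENNReal NNReal BigOperators Matrix

noncomputable section

namespace Crest.Agent.R166

variable {q r : ℕ} {π : Measure II} [IsProbabilityMeasure π] {s E : ℝ}

theorem b2_meas_QSz (hT0 : StT0) (hs0 : 0 ≤ s) (hs1 : s ≤ 1) {z : ℂ} (hz : 0 < z.im) :
    Measurable (Function.uncurry (QSz (q := q) s z)) ∧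
      ∀ j, Measurable (Function.uncurry fun e => QEz (q := q) s z e j) := by
  obtain ⟨h1, -, h3, -, h5, h6, -⟩ := b2_tree (q := q) hT0 hs0 hs1 hz
  refine ⟨?_, fun j => ?_⟩
  · have := (QFam.Qf h1 id).meas
    have e : QSz (q := q) s z = fun e x => Qf (imM (GS s z e)) (x ∘ id) := by
      funext e x; rw [← h5]; rfl
    rwa [e]
  · have := (QFam.Qf (h3 j) (rhoE j)).meas
    have e : (fun e => QEz (q := q) s z e j) =
        fun e x => Qf (imM (GE s z (nearV e j, e.2 j))) (x ∘ rhoE j) := by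
      funext e; rw [← h6]
    rwa [e]

theorem b2_meas_Dz (hT0 : StT0) (hs0 : 0 ≤ s) (hs1 : s ≤ 1) {z : ℂ} (hz : 0 < z.im)
    (κ : Kernel (SEnv q) (Vec r (SI q))) [IsMarkovKernel κ] {T : Type} [MeasurableSpace T]
    {e : T → SEnv q} (he : Measurable e) {t : T → ℝ} (ht : Measurable t) {x : T → Vec r (SI q)}
    (hx : Measurable x) : Measurable fun τ => Dz s z (κ (e τ)) (t τ) (e τ) (x τ) := by
  obtain ⟨h1, h2⟩ := b2_meas_QSz (q := q) hT0 hs0 hs1 hz
  obtain ⟨-, -, -, -, -, -, hm, -⟩ := b2_tree (q := q) hT0 hs0 hs1 hz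
  unfold Dz
  refine Finset.measurable_sum _ fun a _ => Finset.measurable_sum _ fun j _ => ?_
  refine b2_meas_qf (hm.comp (by fun_prop)) ?_ ?_
  · exact (b2_meas_pmean κ h1 he (ht.pow_const 2) hx a none).sub
      (b2_meas_pmean κ (h2 j) he (ht.pow_const 2) hx a none)
  · exact (b2_meas_pmean κ h1 he (ht.pow_const 2) hx a (some j)).sub
      (b2_meas_pmean κ (h2 j) he (ht.pow_const 2) hx a (some j))

theorem b2_meas_nc {ι α : Type} [Fintype ι] [DecidableEq ι] [MeasurableSpace α]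
    {C : α → Matrix ι ι ℝ} (hC : COK C) {T : Type} [MeasurableSpace T] {e : T → α}
    (he : Measurable e) {t : T → ℝ} (ht : Measurable t) : Measurable fun τ => nc r (C (e τ)) (t τ) := by
  unfold nc
  exact ((ht.pow_const _).div ((hC.md.comp he).const_mul _).sqrt).pow_const r

theorem b2_meas_phi (c : ℝ) {T : Type} [MeasurableSpace T] {e : T → SEnv q} (he : Measurable e)
    {y : T → Vec r (SI q)} (hy : Measurable y) :
    Measurable fun τ => (fun a => PhiM s E (e τ).1 c *ᵥ y τ a : Vec r (SI q)) := by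
  have h : Continuous fun p : II × Vec r (SI q) => (fun a => PhiM s E p.1 c *ᵥ p.2 a : Vec r (SI q)) :=
    continuous_pi fun a => ((b2_phiM_cont s E).comp
      (continuous_fst.prodMk continuous_const)).matrix_mulVec (by fun_prop)
  have h2 : Measurable fun τ => ((e τ).1, y τ) := he.fst.prodMk hy
  exact (h.measurable.comp h2 :)

/-- the integrand in the variables `(t, e, y)` -/
def b2H (s E : ℝ) (κ : Kernel (SEnv q) (Vec r (SI q))) (k : ℕ) (w : ℝ × SEnv q × Vec r (SI q)) : ℝ :=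
  Dz s (zk E k) (κ w.2.1) w.1 w.2.1 (fun a => PhiM s E w.2.1.1 (√(zk E k).im) *ᵥ w.2.2 a) *
    (nc r (imM (GS s (zk E k) w.2.1)) w.1 * ∫ u, wt (QSz s (zk E k) w.2.1) (w.1 ^ 2)
      (fun a => PhiM s E w.2.1.1 (√(zk E k).im) *ᵥ w.2.2 a) u ∂κ w.2.1) * |√(zk E k).im| ^ r

theorem b2H_meas (hT0 : StT0) (hs0 : 0 ≤ s) (hs1 : s ≤ 1) (κ : Kernel (SEnv q) (Vec r (SI q)))
    [IsMarkovKernel κ] (k : ℕ) : Measurable (b2H s E κ k) := by
  have hz := b2_zk_im_pos E k
  have he : Measurable fun w : ℝ × SEnv q × Vec r (SI q) => w.2.1 := by fun_prop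
  have hx := b2_meas_phi (s := s) (E := E) (√(zk E k).im) he
    (y := fun w : ℝ × SEnv q × Vec r (SI q) => w.2.2) (by fun_prop)
  unfold b2H
  exact ((b2_meas_Dz hT0 hs0 hs1 hz κ he measurable_fst hx).mul
    ((b2_meas_nc (b2_tree hT0 hs0 hs1 hz).1 he measurable_fst).mul
      (b2_meas_Z κ (b2_meas_QSz hT0 hs0 hs1 hz).1 he (measurable_fst.pow_const 2) hx))).mul_const _

theorem b2_Dz_nonneg (hT0 : StT0) (hs0 : 0 ≤ s) (hs1 : s ≤ 1) {z : ℂ} (hz : 0 < z.im)
    (κ : Measure (Vec r (SI q))) (t : ℝ) (e : SEnv q) (x : Vec r (SI q)) : 0 ≤ Dz s z κ t e x :=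
  Finset.sum_nonneg fun _ _ => Finset.sum_nonneg fun _ _ =>
    b2_qf_nonneg (((hT0 q s hs0 hs1).1 z hz).2.2 _).1 _ _

theorem b2H_lint (hT0 : StT0) (hs0 : 0 ≤ s) (hs1 : s ≤ 1) (κ : Kernel (SEnv q) (Vec r (SI q)))
    [IsMarkovKernel κ] (k : ℕ) :
    ∫⁻ w, ENNReal.ofReal w.1 * ENNReal.ofReal (b2H s E κ k w)
        ∂(volume.restrict (Set.Ioo (0 : ℝ) 1)).prod ((starLaw q π).prod volume) =
      ∫⁻ t in Set.Ioo (0 : ℝ) 1, ENNReal.ofReal t *
        ∫⁻ y, ENNReal.ofReal (Dz s (zk E k) (κ y.1.1) t y.1.1 y.2)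
          ∂chan (starLaw q π ⊗ₘ κ) (fun e => imM (GS s (zk E k) e)) t := by
  have hz := b2_zk_im_pos E k
  have hm := (b2H_meas (E := E) hT0 hs0 hs1 κ k).ennreal_ofReal
  obtain ⟨h1, -, -, -, h5, -⟩ := b2_tree (q := q) hT0 hs0 hs1 hz
  have hm0 : Measurable fun w : ℝ × SEnv q × Vec r (SI q) =>
      ENNReal.ofReal w.1 * ENNReal.ofReal (b2H s E κ k w) := measurable_fst.ennreal_ofReal.mul hm
  rw [lintegral_prod _ hm0.aemeasurable]
  refine setLIntegral_congr_fun measurableSet_Ioo fun t ht => ?_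
  have hm' : Measurable fun p : SEnv q × Vec r (SI q) => ENNReal.ofReal (b2H s E κ k (t, p)) :=
    hm.comp (measurable_const.prodMk measurable_id)
  have hD : Measurable fun p : SEnv q × Vec r (SI q) =>
      ENNReal.ofReal (Dz s (zk E k) (κ p.1) t p.1 p.2) :=
    (b2_meas_Dz hT0 hs0 hs1 hz κ measurable_fst measurable_const measurable_snd).ennreal_ofReal
  simp only
  rw [lintegral_const_mul _ hm', lintegral_prod _ hm'.aemeasurable,
    b2_chan_lint (starLaw q π) κ h1 ht.1 hD]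
  congr 1
  refine lintegral_congr fun e => ?_
  have hdet : (PhiM (q := q) s E e.1 (√(zk E k).im)).det ≠ 0 := by
    rw [b2_phiM_det]; exact (Real.sqrt_pos.2 hz).ne'
  have hF : Measurable fun x : Vec r (SI q) => ENNReal.ofReal (Dz s (zk E k) (κ e) t e x) *
      ENNReal.ofReal (nc r (imM (GS s (zk E k) e)) t *
        ∫ u, wt (Qf (imM (GS s (zk E k) e))) (t ^ 2) x u ∂κ e) := by
    refine (hD.comp (measurable_const.prodMk measurable_id)).mul
      (Measurable.ennreal_ofReal (Measurable.const_mul ?_ _))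
    rw [h5]
    exact b2_meas_Z κ (b2_meas_QSz hT0 hs0 hs1 hz).1 (e := fun _ => e) measurable_const
      measurable_const measurable_id
  rw [b2_lint_rows hdet hF, ← lintegral_const_mul' _ _ ENNReal.ofReal_ne_top]
  refine lintegral_congr fun y => ?_
  rw [b2_phiM_det, h5, ← ENNReal.ofReal_mul (b2_Dz_nonneg hT0 hs0 hs1 hz _ _ _ _),
    ← ENNReal.ofReal_mul (by positivity), mul_comm]
  rfl

theorem b2_clip_rot (K : ℝ) (k : Fin (q + 1)) :
    rotS (q := q) (r := r) k ∘ clipS K = clipS K ∘ rotS k := rfl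

theorem b2_clipS_eq (K : ℝ) : clipS (q := q) (r := r) K = Prod.map id (clipV K) := rfl

theorem b2_clip_inv {P : Measure (SState q r)} (hP : IsLimit q r π s E P) (K : ℝ) :
    (∀ k, (P.map (clipS K)).map (rotS k) = P.map (clipS K)) ∧
    ((P.map (clipS K)).map (edgeOf 0)).map swapE = (P.map (clipS K)).map (edgeOf 0) := by
  have hc : Measurable (clipS (q := q) (r := r) K) := measurable_id.prodMap (b2_meas_clipV K)
  have hc' : Measurable (Prod.map id (clipV K) : EState q r → EState q r) :=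
    measurable_id.prodMap (b2_meas_clipV K)
  refine ⟨fun k => ?_, ?_⟩
  · rw [Measure.map_map (b2_meas_rotS k) hc, b2_clip_rot, ← Measure.map_map hc (b2_meas_rotS k),
      hP.rot]
  · have e1 : edgeOf 0 ∘ clipS (q := q) (r := r) K = Prod.map id (clipV K) ∘ edgeOf 0 := by
      funext p
      refine Prod.ext rfl ?_
      funext a o
      fin_cases o <;> rfl
    have e2 : swapE (q := q) (r := r) ∘ Prod.map id (clipV K) = Prod.map id (clipV K) ∘ swapE := by
      funext p
      refine Prod.ext rfl ?_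
      funext a o
      fin_cases o <;> rfl
    rw [Measure.map_map (b2_meas_edgeOf 0) hc, e1, ← Measure.map_map hc' (b2_meas_edgeOf 0),
      Measure.map_map b2_meas_swapE hc', e2, ← Measure.map_map hc' b2_meas_swapE, hP.swap]

theorem b2_good (hEnv : StEnv) (hT : TreeOK q π s E) : ∀ᵐ e ∂starLaw q π,
    (∀ j, 0 < (mB s E (e.2 j)).im ∧
      Tendsto (fun k => mT s (zk E k) (e.2 j)) atTop (𝓝 (mB s E (e.2 j)))) ∧
    ∀ j, 0 < (mB s E (nearV e j)).im ∧
      Tendsto (fun k => mT s (zk E k) (nearV e j)) atTop (𝓝 (mB s E (nearV e j))) := by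
  have h := hT.pos.and hT.tend
  refine (ae_all_iff.2 fun j => ?_).and (ae_all_iff.2 fun j => ?_)
  · exact (measurePreserving_snd.comp ((hEnv q π).2.2.1 j)).quasiMeasurePreserving.ae h
  · exact (measurePreserving_fst.comp ((hEnv q π).2.2.1 j)).quasiMeasurePreserving.ae h

theorem stB2 (hT0 : StT0) (hEnv : StEnv) : StB2 := by
  intro q r π _ s E P _ hs0 hs1 hT hP hE
  obtain ⟨K, hK, hR⟩ := b2_choose_K hs0 hs1 hP
  set κ : Kernel (SEnv q) (Vec r (SI q)) := P.condKernel with hκ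
  have hdis : starLaw q π ⊗ₘ κ = P := by
    rw [← hP.env]; exact P.disintegrate κ
  set κk : ℕ → Kernel (SEnv q) (Vec r (SI q)) := fun k => κ.map (clipV (K k)) with hκk
  have hM : ∀ k, IsMarkovKernel (κk k) := fun k => Kernel.IsMarkovKernel.map κ (b2_meas_clipV _)
  have hap : ∀ k e, κk k e = (κ e).map (clipV (K k)) := fun k e =>
    Kernel.map_apply κ (b2_meas_clipV _) e
  have hPk : ∀ k, P.map (clipS (K k)) = starLaw q π ⊗ₘ κk k := fun k => by
    rw [hκk, Measure.compProd_map (b2_meas_clipV _), hdis, b2_clipS_eq]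
  have hbd : ∀ k, KBd (κk k) (K k) := fun k e => by
    rw [hap]
    refine (ae_map_iff (b2_meas_clipV _).aemeasurable ?_).2 (Eventually.of_forall fun u a o => ?_)
    · simp only [Set.setOf_forall]
      exact MeasurableSet.iInter fun a => MeasurableSet.iInter fun o =>
        measurableSet_le (by fun_prop) measurable_const
    · have : (0 : ℝ) ≤ K k := Nat.cast_nonneg _
      exact abs_le.2 ⟨le_max_left _ _, max_le (by linarith) (min_le_left _ _)⟩
  set μ := (volume.restrict (Set.Ioo (0 : ℝ) 1)).prod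
    ((starLaw q π).prod (volume : Measure (Vec r (SI q)))) with hμ
  have hHm : ∀ k, Measurable fun w : ℝ × SEnv q × Vec r (SI q) =>
      ENNReal.ofReal w.1 * ENNReal.ofReal (b2H s E (κk k) k w) := fun k =>
    measurable_fst.ennreal_ofReal.mul (b2H_meas hT0 hs0 hs1 (κk k) k).ennreal_ofReal
  have hlim : Tendsto (fun k => ∫⁻ w, ENNReal.ofReal w.1 * ENNReal.ofReal (b2H s E (κk k) k w) ∂μ)
      atTop (𝓝 0) := by
    have h0 := ENNReal.tendsto_ofReal hR
    rw [ENNReal.ofReal_zero] at h0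
    refine tendsto_of_tendsto_of_tendsto_of_le_of_le tendsto_const_nhds h0 (fun _ => zero_le)
      fun k => ?_
    have hi := b2_clip_inv hP (K k)
    have hEk := hE k (K k)
    rw [hPk] at hi hEk
    have := b2_step hT0 hEnv hs0 hs1 (b2_zk_im_pos E k) (κk k) (Nat.cast_nonneg _) (hbd k) hi.1 hi.2 hEk
    rw [← b2H_lint hT0 hs0 hs1, b2_zk_re] at this
    simpa only [hPk] using this
  have hF := lintegral_liminf_le (μ := μ) (u := atTop) hHm
  rw [hlim.liminf_eq, nonpos_iff_eq_zero, lintegral_eq_zero_iff (Measurable.liminf hHm)] at hF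
  have h1 := (Measure.ae_ae_of_ae_prod hF).and (ae_restrict_mem measurableSet_Ioo)
  haveI : (ae (volume.restrict (Set.Ioo (0 : ℝ) 1))).NeBot := by
    rw [ae_neBot]; simp
  obtain ⟨t, ht, ht0⟩ := h1.exists
  refine ⟨t ^ 2, pow_pos ht0.1 2, ?_⟩
  have hsq : ∀ᵐ e ∂starLaw q π, ∀ a o, Integrable (fun u : Vec r (SI q) => u a o) (κ e) := by
    refine ae_all_iff.2 fun a => ae_all_iff.2 fun o => ?_
    have h : Integrable (fun x : SState q r => x.2 a o) (starLaw q π ⊗ₘ κ) := by
      rw [hdis]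
      exact ((memLp_two_iff_integrable_sq (by fun_prop)).2 (hP.sq a o)).integrable one_le_two
    exact ((Measure.integrable_compProd_iff h.aestronglyMeasurable).1 h).1
  have heig : ∀ᵐ e ∂starLaw q π, ∀ᵐ u ∂κ e, ∀ a, EigS s E e (u a) := by
    have := hP.eig
    rw [← hdis] at this
    exact Measure.ae_ae_of_ae_compProd this
  filter_upwards [Measure.ae_ae_of_ae_prod ht, hsq, heig, b2_good hEnv hT] with e he hi hg hgood
  have hpos : ∀ k β, 0 < (mT (q := q) s (zk E k) β).im := fun k β =>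
    (((hT0 q s hs0 hs1).1 _ (b2_zk_im_pos E k)).2.2 β).1
  have hQS : Continuous (QS0 s E e) := by unfold QS0 qf; fun_prop
  have hQE : ∀ j, Continuous (QE0 s E e j) := fun j => by unfold QE0 qf; fun_prop
  have hQS0 : ∀ x, 0 ≤ QS0 s E e x := fun x =>
    Finset.sum_nonneg fun j _ => b2_qf_nonneg (hgood.1 j).1 _ _
  have hQE0 : ∀ j x, 0 ≤ QE0 s E e j x := fun j x =>
    add_nonneg (b2_qf_nonneg (hgood.1 j).1 _ _) (b2_qf_nonneg (hgood.2 j).1 _ _)
  set D : Vec r (SI q) → ℝ := fun x => ∑ a, ∑ j, qf (mB s E (e.2 j))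
    (pmean (κ e) (QS0 s E e) (t ^ 2) x a none - pmean (κ e) (QE0 s E e j) (t ^ 2) x a none)
    (pmean (κ e) (QS0 s E e) (t ^ 2) x a (some j) - pmean (κ e) (QE0 s E e j) (t ^ 2) x a (some j))
    with hD
  have hDc : Continuous D := by
    have c1 := b2_pm_cont (κ e) hi hQS hQS0 (sq_nonneg t)
    have c2 := fun j => b2_pm_cont (κ e) hi (hQE j) (hQE0 j) (sq_nonneg t)
    refine continuous_finsetSum _ fun a _ => continuous_finsetSum _ fun j _ => ?_
    have c3 := (c1 a none).sub (c2 j a none)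
    have c4 := (c1 a (some j)).sub (c2 j a (some j))
    unfold qf
    exact ((((Complex.continuous_ofReal.comp c4).add
      (continuous_const.mul (Complex.continuous_ofReal.comp c3))).norm.pow 2).div_const _)
  have hq0 : ∀ x a j, 0 ≤ qf (mB s E (e.2 j))
      (pmean (κ e) (QS0 s E e) (t ^ 2) x a none - pmean (κ e) (QE0 s E e j) (t ^ 2) x a none)
      (pmean (κ e) (QS0 s E e) (t ^ 2) x a (some j) - pmean (κ e) (QE0 s E e j) (t ^ 2) x a (some j)) :=
    fun x a j => b2_qf_nonneg (hgood.1 j).1 _ _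
  have hae : (fun y : Vec r (SI q) => D fun a => PhiM s E e.1 0 *ᵥ y a) =ᵐ[volume] fun _ => 0 := by
    filter_upwards [he] with y hy
    obtain ⟨J, hJ, hl⟩ := b2_pointwise (κ e) hi hg hpos hgood.1 hgood.2 hK ht0.1 y
    have hl' : Tendsto (fun k => ENNReal.ofReal t * ENNReal.ofReal (b2H s E (κk k) k (t, e, y))) atTop
        (𝓝 (ENNReal.ofReal t * ENNReal.ofReal ((D fun a => PhiM s E e.1 0 *ᵥ y a) * J))) := by
      refine ENNReal.Tendsto.const_mul (ENNReal.tendsto_ofReal ?_) (Or.inr ENNReal.ofReal_ne_top)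
      simpa only [b2H, hap] using hl
    simp only [Pi.zero_apply] at hy
    rw [hl'.liminf_eq, mul_eq_zero, ENNReal.ofReal_eq_zero, ENNReal.ofReal_eq_zero] at hy
    have hD0 : 0 ≤ D fun a => PhiM s E e.1 0 *ᵥ y a :=
      Finset.sum_nonneg fun a _ => Finset.sum_nonneg fun j _ => hq0 _ a j
    rcases hy with hy | hy
    · exact absurd ht0.1 (not_lt.2 hy)
    · exact le_antisymm (by nlinarith) hD0
  have hall := (Continuous.ae_eq_iff_eq volume
    (hDc.comp (continuous_pi fun a => continuous_const.matrix_mulVec (continuous_apply a)))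
    continuous_const).1 hae
  intro i x hx a
  have h0 := congrFun hall x
  have hfix : (fun a => PhiM s E e.1 0 *ᵥ x a) = x := funext fun a => b2_phiM_fix s E e.1 (hx a)
  simp only [Function.comp_apply, hfix, hD] at h0
  have h1 := (Finset.sum_eq_zero_iff_of_nonneg fun a _ =>
    Finset.sum_nonneg fun j _ => hq0 x a j).1 h0 a (Finset.mem_univ _)
  have h2 := (Finset.sum_eq_zero_iff_of_nonneg fun j _ => hq0 x a j).1 h1 i (Finset.mem_univ _)
  obtain ⟨h3, h4⟩ := b2_qf_eq_zero (hgood.1 i).1 h2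
  exact ⟨sub_eq_zero.1 h3, sub_eq_zero.1 h4⟩

end Crest.Agent.R166
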