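import Crest.Agent.R166.B2.Chan

/-!
# Row 166, block B2: Bayes formula and Pythagoras
-/

set_option autoImplicit false

open MeasureTheory ProbabilityTheory Filter Topology
open scoped ENNReal NNReal BigOperators Matrix

noncomputable section

namespace Crest.Agent.R166

variable {ι ι' : Type} [Fintype ι] [DecidableEq ι] [Fintype ι'] [DecidableEq ι'] {r : ℕ}
  {α : Type} [MeasurableSpace α] {C : α → Matrix ι ι ℝ}

/-- the posterior mean as a function of the observed coordinates -/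
def pmR (κ : Measure (Vec r ι)) (C' : Matrix ι' ι' ℝ) (ρ : ι' → ι) (t : ℝ) (x : Vec r ι') (a : Fin r)
    (o : ι) : ℝ :=
  (∫ u, u a o * wt (Qf C') (t ^ 2) x (fun b => u b ∘ ρ) ∂κ) /
    ∫ u, wt (Qf C') (t ^ 2) x (fun b => u b ∘ ρ) ∂κ

theorem pmR_eq (κ : Measure (Vec r ι)) (C' : Matrix ι' ι' ℝ) (ρ : ι' → ι) (t : ℝ) (x : Vec r ι)
    (a : Fin r) (o : ι) :
    pmean κ (fun x => Qf C' (x ∘ ρ)) (t ^ 2) x a o = pmR κ C' ρ t (fun b => x b ∘ ρ) a o := rfl

theorem pmR_wt (κ : Measure (Vec r ι)) [IsProbabilityMeasure κ] {C' : Matrix ι' ι' ℝ}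
    (hC' : C'.PosDef) (ρ : ι' → ι) (t : ℝ) (x : Vec r ι') :
    (∀ u : Vec r ι', 0 < wt (Qf C') (t ^ 2) x u ∧ wt (Qf C') (t ^ 2) x u ≤ 1) ∧
    Measurable (fun u : Vec r ι => wt (Qf C') (t ^ 2) x (fun b => u b ∘ ρ)) ∧
    Integrable (fun u : Vec r ι => wt (Qf C') (t ^ 2) x (fun b => u b ∘ ρ)) κ ∧
    0 < ∫ u, wt (Qf C') (t ^ 2) x (fun b => u b ∘ ρ) ∂κ := by
  obtain ⟨h1, h2, -⟩ := b2_wt_int (Measure.dirac (0 : Vec r ι')) (b2_meas_Qf C') (b2_Qf_nonneg hC')
    (sq_nonneg t) x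
  have h3 : Measurable fun u : Vec r ι => wt (Qf C') (t ^ 2) x (fun b => u b ∘ ρ) :=
    h2.comp (f := fun u : Vec r ι => (fun b => u b ∘ ρ : Vec r ι')) (by fun_prop)
  have h4 : Integrable (fun u : Vec r ι => wt (Qf C') (t ^ 2) x (fun b => u b ∘ ρ)) κ :=
    Integrable.of_bound h3.aestronglyMeasurable 1 (Eventually.of_forall fun u => by
      rw [Real.norm_eq_abs, abs_of_pos (h1 _).1]; exact (h1 _).2)
  exact ⟨h1, h3, h4, integral_exp_pos h4⟩

theorem pmR_bd (κ : Measure (Vec r ι)) [IsProbabilityMeasure κ] {K : ℝ}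
    (hK : ∀ᵐ u ∂κ, ∀ a o, |u a o| ≤ K) {C' : Matrix ι' ι' ℝ} (hC' : C'.PosDef) (ρ : ι' → ι) (t : ℝ)
    (x : Vec r ι') (a : Fin r) (o : ι) : |pmR κ C' ρ t x a o| ≤ K := by
  obtain ⟨h1, -, h3, hZ⟩ := pmR_wt κ hC' ρ t x
  rw [pmR, abs_div, abs_of_pos hZ, div_le_iff₀ hZ, ← integral_const_mul, ← Real.norm_eq_abs]
  refine norm_integral_le_of_norm_le (h3.const_mul K) ?_
  filter_upwards [hK] with u hu
  rw [Real.norm_eq_abs, abs_mul, abs_of_pos (h1 _).1]
  exact mul_le_mul_of_nonneg_right (hu a o) (h1 _).1.le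

theorem pmR_meas (κ : Kernel α (Vec r ι)) [IsMarkovKernel κ] {C' : α → Matrix ι' ι' ℝ}
    (hC' : COK C') (ρ : ι' → ι) (t : ℝ) (a : Fin r) (o : ι) :
    Measurable fun y : α × Vec r ι' => pmR (κ y.1) (C' y.1) ρ t y.2 a o := by
  have hQ := (QFam.Qf hC' id).meas
  have h1 : ∀ b, Measurable fun p : (α × Vec r ι') × Vec r ι => Qf (C' p.1.1) (p.1.2 b - p.2 b ∘ ρ) :=
    fun b => hQ.comp (f := fun p : (α × Vec r ι') × Vec r ι => (p.1.1, p.1.2 b - p.2 b ∘ ρ))
      (by fun_prop)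
  have h2 : Measurable fun p : (α × Vec r ι') × Vec r ι =>
      wt (Qf (C' p.1.1)) (t ^ 2) p.1.2 (fun b => p.2 b ∘ ρ) :=
    (((Finset.measurable_sum _ fun b _ => h1 b).const_mul _).neg.div_const 2).exp
  have h3 : Measurable fun p : (α × Vec r ι') × Vec r ι =>
      p.2 a o * wt (Qf (C' p.1.1)) (t ^ 2) p.1.2 (fun b => p.2 b ∘ ρ) :=
    Measurable.mul (by fun_prop) h2
  exact (h3.stronglyMeasurable.integral_kernel_prod_right'
    (κ := κ.comap Prod.fst measurable_fst)).measurable.div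
    (h2.stronglyMeasurable.integral_kernel_prod_right' (κ := κ.comap Prod.fst measurable_fst)).measurable

/-- Bayes formula for a fixed parameter -/
theorem b2_orth_fix (κ : Measure (Vec r ι)) [IsProbabilityMeasure κ] {K : ℝ}
    (hK : ∀ᵐ u ∂κ, ∀ a o, |u a o| ≤ K) {C : Matrix ι ι ℝ} (hC : C.PosDef) (ρ : ι' → ι)
    (hC' : (C.submatrix ρ ρ).PosDef) {t : ℝ} (ht : 0 < t) {f : Vec r ι' → ℝ} (hf : Measurable f)
    {M : ℝ} (hb : ∀ y, |f y| ≤ M) (a : Fin r) (o : ι)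
    (hp : Measurable fun x => pmR κ (C.submatrix ρ ρ) ρ t x a o) :
    ∫ u, ∫ W, (u a o - pmR κ (C.submatrix ρ ρ) ρ t (fun b => obs C t u W b ∘ ρ) a o) *
      f (fun b => obs C t u W b ∘ ρ) ∂gpi2 (Fin r) ι ∂κ = 0 := by
  set C' := C.submatrix ρ ρ with hC'e
  have hn := b2_nc_pos (r := r) hC' ht
  have hw : Measurable fun p : Vec r ι × Vec r ι' => wt (Qf C') (t ^ 2) p.2 (fun b => p.1 b ∘ ρ) :=
    (b2_meas_wt (b2_meas_Qf C') (t ^ 2)).comp
      (f := fun p : Vec r ι × Vec r ι' => (p.2, (fun b => p.1 b ∘ ρ : Vec r ι'))) (by fun_prop)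
  have m1 : ∀ u : Vec r ι, Measurable fun W : Vec r ι => (fun a => obs C t u W a ∘ ρ : Vec r ι') :=
    fun u => Measurable.comp (g := fun x : Vec r ι => (fun a => x a ∘ ρ : Vec r ι')) (by fun_prop)
      (b2_meas_obs' _ t _)
  have hd : ∀ u : Vec r ι, Measurable fun x : Vec r ι' =>
      ENNReal.ofReal (nc r C' t * wt (Qf C') (t ^ 2) x fun b => u b ∘ ρ) := fun u =>
    ((hw.comp (measurable_const.prodMk measurable_id)).const_mul _).ennreal_ofReal
  have hpos : ∀ (x u : Vec r ι'), 0 < nc r C' t * wt (Qf C') (t ^ 2) x u := fun x u =>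
    mul_pos hn (Real.exp_pos _)
  have e1 : ∀ u : Vec r ι, ∫ W, (u a o - pmR κ C' ρ t (fun b => obs C t u W b ∘ ρ) a o) *
      f (fun b => obs C t u W b ∘ ρ) ∂gpi2 (Fin r) ι =
      ∫ x, (nc r C' t * wt (Qf C') (t ^ 2) x fun b => u b ∘ ρ) *
        ((u a o - pmR κ C' ρ t x a o) * f x) := fun u => by
    have hG : Measurable fun x : Vec r ι' => (u a o - pmR κ C' ρ t x a o) * f x :=
      (measurable_const.sub hp).mul hf
    refine (integral_map (m1 u).aemeasurable hG.aestronglyMeasurable).symm.trans ?_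
    rw [b2_obs_sub hC ρ hC' ht u, integral_withDensity_eq_integral_toReal_smul (hd u)
      (Eventually.of_forall fun _ => ENNReal.ofReal_lt_top)]
    refine integral_congr_ae (Eventually.of_forall fun x => ?_)
    simp only [smul_eq_mul]
    rw [ENNReal.toReal_ofReal (hpos _ _).le]
  have hone : ∀ u : Vec r ι, ∫⁻ x : Vec r ι',
      ENNReal.ofReal (nc r C' t * wt (Qf C') (t ^ 2) x fun b => u b ∘ ρ) = 1 := fun u => by
    have := congrArg (fun μ : Measure (Vec r ι') => μ Set.univ) (b2_obs_sub hC ρ hC' ht u)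
    simp only [withDensity_apply _ MeasurableSet.univ, Measure.restrict_univ] at this
    rw [← this, Measure.map_apply (m1 u) MeasurableSet.univ, Set.preimage_univ, measure_univ]
  have iw : Integrable (fun p : Vec r ι × Vec r ι' =>
      nc r C' t * wt (Qf C') (t ^ 2) p.2 fun b => p.1 b ∘ ρ) (κ.prod volume) := by
    refine ⟨(hw.const_mul _).aestronglyMeasurable, ?_⟩
    rw [hasFiniteIntegral_iff_ofReal (Eventually.of_forall fun p => (hpos _ _).le),
      lintegral_prod _ (hw.const_mul _).ennreal_ofReal.aemeasurable]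
    simp [hone]
  have hint : Integrable (Function.uncurry fun (u : Vec r ι) (x : Vec r ι') =>
      (nc r C' t * wt (Qf C') (t ^ 2) x fun b => u b ∘ ρ) * ((u a o - pmR κ C' ρ t x a o) * f x))
      (κ.prod volume) := by
    refine iw.mul_bdd (c := (K + K) * M) (Measurable.aestronglyMeasurable
      ((Measurable.sub (by fun_prop) (hp.comp measurable_snd)).mul (hf.comp measurable_snd))) ?_
    filter_upwards [Measure.quasiMeasurePreserving_fst.ae hK] with p hp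
    rw [Real.norm_eq_abs, abs_mul]
    exact mul_le_mul ((abs_sub _ _).trans (add_le_add (hp a o) (pmR_bd κ hK hC' ρ t _ a o))) (hb _)
      (abs_nonneg _) (add_nonneg ((abs_nonneg _).trans (hp a o)) ((abs_nonneg _).trans (hp a o)))
  simp only [e1]
  rw [integral_integral_swap hint]
  refine (integral_congr_ae (Eventually.of_forall fun x => ?_)).trans (integral_zero _ _)
  obtain ⟨h1, h2, h3, hZ⟩ := pmR_wt κ hC' ρ t x
  have h4 : Integrable (fun u : Vec r ι => u a o * wt (Qf C') (t ^ 2) x fun b => u b ∘ ρ) κ :=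
    h3.bdd_mul (c := K) (Measurable.aestronglyMeasurable (by fun_prop)) (hK.mono fun u hu => hu a o)
  have e2 : ∀ u : Vec r ι, (nc r C' t * wt (Qf C') (t ^ 2) x fun b => u b ∘ ρ) *
      ((u a o - pmR κ C' ρ t x a o) * f x) = (nc r C' t * f x) *
        ((u a o * wt (Qf C') (t ^ 2) x fun b => u b ∘ ρ) -
          pmR κ C' ρ t x a o * wt (Qf C') (t ^ 2) x fun b => u b ∘ ρ) := fun u => by ring
  simp only [e2]
  rw [integral_const_mul, integral_sub h4 (h3.const_mul _), integral_const_mul, pmR,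
    div_mul_cancel₀ _ hZ.ne', sub_self, mul_zero]

/-- Bayes formula -/
theorem b2_orth (ν : Measure α) [IsProbabilityMeasure ν] (κ : Kernel α (Vec r ι))
    [IsMarkovKernel κ] {K : ℝ} (hK : KBd κ K) (hC : COK C) (ρ : ι' → ι)
    {C' : α → Matrix ι' ι' ℝ} (hC' : COK C') (hsub : ∀ e, C' e = (C e).submatrix ρ ρ) {t : ℝ}
    (ht : 0 < t) {f : α × Vec r ι' → ℝ} (hf : Measurable f) {M : ℝ} (hb : ∀ y, |f y| ≤ M)
    (a : Fin r) (o : ι) :
    ∫ y, (y.1.2 a o - pmean (κ y.1.1) (fun x => Qf (C' y.1.1) (x ∘ ρ)) (t ^ 2) y.2 a o) *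
      f (y.1.1, fun b => y.2 b ∘ ρ) ∂chan (ν ⊗ₘ κ) C t = 0 := by
  simp only [pmR_eq]
  have hp := pmR_meas κ hC' ρ t a o
  have hT : Measurable fun y : (α × Vec r ι) × Vec r ι => ((y.1.1, fun b => y.2 b ∘ ρ) : α × Vec r ι') := by
    fun_prop
  have hG : Measurable fun y : (α × Vec r ι) × Vec r ι =>
      (y.1.2 a o - pmR (κ y.1.1) (C' y.1.1) ρ t (fun b => y.2 b ∘ ρ) a o) *
        f (y.1.1, fun b => y.2 b ∘ ρ) :=
    (Measurable.sub (by fun_prop) (hp.comp hT)).mul (hf.comp hT)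
  have hi : Integrable (fun y : (α × Vec r ι) × Vec r ι =>
      (y.1.2 a o - pmR (κ y.1.1) (C' y.1.1) ρ t (fun b => obs (C y.1.1) t y.1.2 y.2 b ∘ ρ) a o) *
        f (y.1.1, fun b => obs (C y.1.1) t y.1.2 y.2 b ∘ ρ)) ((ν ⊗ₘ κ).prod (gpi2 (Fin r) ι)) := by
    refine Integrable.of_bound (hG.comp (b2_meas_chan hC t)).aestronglyMeasurable ((K + K) * M) ?_
    filter_upwards [Measure.quasiMeasurePreserving_fst.ae (b2_cp_ae_bd ν κ hK)] with p hp
    rw [Real.norm_eq_abs, abs_mul]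
    exact mul_le_mul ((abs_sub _ _).trans (add_le_add (hp a o)
      (pmR_bd _ (hK _) (hC'.pd _) ρ t _ a o))) (hb _)
      (abs_nonneg _) (add_nonneg ((abs_nonneg _).trans (hp a o)) ((abs_nonneg _).trans (hp a o)))
  rw [chan, integral_map (b2_meas_chan hC t).aemeasurable hG.aestronglyMeasurable]
  refine (integral_prod _ hi).trans ?_
  rw [Measure.integral_compProd hi.integral_prod_left]
  refine (integral_congr_ae (Eventually.of_forall fun e => ?_)).trans (integral_zero _ _)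
  have h1 := b2_orth_fix (κ e) (hK e) (hC.pd e) ρ (hsub e ▸ hC'.pd e) ht (f := fun x => f (e, x))
    (hf.comp (measurable_const.prodMk measurable_id)) (fun x => hb _) a o
    (hsub e ▸ hp.comp (measurable_const.prodMk measurable_id))
  rw [← hsub] at h1
  exact h1

/-- integrability of quadratic forms of a.e. bounded vectors -/
theorem b2_int_Q {Y : Type} [MeasurableSpace Y] (μ : Measure Y) [IsFiniteMeasure μ]
    {Q : α → (ι → ℝ) → ℝ} (hQ : QFam Q) {e : Y → α} (he : Measurable e) {v : Y → ι → ℝ}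
    (hv : Measurable v) {M : ℝ} (hb : ∀ᵐ y ∂μ, ∀ o, |v y o| ≤ M) :
    Integrable (fun y => Q (e y) (v y)) μ := by
  obtain ⟨M', h0, hM'⟩ := hQ.bd
  refine Integrable.of_bound (hQ.meas.comp (he.prodMk hv)).aestronglyMeasurable
    (M' * ∑ _o : ι, M ^ 2) ?_
  filter_upwards [hb] with y hy
  refine (hM' _ _).trans (mul_le_mul_of_nonneg_left (Finset.sum_le_sum fun o _ => ?_) h0)
  rw [← sq_abs]; exact pow_le_pow_left₀ (abs_nonneg _) (hy o) 2

/-- Pythagoras -/
theorem b2_pyth (ν : Measure α) [IsProbabilityMeasure ν] (κ : Kernel α (Vec r ι))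
    [IsMarkovKernel κ] {K : ℝ} (hK : KBd κ K) (hC : COK C) (ρ : ι' → ι)
    {C' : α → Matrix ι' ι' ℝ} (hC' : COK C') (hsub : ∀ e, C' e = (C e).submatrix ρ ρ) {t : ℝ}
    (ht : 0 < t) {Q : α → (ι → ℝ) → ℝ} (hQ : QFam Q) {f : α × Vec r ι' → ι → ℝ}
    (hf : Measurable f) {M : ℝ} (hb : ∀ y o, |f y o| ≤ M) (a : Fin r) :
    ∫ y, Q y.1.1 (y.1.2 a - f (y.1.1, fun b => y.2 b ∘ ρ)) ∂chan (ν ⊗ₘ κ) C t =
      ∫ y, Q y.1.1 (y.1.2 a - pmean (κ y.1.1) (fun x => Qf (C' y.1.1) (x ∘ ρ)) (t ^ 2) y.2 a)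
        ∂chan (ν ⊗ₘ κ) C t +
      ∫ y, Q y.1.1 (pmean (κ y.1.1) (fun x => Qf (C' y.1.1) (x ∘ ρ)) (t ^ 2) y.2 a -
        f (y.1.1, fun b => y.2 b ∘ ρ)) ∂chan (ν ⊗ₘ κ) C t := by
  have := b2_chan_prob (ν ⊗ₘ κ) hC t
  set μ := chan (ν ⊗ₘ κ) C t with hμ
  set p : α × Vec r ι' → ι → ℝ := fun y o => pmR (κ y.1) (C' y.1) ρ t y.2 a o with hp
  have mp : Measurable p := measurable_pi_lambda _ fun o => pmR_meas κ hC' ρ t a o
  have bp : ∀ y o, |p y o| ≤ K := fun y o => pmR_bd _ (hK _) (hC'.pd _) ρ t _ a o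
  set T : (α × Vec r ι) × Vec r ι → α × Vec r ι' := fun y => (y.1.1, fun b => y.2 b ∘ ρ) with hTe
  have hT : Measurable T := by fun_prop
  change ∫ y, Q y.1.1 (y.1.2 a - f (T y)) ∂μ = ∫ y, Q y.1.1 (y.1.2 a - p (T y)) ∂μ +
    ∫ y, Q y.1.1 (p (T y) - f (T y)) ∂μ
  have hU := b2_chan_ae_bd ν κ hK hC t
  have i1 : Integrable (fun y => Q y.1.1 (y.1.2 a - p (T y))) μ :=
    b2_int_Q μ hQ (by fun_prop) (Measurable.sub (by fun_prop) (mp.comp hT)) (M := K + K)
      (hU.mono fun y hy o => (abs_sub _ _).trans (add_le_add (hy a o) (bp _ o)))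
  have i2 : Integrable (fun y => Q y.1.1 (p (T y) - f (T y))) μ :=
    b2_int_Q μ hQ (by fun_prop) ((mp.comp hT).sub (hf.comp hT)) (M := K + M)
      (Eventually.of_forall fun y o => (abs_sub _ _).trans (add_le_add (bp _ o) (hb _ o)))
  obtain ⟨B, hB, ⟨M', hM'⟩, h⟩ := hQ
  set g : ι → α × Vec r ι' → ℝ := fun o y => ∑ o', (B y.1 o o' + B y.1 o' o) * (p y o' - f y o')
    with hg
  have mg : ∀ o, Measurable (g o) := fun o => Finset.measurable_sum _ fun o' _ =>
    (((hB o o').comp measurable_fst).add ((hB o' o).comp measurable_fst)).mul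
      (((measurable_pi_apply o').comp mp).sub ((measurable_pi_apply o').comp hf))
  have bg : ∀ o y, |g o y| ≤ ∑ _o' : ι, (M' + M') * (K + M) := fun o y =>
    (Finset.abs_sum_le_sum_abs _ _).trans (Finset.sum_le_sum fun o' _ => (abs_mul _ _).trans_le
      (mul_le_mul ((abs_add_le _ _).trans (add_le_add (hM' _ _ _) (hM' _ _ _)))
        ((abs_sub _ _).trans (add_le_add (bp _ _) (hb _ _))) (abs_nonneg _)
        (add_nonneg ((abs_nonneg _).trans (hM' y.1 o o)) ((abs_nonneg _).trans (hM' y.1 o o)))))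
  have i3 : ∀ o, Integrable (fun y => (y.1.2 a o - p (T y) o) * g o (T y)) μ := fun o => by
    refine Integrable.of_bound (Measurable.aestronglyMeasurable ((Measurable.sub (by fun_prop)
      ((measurable_pi_apply o).comp (mp.comp hT))).mul ((mg o).comp hT)))
      ((K + K) * ∑ _o' : ι, (M' + M') * (K + M)) (hU.mono fun y hy => ?_)
    rw [Real.norm_eq_abs, abs_mul]
    exact mul_le_mul ((abs_sub _ _).trans (add_le_add (hy a o) (bp _ o))) (bg _ _) (abs_nonneg _)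
      (add_nonneg ((abs_nonneg _).trans (hy a o)) ((abs_nonneg _).trans (hy a o)))
  have h0 : ∀ o, ∫ y, (y.1.2 a o - p (T y) o) * g o (T y) ∂μ = 0 := fun o =>
    b2_orth ν κ hK hC ρ hC' hsub ht (mg o) (bg o) a o
  have e : ∀ y : (α × Vec r ι) × Vec r ι, Q y.1.1 (y.1.2 a - f (T y)) =
      Q y.1.1 (y.1.2 a - p (T y)) + Q y.1.1 (p (T y) - f (T y)) +
        ∑ o, (y.1.2 a o - p (T y) o) * g o (T y) := fun y => by
    have hc : ∑ o, ∑ o', (y.1.2 a o - p (T y) o) * (B y.1.1 o' o * (p (T y) o' - f (T y) o')) =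
        ∑ o, ∑ o', (y.1.2 a o' - p (T y) o') * (B y.1.1 o o' * (p (T y) o - f (T y) o)) :=
      Finset.sum_comm
    have hT1 : (T y).1 = y.1.1 := rfl
    simp only [h, hg, Pi.sub_apply, Finset.mul_sum, add_mul, mul_add, Finset.sum_add_distrib, hT1, hc]
    simp only [← Finset.sum_add_distrib]
    exact Finset.sum_congr rfl fun o _ => Finset.sum_congr rfl fun o' _ => by ring
  simp only [e]
  have i12 : Integrable (fun y => Q y.1.1 (y.1.2 a - p (T y)) + Q y.1.1 (p (T y) - f (T y))) μ :=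
    i1.add i2
  rw [integral_add i12 (integrable_finsetSum _ fun o _ => i3 o), integral_add i1 i2,
    integral_finsetSum _ fun o _ => i3 o]
  simp [h0]

end Crest.Agent.R166
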