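import Crest.Agent.R166.B2.MI
import Crest.Agent.R166.B2.MMSE

/-!
# Row 166, block B2: the inequality at a fixed `z` for a bounded prior
-/

set_option autoImplicit false

open MeasureTheory ProbabilityTheory Filter Topology
open scoped ENNReal NNReal BigOperators Matrix

noncomputable section

namespace Crest.Agent.R166

variable {q r : ℕ} {π : Measure II} [IsProbabilityMeasure π] {s : ℝ} {z : ℂ}

theorem b2_step (hT0 : StT0) (hEnv : StEnv) (hs0 : 0 ≤ s) (hs1 : s ≤ 1) (hz : 0 < z.im)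
    (κ : Kernel (SEnv q) (Vec r (SI q))) [IsMarkovKernel κ] {K : ℝ} (h0 : 0 ≤ K) (hK : KBd κ K)
    (rot : ∀ k, (starLaw q π ⊗ₘ κ).map (rotS k) = starLaw q π ⊗ₘ κ)
    (swap : ((starLaw q π ⊗ₘ κ).map (edgeOf 0)).map swapE = (starLaw q π ⊗ₘ κ).map (edgeOf 0))
    (hE : EntIneq q r π s z (starLaw q π ⊗ₘ κ)) :
    ∫⁻ t in Set.Ioo (0 : ℝ) 1, ENNReal.ofReal t * ∫⁻ y, ENNReal.ofReal (Dz s z (κ y.1.1) t y.1.1 y.2)
        ∂chan (starLaw q π ⊗ₘ κ) (fun e => imM (GS s z e)) t ≤
      ENNReal.ofReal (∫ p, ∑ a, (NS s z.re p.1.1 (p.2 a) ^ 2 / z.im + z.im * p.2 a none ^ 2)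
        ∂(starLaw q π ⊗ₘ κ)) := by
  set P := starLaw q π ⊗ₘ κ with hP
  have := Measure.isProbabilityMeasure_map (μ := P) (b2_meas_edgeOf (q := q) (r := r) 0).aemeasurable
  have hbP : ∀ᵐ p ∂P, ∀ a o, |p.2 a o| ≤ K := by
    refine Measure.ae_compProd_of_ae_ae ?_ (Eventually.of_forall hK)
    simp only [Set.ofPred_forall]
    exact MeasurableSet.iInter fun a => MeasurableSet.iInter fun o =>
      measurableSet_le (by fun_prop) measurable_const
  obtain ⟨κE, hM, hKE, hdis⟩ := b2_exists_kernel (P.map (edgeOf 0)) h0 (by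
    refine (ae_map_iff (b2_meas_edgeOf 0).aemeasurable ?_).2 ?_
    · simp only [Set.ofPred_forall]
      exact MeasurableSet.iInter fun a => MeasurableSet.iInter fun o =>
        measurableSet_le (by fun_prop) measurable_const
    · filter_upwards [hbP] with p hp a o
      rw [b2_edgeOf_eq]; exact hp a _)
  have hfst : (P.map (edgeOf 0)).fst = edgeLaw q π := by
    rw [← ((hEnv q π).2.2.1 0).map_eq, ← Measure.fst_compProd (starLaw q π) κ, ← hP, Measure.fst,
      Measure.fst, Measure.map_map measurable_fst (b2_meas_edgeOf 0),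
      Measure.map_map ((hEnv q π).2.2.1 0).measurable measurable_fst]
    rfl
  rw [hfst] at hdis
  have hPE : ∀ j, P.map (edgeOf j) = edgeLaw q π ⊗ₘ κE := fun j => by
    rw [b2_map_edgeOf P rot j, hdis]
  rw [hdis] at swap
  obtain ⟨h1, h2, -⟩ := b2_tree (q := q) hT0 hs0 hs1 hz
  have hmi := b2_mi hT0 hs0 hs1 hz κ hK κE hKE hPE swap hE
  have i1 := b2_mm_int (starLaw q π) κ hK h1
  have i2 := b2_mm_int (edgeLaw q π) κE hKE h2
  set R := ∫ p, ∑ a, (NS s z.re p.1.1 (p.2 a) ^ 2 / z.im + z.im * p.2 a none ^ 2) ∂P with hR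
  have hR0 : 0 ≤ R := integral_nonneg fun p => Finset.sum_nonneg fun a _ =>
    add_nonneg (div_nonneg (sq_nonneg _) hz.le) (mul_nonneg hz.le (sq_nonneg _))
  have hD0 : ∀ (t : ℝ) (y : SState q r × Vec r (SI q)), 0 ≤ Dz s z (κ y.1.1) t y.1.1 y.2 :=
    fun t y => Finset.sum_nonneg fun _ _ => Finset.sum_nonneg fun _ _ =>
      b2_qf_nonneg (((hT0 q s hs0 hs1).1 z hz).2.2 _).1 _ _
  set g : ℝ → ℝ := fun t => ((q : ℝ) + 1) / 2 *
    (t * mm κE (edgeLaw q π ⊗ₘ κE) (fun e => imM (GE s z e)) t) -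
    t * mm κ P (fun e => imM (GS s z e)) t + R with hg
  have ig : IntervalIntegrable g volume 0 1 := ((i2.const_mul _).sub i1).add intervalIntegrable_const
  have hb : ∀ t ∈ Set.Ioo (0 : ℝ) 1, t * ∫ y, Dz s z (κ y.1.1) t y.1.1 y.2
      ∂chan P (fun e => imM (GS s z e)) t ≤ g t := fun t ht => by
    have := mul_le_mul_of_nonneg_left
      (b2_mmse hT0 hs0 hs1 hz κ hK κE hKE hPE swap ht.1).2 ht.1.le
    have h3 : t * R ≤ R := mul_le_of_le_one_left hR0 ht.2.le
    simp only [hg]
    linarith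
  have ig' : IntegrableOn g (Set.Ioo 0 1) volume :=
    (intervalIntegrable_iff_integrableOn_Ioo_of_le zero_le_one).1 ig
  calc _ ≤ ∫⁻ t in Set.Ioo (0 : ℝ) 1, ENNReal.ofReal (g t) := by
        refine setLIntegral_mono' measurableSet_Ioo fun t ht => ?_
        rw [← ofReal_integral_eq_lintegral_ofReal
          (b2_mmse hT0 hs0 hs1 hz κ hK κE hKE hPE swap ht.1).1 (Eventually.of_forall (hD0 t)),
          ← ENNReal.ofReal_mul ht.1.le]
        exact ENNReal.ofReal_le_ofReal (hb t ht)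
    _ = ENNReal.ofReal (∫ t in Set.Ioo (0 : ℝ) 1, g t) := by
        rw [ofReal_integral_eq_lintegral_ofReal ig']
        filter_upwards [ae_restrict_mem measurableSet_Ioo] with t ht
        exact (mul_nonneg ht.1.le (integral_nonneg (hD0 t))).trans (hb t ht)
    _ ≤ ENNReal.ofReal R := by
        refine ENNReal.ofReal_le_ofReal ?_
        rw [← integral_Ioc_eq_integral_Ioo, ← intervalIntegral.integral_of_le zero_le_one, hg,
          intervalIntegral.integral_add ((i2.const_mul _).sub i1) intervalIntegrable_const,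
          intervalIntegral.integral_sub (i2.const_mul _) i1, intervalIntegral.integral_const_mul,
          intervalIntegral.integral_const]
        simp only [sub_zero, smul_eq_mul, one_mul]
        linarith

end Crest.Agent.R166
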